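import Vale.Agent.P032.H538.HexW

/-!
# P032: the hexagon count with one exceptional time

`HexW.dich1` : if the sixty degree rule holds at all times except `t₀` (mod 6) (nothing is asked at
`t₀`), then the winding number is odd, or the letters are frozen at all times outside `t₀ + ℤ`.
`HexW.ring_odd1` : ring form.
-/

open Set Filter Topology

noncomputable section

namespace Vale.Agent.P032.H538

open Vale.Agent.P032.H180

variable {Q : ℝ → Set (Fin 3)} {r : ℝ → Fin 3}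

theorem const_ord {f : ℝ → ℤ} {B S : Set ℝ} (hS : S.OrdConnected) (hSB : S ⊆ B)
    (hf : ∀ t ∈ S, ∀ᶠ s in 𝓝[B] t, f s = f t) : ∀ s ∈ S, ∀ t ∈ S, f s = f t := by
  intro s hs t ht
  have hc : ContinuousOn f S := fun x hx =>
    ((tendsto_const_nhds (x := f x)).congr' ((hf x hx).mono fun y hy => hy.symm)).mono_left
      (nhdsWithin_mono x hSB)
  exact hS.isPreconnected.constant hc hs ht

/-- **The hexagon count with one exceptional time.** -/
theorem HexW.dich1 (h : HexW Q r) (t₀ : ℝ)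
    (inc : ∀ t, (∀ n : ℤ, t ≠ t₀ + 6 * n) → ¬ Qt Q r t ⊆ Qt Q r (t + 1))
    (inc' : ∀ t, (∀ n : ℤ, t ≠ t₀ + 6 * n) → ¬ Qt Q r (t + 1) ⊆ Qt Q r t)
    (nbad : ∀ t, (∀ n : ℤ, t ≠ t₀ + 6 * n) → Q t = univ → Q (t + 1) = univ →
      ∀ᶠ s in 𝓝 t, ¬ (Q s = {r (t + 1)} ∧ Q (s + 1) = {r t})) :
    ∃ ℓ : ℝ → Fin 3 → ℤ, Sec (Icc (0 : ℝ) 12) Q (phz Q r) ℓ ∧
    (∀ t ∈ Icc (0 : ℝ) 12, ∀ i ∈ Q t, (3 : ℤ) ∣ ℓ t i - (i : ℕ)) ∧
    (((∀ t ∈ Icc (0 : ℝ) 6, (∀ n : ℤ, t ≠ t₀ + n) →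
        ∀ l, l ∈ Qt Q r t ↔ l + 1 ∈ Qt Q r (t + 1)) ∨
      ∀ t ∈ Icc (0 : ℝ) 6, (∀ n : ℤ, t ≠ t₀ + n) →
        ∀ l, l ∈ Qt Q r t ↔ l + 2 ∈ Qt Q r (t + 1)) ∨
      ∀ i ∈ Qt Q r 0, ((ℓ 6 i + 2) / 3 - (ℓ 0 i + 2) / 3) % 2 = 1) := by
  obtain ⟨ℓ, M, hℓ, hd, hM, hMloc, hMℓ⟩ := h.exM
  refine ⟨ℓ, hℓ, hd, ?_⟩
  have hQ6 : ∀ t, Qt Q r (t + 6) = Qt Q r t := by
    intro t
    unfold Qt
    rw [h.per, h.rper]
  -- steps
  have hE : ∀ t ∈ Icc (0 : ℝ) 11, (∀ n : ℤ, t ≠ t₀ + 6 * n) →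
      (M (t + 1) - M t) % 6 = 2 ∨ (M (t + 1) - M t) % 6 = 3 ∨ (M (t + 1) - M t) % 6 = 4 := by
    intro t ht hg
    have ht0 : t ∈ Icc (0 : ℝ) 12 := ⟨ht.1, by linarith [ht.2]⟩
    have ht1 : t + 1 ∈ Icc (0 : ℝ) 12 := ⟨by linarith [ht.1], by linarith [ht.2]⟩
    apply incomparable_mod
    · have := inc t hg
      rw [Set.not_subset] at this
      obtain ⟨l, hl, hl'⟩ := this
      exact ⟨l, (hM t ht0 l).1 hl, fun hc => hl' ((hM _ ht1 l).2 hc)⟩
    · have := inc' t hg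
      rw [Set.not_subset] at this
      obtain ⟨l, hl, hl'⟩ := this
      exact ⟨l, (hM _ ht1 l).1 hl, fun hc => hl' ((hM _ ht0 l).2 hc)⟩
  have hap : ∀ τ ∈ Icc (0 : ℝ) 12, Q τ = univ → M τ % 6 = (2 * ((r τ : ℕ) : ℤ)) % 6 := by
    intro τ hτ hu
    refine res_apex fun l => ?_
    rw [← hM τ hτ l, Qt_of_eq hu]
    rfl
  -- near a good time all times are good
  have hgl : ∀ t, (∀ n : ℤ, t ≠ t₀ + 6 * n) → ∀ᶠ s in 𝓝 t, ∀ n : ℤ, s ≠ t₀ + 6 * n := by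
    intro t hg
    set m := ⌊(t - t₀) / 6⌋ with hm
    have f1 := Int.floor_le ((t - t₀) / 6)
    have f2 := Int.lt_floor_add_one ((t - t₀) / 6)
    rw [← hm] at f1 f2
    have f3 := hg m
    have f4 : t₀ + 6 * m < t := lt_of_le_of_ne (by linarith) (Ne.symm f3)
    have f5 : t < t₀ + 6 * (m + 1) := by linarith
    filter_upwards [Ioo_mem_nhds f4 f5] with s hs n hc
    have g1 : (m : ℝ) < n := by linarith [hs.1]
    have g2 : (n : ℝ) < m + 1 := by linarith [hs.2]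
    have g3 : m < n := by exact_mod_cast g1
    have g4 : n < m + 1 := by exact_mod_cast g2
    omega
  have hEloc : ∀ t ∈ Icc (0 : ℝ) 11, (∀ n : ℤ, t ≠ t₀ + 6 * n) → ∀ᶠ s in 𝓝[Icc (0 : ℝ) 11] t,
      (M (s + 1) - M s - 2) / 6 = (M (t + 1) - M t - 2) / 6 := by
    intro t ht hg
    have ht0 : t ∈ Icc (0 : ℝ) 12 := ⟨ht.1, by linarith [ht.2]⟩
    have ht1 : t + 1 ∈ Icc (0 : ℝ) 12 := ⟨by linarith [ht.1], by linarith [ht.2]⟩
    have h1 := (tendsto_add_Icc (t := t) (a := 0) (b := 11) (a' := 0) (b' := 12) (c := 1)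
      fun s hs => ⟨by linarith [hs.1], by linarith [hs.2]⟩).eventually (hMloc _ ht1)
    have h2 := nhdsWithin_mono t (Icc_subset_Icc le_rfl (by norm_num : (11 : ℝ) ≤ 12))
      (hMloc t ht0)
    have h3 : ∀ᶠ s in 𝓝[Icc (0 : ℝ) 11] t, Q t = univ → Q (t + 1) = univ →
        ¬ (Q s = {r (t + 1)} ∧ Q (s + 1) = {r t}) := by
      by_cases c1 : Q t = univ
      · by_cases c2 : Q (t + 1) = univ
        · exact mem_nhdsWithin_of_mem_nhds ((nbad t hg c1 c2).mono fun s hs _ _ => hs)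
        · exact Eventually.of_forall fun s _ h5 => absurd h5 c2
      · exact Eventually.of_forall fun s h5 => absurd h5 c1
    filter_upwards [h1, h2, h3, self_mem_nhdsWithin, mem_nhdsWithin_of_mem_nhds (hgl t hg)]
      with s hs1 hs2 hs3 hs hs4
    by_cases c1 : Q t = univ
    · by_cases c2 : Q (t + 1) = univ
      · obtain ⟨q1, q2⟩ := apex_two (hap t ht0 c1) (hap _ ht1 c2)
        refine step_const (hE t ht hg) (hE s hs hs4) hs2.two hs1.two (fun a1 a2 a3 => ?_)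
          fun a1 a2 a3 => ?_
        · refine hs3 c1 c2 ⟨?_, ?_⟩
          · rw [hs2.pos a2, (q1 a1).1]
          · rw [hs1.neg a3, (q1 a1).2]
        · refine hs3 c1 c2 ⟨?_, ?_⟩
          · rw [hs2.neg a2, (q2 a1).1]
          · rw [hs1.pos a3, (q2 a1).2]
      · have a4 := abs_le.1 (hs1.one c2)
        exact step_const (hE t ht hg) (hE s hs hs4) hs2.two hs1.two
          (fun a1 a2 a3 => by linarith [a4.1]) (fun a1 a2 a3 => by linarith [a4.2])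
    · have a4 := abs_le.1 (hs2.one c1)
      exact step_const (hE t ht hg) (hE s hs hs4) hs2.two hs1.two
        (fun a1 a2 a3 => by linarith [a4.2]) (fun a1 a2 a3 => by linarith [a4.1])
  have hD : ∀ t ∈ Icc (0 : ℝ) 6, (M (t + 6) - M t) % 6 = 0 := by
    intro t ht
    have ht0 : t ∈ Icc (0 : ℝ) 12 := ⟨ht.1, by linarith [ht.2]⟩
    have ht1 : t + 6 ∈ Icc (0 : ℝ) 12 := ⟨by linarith [ht.1], by linarith [ht.2]⟩
    apply eq_mod_of_res
    intro l
    rw [← hM t ht0 l, ← hM _ ht1 l, hQ6]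
  have hDloc : ∀ t ∈ Icc (0 : ℝ) 6, ∀ᶠ s in 𝓝[Icc (0 : ℝ) 6] t,
      M (s + 6) - M s = M (t + 6) - M t := by
    intro t ht
    have ht0 : t ∈ Icc (0 : ℝ) 12 := ⟨ht.1, by linarith [ht.2]⟩
    have ht1 : t + 6 ∈ Icc (0 : ℝ) 12 := ⟨by linarith [ht.1], by linarith [ht.2]⟩
    have h1 := (tendsto_add_Icc (t := t) (a := 0) (b := 6) (a' := 0) (b' := 12) (c := 6)
      fun s hs => ⟨by linarith [hs.1], by linarith [hs.2]⟩).eventually (hMloc _ ht1)
    have h2 := nhdsWithin_mono t (Icc_subset_Icc le_rfl (by norm_num : (6 : ℝ) ≤ 12))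
      (hMloc t ht0)
    filter_upwards [h1, h2, self_mem_nhdsWithin] with s hs1 hs2 hs
    have e1 := hD s hs
    have e2 := hD t ht
    have e3 := abs_le.1 hs1.two
    have e4 := abs_le.1 hs2.two
    omega
  have hW := const_of_loc hDloc
  have z0 : (0 : ℝ) ∈ Icc (0 : ℝ) 12 := ⟨le_rfl, by norm_num⟩
  have z6 : (6 : ℝ) ∈ Icc (0 : ℝ) 12 := ⟨by norm_num, by norm_num⟩
  by_cases hpar : (M 6 - M 0) % 12 = 0
  swap
  · right
    intro i hi
    have hi6 : i ∈ Qt Q r 6 := by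
      have := hQ6 0
      rw [zero_add] at this
      rw [this]; exact hi
    have a0 := hd 0 z0 i hi.1
    have a6 := hd 6 z6 i hi6.1
    have b0 := hMℓ 0 z0 i hi
    have b6 := hMℓ 6 z6 i hi6
    have c0 := hD 0 ⟨le_rfl, by norm_num⟩
    rw [zero_add] at c0
    rw [abs_le] at b0 b6
    obtain ⟨k0, hk0⟩ := a0
    obtain ⟨k6, hk6⟩ := a6
    omega
  left
  have hDt : ∀ t ∈ Icc (0 : ℝ) 6, (M (t + 6) - M t) % 12 = 0 := by
    intro t ht
    rw [hW t ht 0 ⟨le_rfl, by norm_num⟩, zero_add]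
    exact hpar
  -- the exceptional times between 0 and 11
  obtain ⟨m₀, hm0, hm1⟩ : ∃ m₀ : ℤ, 0 ≤ t₀ - 6 * m₀ ∧ t₀ - 6 * m₀ < 6 := by
    refine ⟨⌊t₀ / 6⌋, ?_, ?_⟩
    · have := Int.floor_le (t₀ / 6); linarith
    · have := Int.lt_floor_add_one (t₀ / 6); linarith
  set τ := t₀ - 6 * (m₀ : ℝ) with hτ
  have hgood : ∀ t ∈ Icc (0 : ℝ) 11, t ≠ τ → t ≠ τ + 6 → ∀ n : ℤ, t ≠ t₀ + 6 * n := by
    intro t ht h1 h2 n hc
    have g1 : t = τ + 6 * ((n + m₀ : ℤ) : ℝ) := by rw [hτ, hc]; push_cast; ring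
    have g2 : (-1 : ℝ) < ((n + m₀ : ℤ) : ℝ) := by linarith [ht.1]
    have g3 : ((n + m₀ : ℤ) : ℝ) < 2 := by linarith [ht.2]
    have g4 : -1 < n + m₀ := by exact_mod_cast g2
    have g5 : n + m₀ < 2 := by exact_mod_cast g3
    have g6 : n + m₀ = 0 ∨ n + m₀ = 1 := by omega
    rcases g6 with g6 | g6
    · rw [g6] at g1; apply h1; rw [g1]; simp
    · rw [g6] at g1; apply h2; rw [g1]; simp
  set ν : ℝ → ℤ := fun t => (M (t + 1) - M t - 2) / 6 with hν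
  set N := ν (τ + 1) with hN
  have B2 : ∀ t ∈ Icc (0 : ℝ) 11, τ < t → t < τ + 6 → ν t = N := by
    intro t ht h1 h2
    refine const_ord (S := Icc (0 : ℝ) 11 ∩ Ioo τ (τ + 6)) (ordConnected_Icc.inter ordConnected_Ioo)
      inter_subset_left (f := ν) (fun s hs => hEloc s hs.1 (hgood s hs.1 (ne_of_gt hs.2.1)
        (ne_of_lt hs.2.2))) t ⟨ht, h1, h2⟩ (τ + 1) ⟨⟨by linarith, by linarith⟩, by linarith,
          by linarith⟩
  have B1 : ∀ t ∈ Icc (0 : ℝ) 11, t < τ → ν t = N := by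
    intro t ht h1
    have e1 : ν t = ν 0 := const_ord (S := Icc (0 : ℝ) 11 ∩ Iio τ)
      (ordConnected_Icc.inter ordConnected_Iio) inter_subset_left (f := ν)
      (fun s hs => hEloc s hs.1 (hgood s hs.1 (ne_of_lt hs.2) (ne_of_lt (by
        have : s < τ := hs.2
        linarith)))) t ⟨ht, h1⟩ 0 ⟨⟨le_rfl, by norm_num⟩, show (0 : ℝ) < τ by linarith [ht.1]⟩
    have e2 := B2 6 ⟨by norm_num, by norm_num⟩ (by linarith) (by linarith [ht.1])
    have e3 := hW 1 ⟨by norm_num, by norm_num⟩ 0 ⟨le_rfl, by norm_num⟩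
    rw [e1, ← e2]
    show (M (0 + 1) - M 0 - 2) / 6 = (M (6 + 1) - M 6 - 2) / 6
    have e4 : (1 : ℝ) + 6 = 6 + 1 := by norm_num
    rw [e4] at e3
    rw [zero_add] at e3 ⊢
    congr 1
    linarith
  have B3 : ∀ t ∈ Icc (0 : ℝ) 11, τ + 6 < t → ν t = N := by
    intro t ht h1
    have e1 : ν t = ν 11 := const_ord (S := Icc (0 : ℝ) 11 ∩ Ioi (τ + 6))
      (ordConnected_Icc.inter ordConnected_Ioi) inter_subset_left (f := ν)
      (fun s hs => hEloc s hs.1 (hgood s hs.1 (ne_of_gt (by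
        have : τ + 6 < s := hs.2
        linarith)) (ne_of_gt hs.2))) t ⟨ht, h1⟩ 11 ⟨⟨by norm_num, le_rfl⟩,
          show τ + 6 < 11 by linarith [ht.2]⟩
    have e2 := B2 5 ⟨by norm_num, by norm_num⟩ (by linarith [ht.2]) (by linarith)
    have e3 := hW 6 ⟨by norm_num, by norm_num⟩ 5 ⟨by norm_num, by norm_num⟩
    rw [e1, ← e2]
    show (M (11 + 1) - M 11 - 2) / 6 = (M (5 + 1) - M 5 - 2) / 6
    have e4 : (6 : ℝ) + 6 = 11 + 1 := by norm_num
    have e5 : (5 : ℝ) + 6 = 11 := by norm_num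
    have e6 : (5 : ℝ) + 1 = 6 := by norm_num
    rw [e4, e5] at e3
    rw [e6]
    congr 1
    linarith
  have hr : ∀ t ∈ Icc (0 : ℝ) 11, t ≠ τ → t ≠ τ + 6 → M (t + 1) - M t = 6 * N + 2 ∨
      M (t + 1) - M t = 6 * N + 3 ∨ M (t + 1) - M t = 6 * N + 4 := by
    intro t ht h1 h2
    have e1 : ν t = N := by
      rcases lt_or_gt_of_ne h1 with h3 | h3
      · exact B1 t ht h3
      · rcases lt_or_gt_of_ne h2 with h4 | h4
        · exact B2 t ht h3 h4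
        · exact B3 t ht h4
    have e2 := hE t ht (hgood t ht h1 h2)
    have e3 : (M (t + 1) - M t - 2) / 6 = N := e1
    omega
  have tele : ∀ t ∈ Icc (0 : ℝ) 6, (∀ n : ℤ, t ≠ t₀ + n) →
      (M (t + 1) - M t = 6 * N + 2 ∧ M (t + 6) - M t = 36 * N + 12) ∨
      (M (t + 1) - M t = 6 * N + 4 ∧ M (t + 6) - M t = 36 * N + 24) := by
    intro t ht hg
    have hnt : ∀ j : ℤ, t + j ≠ τ ∧ t + j ≠ τ + 6 := by
      intro j
      constructor
      · intro hc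
        refine hg (-6 * m₀ - j) ?_
        push_cast
        rw [hτ] at hc
        linarith
      · intro hc
        refine hg (-6 * m₀ - j + 6) ?_
        push_cast
        rw [hτ] at hc
        linarith
    have n0 := hnt 0
    have n1 := hnt 1
    have n2 := hnt 2
    have n3 := hnt 3
    have n4 := hnt 4
    have n5 := hnt 5
    simp only [Int.cast_zero, add_zero] at n0
    simp only [Int.cast_one] at n1
    simp only [Int.cast_ofNat] at n2 n3 n4 n5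
    have r0 := hr t ⟨ht.1, by linarith [ht.2]⟩ n0.1 n0.2
    have r1 := hr (t + 1) ⟨by linarith [ht.1], by linarith [ht.2]⟩ n1.1 n1.2
    have r2 := hr (t + 2) ⟨by linarith [ht.1], by linarith [ht.2]⟩ n2.1 n2.2
    have r3 := hr (t + 3) ⟨by linarith [ht.1], by linarith [ht.2]⟩ n3.1 n3.2
    have r4 := hr (t + 4) ⟨by linarith [ht.1], by linarith [ht.2]⟩ n4.1 n4.2
    have r5 := hr (t + 5) ⟨by linarith [ht.1], by linarith [ht.2]⟩ n5.1 n5.2
    have q1 : t + 1 + 1 = t + 2 := by ring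
    have q2 : t + 2 + 1 = t + 3 := by ring
    have q3 : t + 3 + 1 = t + 4 := by ring
    have q4 : t + 4 + 1 = t + 5 := by ring
    have q5 : t + 5 + 1 = t + 6 := by ring
    rw [q1] at r1
    rw [q2] at r2
    rw [q3] at r3
    rw [q4] at r4
    rw [q5] at r5
    exact tele_int r0 r1 r2 r3 r4 r5 (hDt t ht)
  have m1 : ∀ l : Fin 3, (((l + 1 : Fin 3) : ℕ) : ℤ) % 3 = (((l : ℕ) : ℤ) + 1) % 3 := by decide
  have m2 : ∀ l : Fin 3, (((l + 2 : Fin 3) : ℕ) : ℤ) % 3 = (((l : ℕ) : ℤ) + 2) % 3 := by decide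
  have fin : ∀ t ∈ Icc (0 : ℝ) 6, t ∈ Icc (0 : ℝ) 12 ∧ t + 1 ∈ Icc (0 : ℝ) 12 := fun t ht =>
    ⟨⟨ht.1, by linarith [ht.2]⟩, ⟨by linarith [ht.1], by linarith [ht.2]⟩⟩
  have hW0 : ∀ t ∈ Icc (0 : ℝ) 6, M (t + 6) - M t = M 6 - M 0 := by
    intro t ht
    have := hW t ht 0 ⟨le_rfl, by norm_num⟩
    rwa [zero_add] at this
  by_cases t0 : M 6 - M 0 = 36 * N + 12
  · left
    intro t ht hg l
    rw [hM t (fin t ht).1 l, hM _ (fin t ht).2 (l + 1)]
    refine res_shift (N := N) (c := 1) ?_ (m1 l)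
    have e1 := tele t ht hg
    have e2 := hW0 t ht
    omega
  · right
    intro t ht hg l
    rw [hM t (fin t ht).1 l, hM _ (fin t ht).2 (l + 2)]
    refine res_shift (N := N) (c := 2) ?_ (m2 l)
    have e1 := tele t ht hg
    have e2 := hW0 t ht
    omega

/-- **Ring form.** `K` is the palette of the labels: at a full time only the apex, and a label of
`K t` outside `Q t` is unique and only present if `Q t` is a single label. -/
theorem HexW.ring_odd1 (h : HexW Q r) (t₀ : ℝ)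
    (inc : ∀ t, (∀ n : ℤ, t ≠ t₀ + 6 * n) → ¬ Qt Q r t ⊆ Qt Q r (t + 1))
    (inc' : ∀ t, (∀ n : ℤ, t ≠ t₀ + 6 * n) → ¬ Qt Q r (t + 1) ⊆ Qt Q r t)
    (nbad : ∀ t, (∀ n : ℤ, t ≠ t₀ + 6 * n) → Q t = univ → Q (t + 1) = univ →
      ∀ᶠ s in 𝓝 t, ¬ (Q s = {r (t + 1)} ∧ Q (s + 1) = {r t}))
    (hnf : ¬ ((∀ t ∈ Icc (0 : ℝ) 6, (∀ n : ℤ, t ≠ t₀ + n) →
        ∀ l, l ∈ Qt Q r t ↔ l + 1 ∈ Qt Q r (t + 1)) ∨
      ∀ t ∈ Icc (0 : ℝ) 6, (∀ n : ℤ, t ≠ t₀ + n) →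
        ∀ l, l ∈ Qt Q r t ↔ l + 2 ∈ Qt Q r (t + 1)))
    {K : ℝ → Set (Fin 3)} (hKne : ∀ t, (K t).Nonempty) (hKu : ∀ t, ∀ᶠ s in 𝓝 t, K s ⊆ K t)
    (hK1 : ∀ t, ∀ i ∈ K t, i ∉ Q t → ∃ m, Q t = {m})
    (hK2 : ∀ t, ∀ i ∈ K t, ∀ j ∈ K t, i ∉ Q t → j ∉ Q t → i = j)
    (hK3 : ∀ t, Q t = univ → ∀ i ∈ K t, i = r t) :
    ∃ δ > 0, ∀ (n : ℕ) (s : ℕ → ℝ) (lab : ℕ → Fin 3), (∀ k ≤ n, s k ∈ Icc (0 : ℝ) 6) → s 0 = 0 →
      s n = 6 → (∀ k < n, |s k - s (k + 1)| < δ) → (∀ k ≤ n, lab k ∈ K (s k)) → lab n = lab 0 →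
      ∑ k ∈ Finset.range n, f2 (lab k) (lab (k + 1)) = 1 := by
  classical
  obtain ⟨ℓ, hℓ, hd, hor⟩ := h.dich1 t₀ inc inc' nbad
  have hor' := hor.resolve_left hnf
  set g : ℝ → Fin 3 → ZMod 2 := fun t i => (((ℓ t i + 2) / 3 : ℤ) : ZMod 2) with hg
  have hf : ∀ t ∈ Icc (0 : ℝ) 12, ∀ i ∈ Q t, ∀ j ∈ Q t, (Q t ≠ univ ∨ i = r t ∨ j = r t ∨ i = j) →
      f2 i j = g t j - g t i := by
    intro t ht i hi j hj hor
    refine f2_lift (hd t ht i hi) ?_
    rw [← hℓ.diff t ht i hi j hj]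
    rcases hor with h1 | h1
    · unfold phz
      rw [if_neg h1]
    · exact phz_tree h1
  -- three labels
  have hthree : ∀ t, ∀ i ∈ K t, ∀ j ∈ K t, ∀ l ∈ K t, ¬ (i ≠ j ∧ j ≠ l ∧ i ≠ l) := by
    intro t i hi j hj l hl h3
    by_cases hu : Q t = univ
    · exact h3.1 ((hK3 t hu i hi).trans (hK3 t hu j hj).symm)
    · by_cases hall : i ∈ Q t ∧ j ∈ Q t ∧ l ∈ Q t
      · exact hu (univ_of_three hall.1 hall.2.1 hall.2.2 h3)
      · obtain ⟨m, hm⟩ : ∃ m, Q t = {m} := by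
          by_cases c1 : i ∈ Q t
          · by_cases c2 : j ∈ Q t
            · exact hK1 t l hl fun c3 => hall ⟨c1, c2, c3⟩
            · exact hK1 t j hj c2
          · exact hK1 t i hi c1
        have hmm : ∀ y ∈ Q t, y = m := fun y hy => by rw [hm] at hy; exact hy
        by_cases c1 : i ∈ Q t
        · by_cases c2 : j ∈ Q t
          · exact h3.1 ((hmm i c1).trans (hmm j c2).symm)
          · by_cases c3 : l ∈ Q t
            · exact h3.2.2 ((hmm i c1).trans (hmm l c3).symm)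
            · exact h3.2.1 (hK2 t j hj l hl c2 c3)
        · by_cases c2 : j ∈ Q t
          · by_cases c3 : l ∈ Q t
            · exact h3.2.1 ((hmm j c2).trans (hmm l c3).symm)
            · exact h3.2.2 (hK2 t i hi l hl c1 c3)
          · exact h3.1 (hK2 t i hi j hj c1 c2)
  have hTor : Tor (Icc (0 : ℝ) 6) K fun _ => f2 :=
    ⟨fun t _ => hKne t, fun t _ i hi j hj l hl => f2_coc _ _ _ (hthree t i hi j hj l hl),
      fun t _ => mem_nhdsWithin_of_mem_nhds ((hKu t).mono fun _ hs => ⟨hs, fun _ _ _ _ => rfl⟩)⟩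
  -- the primitive
  set m : ℝ → Fin 3 := fun t => (h.ne t).some with hm
  have hmQ : ∀ t, m t ∈ Q t := fun t => (h.ne t).some_mem
  set G : ℝ → Fin 3 → ZMod 2 := fun t i => if i ∈ Q t then g t i else g t (m t) + f2 (m t) i
    with hG
  have hG1 : ∀ t i, i ∈ Q t → G t i = g t i := fun t i hi => by simp only [hG, if_pos hi]
  have hG2 : ∀ t i, i ∉ Q t → ∀ m', Q t = {m'} → G t i = g t m' + f2 m' i := by
    intro t i hi m' hm'
    have h1 : m t = m' := by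
      have := hmQ t
      rw [hm'] at this
      exact this
    simp only [hG, if_neg hi, h1]
  have hneg : ∀ a b : ZMod 2, a - b = a + b := by decide
  have two : ∀ a : ZMod 2, a + a = 0 := by decide
  have hSec : Sec (Icc (0 : ℝ) 6) K (fun _ => f2) G := by
    refine ⟨fun t ht i hi j hj => ?_, fun t ht => ?_⟩
    · have ht' : t ∈ Icc (0 : ℝ) 12 := ⟨ht.1, by linarith [ht.2]⟩
      by_cases c1 : i ∈ Q t
      · by_cases c2 : j ∈ Q t
        · rw [hG1 t i c1, hG1 t j c2]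
          refine hf t ht' i c1 j c2 ?_
          by_cases hu : Q t = univ
          · exact Or.inr (Or.inl (hK3 t hu i hi))
          · exact Or.inl hu
        · obtain ⟨m', hm'⟩ := hK1 t j hj c2
          have hi' : i = m' := by rw [hm'] at c1; exact c1
          rw [hG1 t i c1, hG2 t j c2 m' hm', hi']
          ring
      · obtain ⟨m', hm'⟩ := hK1 t i hi c1
        by_cases c2 : j ∈ Q t
        · have hj' : j = m' := by rw [hm'] at c2; exact c2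
          rw [hG1 t j c2, hG2 t i c1 m' hm', hj', hneg, f2_comm i m', ← add_assoc, two, zero_add]
        · rw [hK2 t i hi j hj c1 c2, f2_self, sub_self]
    · have ht' : t ∈ Icc (0 : ℝ) 12 := ⟨ht.1, by linarith [ht.2]⟩
      have h1 := nhdsWithin_mono t (Icc_subset_Icc le_rfl (by norm_num : (6 : ℝ) ≤ 12))
        (hℓ.loc t ht')
      filter_upwards [h1, mem_nhdsWithin_of_mem_nhds (h.usc t),
        mem_nhdsWithin_of_mem_nhds (hKu t)] with s hs hQ hK i hi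
      have hgs : ∀ j ∈ Q s, g s j = g t j := fun j hj => by simp only [hg, hs j hj]
      by_cases c1 : i ∈ Q s
      · rw [hG1 s i c1, hG1 t i (hQ c1), hgs i c1]
      · obtain ⟨m', hm'⟩ := hK1 s i hi c1
        have hm's : m' ∈ Q s := by rw [hm']; rfl
        rw [hG2 s i c1 m' hm', hgs m' hm's]
        by_cases c2 : i ∈ Q t
        · rw [hG1 t i c2]
          have := hf t ht' m' (hQ hm's) i c2 (by
            by_cases hu : Q t = univ
            · exact Or.inr (Or.inr (Or.inl (hK3 t hu i (hK hi))))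
            · exact Or.inl hu)
          rw [this]
          ring
        · obtain ⟨m'', hm''⟩ := hK1 t i (hK hi) c2
          have : m' = m'' := by
            have := hQ hm's
            rw [hm''] at this
            exact this
          rw [hG2 t i c2 m'' hm'', this]
  obtain ⟨δ, hδ, hu⟩ := unif hTor hSec
  refine ⟨δ, hδ, fun n s lab hs s0 sn hst hlab hn => ?_⟩
  have e1 : ∀ k ∈ Finset.range n, f2 (lab k) (lab (k + 1)) =
      G (s (k + 1)) (lab (k + 1)) - G (s k) (lab k) := by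
    intro k hk
    have hk' := Finset.mem_range.1 hk
    exact (hu _ (hs k hk'.le) _ (hs (k + 1) hk') (hst k hk') _ (hlab k hk'.le) _
      (hlab (k + 1) hk')).symm
  rw [Finset.sum_congr rfl e1, Finset.sum_range_sub fun k => G (s k) (lab k)]
  rw [s0, sn, hn]
  have hl0 := hlab 0 (Nat.zero_le n)
  rw [s0] at hl0
  -- the difference over the whole ring
  have hQ6 : Q 6 = Q 0 := by have := h.per 0; rwa [zero_add] at this
  have hr6 : r 6 = r 0 := by have := h.rper 0; rwa [zero_add] at this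
  have z0 : (0 : ℝ) ∈ Icc (0 : ℝ) 12 := ⟨le_rfl, by norm_num⟩
  have z6 : (6 : ℝ) ∈ Icc (0 : ℝ) 12 := ⟨by norm_num, by norm_num⟩
  obtain ⟨i0, -, hi0, -, -⟩ := h.pair 0
  have key : ∀ i ∈ Q 0, g 6 i - g 0 i = 1 := by
    intro i hi
    have b1 := hor' i0 hi0
    have b2 := hℓ.diff 0 z0 i0 hi0.1 i hi
    have b3 := hℓ.diff 6 z6 i0 (by rw [hQ6]; exact hi0.1) i (by rw [hQ6]; exact hi)
    have b4 : phz Q r 6 i0 i = phz Q r 0 i0 i := by
      unfold phz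
      rw [hQ6, hr6]
    obtain ⟨k1, c1⟩ := hd 0 z0 i hi
    obtain ⟨k2, c2⟩ := hd 6 z6 i (by rw [hQ6]; exact hi)
    obtain ⟨k3, c3⟩ := hd 0 z0 i0 hi0.1
    obtain ⟨k4, c4⟩ := hd 6 z6 i0 (by rw [hQ6]; exact hi0.1)
    have b5 : ((ℓ 6 i + 2) / 3 - (ℓ 0 i + 2) / 3) % 2 = 1 := by
      rw [b4, b2] at b3
      have e5 : (ℓ 6 i + 2) / 3 - (ℓ 0 i + 2) / 3 = (ℓ 6 i0 + 2) / 3 - (ℓ 0 i0 + 2) / 3 := by
        have e6 : ℓ 6 i - ℓ 0 i = ℓ 6 i0 - ℓ 0 i0 := by linarith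
        have e7 : k2 - k1 = k4 - k3 := by linarith
        have a1 : (ℓ 6 i + 2) / 3 = k2 + (((i : ℕ) : ℤ) + 2) / 3 := by omega
        have a2 : (ℓ 0 i + 2) / 3 = k1 + (((i : ℕ) : ℤ) + 2) / 3 := by omega
        have a3 : (ℓ 6 i0 + 2) / 3 = k4 + (((i0 : ℕ) : ℤ) + 2) / 3 := by omega
        have a4 : (ℓ 0 i0 + 2) / 3 = k3 + (((i0 : ℕ) : ℤ) + 2) / 3 := by omega
        omega
      rw [e5]
      exact b1
    have e4 : ((((ℓ 6 i + 2) / 3 - (ℓ 0 i + 2) / 3 : ℤ)) : ZMod 2) = 1 := by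
      have : (ℓ 6 i + 2) / 3 - (ℓ 0 i + 2) / 3 =
          2 * (((ℓ 6 i + 2) / 3 - (ℓ 0 i + 2) / 3) / 2) + 1 := by omega
      rw [this]
      push_cast
      have h2 : (2 : ZMod 2) = 0 := rfl
      rw [h2, zero_mul, zero_add]
    push_cast at e4
    simp only [hg]
    exact e4
  by_cases c1 : lab 0 ∈ Q 0
  · rw [hG1 0 _ c1, hG1 6 _ (by rw [hQ6]; exact c1)]
    exact key _ c1
  · obtain ⟨m', hm'⟩ := hK1 0 _ hl0 c1
    rw [hG2 0 _ c1 m' hm', hG2 6 _ (by rw [hQ6]; exact c1) m' (by rw [hQ6]; exact hm')]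
    have := key m' (by rw [hm']; rfl)
    rw [add_sub_add_right_eq_sub]
    exact this


end Vale.Agent.P032.H538
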