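import Vale.Agent.P032.H538.State2
import Vale.Agent.P032.S5.H57.ApxH
import Vale.Agent.P032.S5.H175.FrozenHH
import Vale.Agent.P032.S5.H180.BaseH
import Vale.Agent.P032.S5.H180.Base

/-!
# P032, X.STATE.4: the odd ring at a three coloured point, four coloured points on the circle allowed

`ringOdd_of` : `RingOdd` from the sixty degree rule and non-frozenness; `ringOdd_harm` : when all four
coloured points of the circle are harmless, non-frozenness is automatic.
-/

open Set Filter Topology Metric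

noncomputable section

namespace Vale.Agent.P032.Six

open Vale.Agent.P032.S5 Vale.Agent.P032.Carr Vale.Agent.P032.S5.Tab
open Vale.Agent.P032.H180 (Frz HexZ Qt Qt_of_ne om)

variable {U : Fin 6 → Set ℂ} {T : ℂ → Set (Fin 6)} {f : ℂ → Set (Fin 6)} {Z : Set ℂ} {c : ℂ}
  {R δ₀ : ℝ} {x : ℂ}

/-- the sixty degree rule on the circle about `x`, for the colours outside `T x` -/
def R60 (T : ℂ → Set (Fin 6)) (x : ℂ) : Prop :=
  ∀ y y', dist y x = 1 → dist y' x = 1 → dist y y' = 1 → ¬ T y \ T x ⊆ T y'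

/-- **The odd ring** from the sixty degree rule -/
theorem DSt.ringOdd_of (D : DSt U T Z f c R δ₀) (h3 : (T x).ncard = 3)
    (hap : ∀ z, dist z x = 1 → 4 ≤ (T z).ncard → ¬ T z \ f z ⊆ T x)
    (hQ : ∀ y, dist y x = 1 → ¬ (T x)ᶜ ⊆ T y) (hR : R60 T x)
    (hnf : ∀ col : Fin 3 → Fin 6, (∀ i, i ∉ T x ↔ ∃ l, i = col l) → Function.Injective col →
      ¬ Frz x T col) : RingOdd T Z f x := by
  intro d e hde hd he
  obtain ⟨g, hdg, heg, hcov⟩ := S5.H180.exists_compl h3 hd he hde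
  have hcov' : ∀ i, i ∉ T x ↔ ∃ l, i = (![d, e, g] : Fin 3 → Fin 6) l := S5.H180.col_three hcov
  have hinj : Function.Injective (![d, e, g] : Fin 3 → Fin 6) := S5.H180.inj_three hde heg hdg
  have B : H57.RC T Z f δ₀ x (T x) := by
    refine ⟨D.hm, h3, fun y hy hsub => D.df.irr.not_sub hy h3.le hsub, fun y hy _ => hQ y hy,
      fun z _ hzx hs => absurd hs (hQ z hzx), fun z hz hzx => ?_⟩
    obtain ⟨i, hi, hi'⟩ := Set.not_subset.1 (hap z hzx (D.zs.four z hz))
    exact ⟨i, hi.1, hi.2, hi'⟩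
  set Q : ℝ → Set (Fin 3) := fun t => {l | (![d, e, g] : Fin 3 → Fin 6) l ∈ T (H180.pt x t)}
    with hQdef
  have hlab : ∀ l, (![d, e, g] : Fin 3 → Fin 6) l ∉ T x := fun l => (hcov' _).2 ⟨l, rfl⟩
  have hne : ∀ t, Q t ≠ univ := by
    intro t hu
    refine hQ _ (H180.dist_pt x t) fun i hi => ?_
    obtain ⟨l, rfl⟩ := (hcov' i).1 hi
    have : l ∈ Q t := by rw [hu]; trivial
    exact this
  have hinc : ∀ t t', dist (H180.pt x t) (H180.pt x t') = 1 → ¬ Q t ⊆ Q t' := by
    intro t t' htt hsub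
    refine hR _ _ (H180.dist_pt x t) (H180.dist_pt x t') htt fun i hi => ?_
    obtain ⟨l, rfl⟩ := (hcov' i).1 hi.2
    exact hsub (show l ∈ Q t from hi.1)
  have hdist : ∀ t, dist (H180.pt x t) (H180.pt x (t + 1)) = 1 := fun t =>
    S5.H180.dist_pt_succ x t
  have X : HexZ Q (fun _ => 0) := by
    refine ⟨fun t => ?_, fun _ => rfl, fun t => ?_, fun t => ?_, fun t ht => absurd ht (hne t),
      fun t => ?_, fun t => ?_, fun t ht => absurd ht (hne t)⟩
    · simp only [hQdef, H180.pt_six]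
    · obtain ⟨i, hi, hi'⟩ := D.df.irr.not_sub' (H180.dist_pt x t) h3.le
      obtain ⟨l, rfl⟩ := (hcov' i).1 hi'
      exact ⟨l, hi⟩
    · exact S5.H180.usc_pt D.df.irr.nhd x ![d, e, g] t
    · rw [Qt_of_ne (hne t), Qt_of_ne (hne (t + 1))]
      exact hinc t (t + 1) (hdist t)
    · rw [Qt_of_ne (hne t), Qt_of_ne (hne (t + 1))]
      exact hinc (t + 1) t (by rw [dist_comm]; exact hdist t)
  refine B.ringZ hcov hde heg hdg (r := fun _ => 0) (fun t ht => absurd ht (hQ _ (H180.dist_pt x t)))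
    X fun hfr => hnf _ hcov' hinj ?_
  rcases hfr with hfr | hfr
  · refine ⟨1, Or.inl rfl, fun y hy l => ?_⟩
    obtain ⟨t, ht, rfl⟩ := H180.exists_pt hy
    rw [← H180.pt_add_one]
    have h1 := hfr t ht l
    rw [Qt_of_ne (hne t), Qt_of_ne (hne (t + 1))] at h1
    exact h1
  · refine ⟨2, Or.inr rfl, fun y hy l => ?_⟩
    obtain ⟨t, ht, rfl⟩ := H180.exists_pt hy
    rw [← H180.pt_add_one]
    have h1 := hfr t ht l
    rw [Qt_of_ne (hne t), Qt_of_ne (hne (t + 1))] at h1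
    exact h1

end Vale.Agent.P032.Six
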