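import Vale.Agent.P032.H538.NBadG
import Vale.Agent.P032.H553.FullW

/-!
# P032, X, state A: `FullW780` is a theorem

`fullW538` : the record at the full times, at every three coloured point without pinned pairs.
-/

open Set Filter Topology Metric

noncomputable section

namespace Vale.Agent.P032.Six

open Vale.Agent.P032.S5 Vale.Agent.P032.Carr Vale.Agent.P032.H961

variable {U : Fin 6 → Set ℂ} {T : ℂ → Set (Fin 6)} {f : ℂ → Set (Fin 6)}

/-- **The record at the full times** -/
theorem fullW538 (hN : NoComp T) (hw : QIW T NoI) (G : GaugeI758 T NoI f)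
    (SA : ∀ V l name, ChI nxR802 T NoI V l name → ∀ j, l j = 2) : FullW780 U T f := by
  intro Z c R δ₀ D x hx h3 hap
  have B : BW553 U T Z f c R δ₀ x := ⟨D, StW2.of hw G SA, hN, hx, h3, hap⟩
  exact fullRec538 D hw G SA hx h3 hap (fun _ hy hs => B.fz hy hs)
    fun col hcol _ t s hd hu hsub => B.incF hcol hd hu hsub

end Vale.Agent.P032.Six
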