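import Vale.Agent.P032.H416.Props
import Vale.Agent.P032.S5.H11.Core4
import Vale.Agent.P032.Carr.LamU

/-!
# P032, X.STATE.1: the state functions in the world `DF`, with two-pair points

`ChF T f` : `f z` is the arc pair of a harmless point `z` and one of the two pairs of a two-pair
point `z` (any of the two; the two-pair point is then resolved into the two faces that contain the
other pair).
-/

open Set Filter Topology Metric

noncomputable section

namespace Vale.Agent.P032.Six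

open Vale.Agent.P032.S5 Vale.Agent.P032.Carr

variable {U : Fin 6 → Set ℂ} {T : ℂ → Set (Fin 6)}

/-- choice of the separated pairs -/
structure ChF (T : ℂ → Set (Fin 6)) (f : ℂ → Set (Fin 6)) : Prop where
  harm : ∀ z A, Six.Harm T z A → f z = A
  two : ∀ z a b c d, DPt T z a b c d → f z = {a, b} ∨ f z = {c, d}

theorem DPt.ncard {z : ℂ} {a b c d : Fin 6} (hz : DPt T z a b c d) : (T z).ncard = 4 := by
  rw [hz.pal]
  have h1 := hz.ab
  have h2 := hz.ac
  have h3 := hz.ad
  have h4 := hz.bc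
  have h5 := hz.bd
  have h6 := hz.cd
  rw [Set.ncard_insert_of_notMem (by simp [h1, h2, h3]),
    Set.ncard_insert_of_notMem (by simp [h4, h5]), Set.ncard_pair h6]

/-- every four coloured point is harmless or a two-pair point -/
theorem DF.harm_or (h : DF U T) {z : ℂ} (hz : 4 ≤ (T z).ncard) :
    (∃ A, Six.Harm T z A) ∨ ∃ a b c d, DPt T z a b c d := by
  by_cases hD : ∃ a b c d, DPt T z a b c d
  · exact Or.inr hD
  · push Not at hD
    have hz4 : (T z).ncard = 4 := le_antisymm (h.le4 z) hz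
    exact Or.inl (h.irr.harm_of_noD h.mn hz4 (h.irr.exists_inside hz4 fun y _ => h.le4 y)
      fun a b c d hd => hD a b c d hd)

/-- a harmless point is not a two-pair point -/
theorem not_harm_of_dpt {z : ℂ} {A : Set (Fin 6)} (hA : Six.Harm T z A) {a b c d : Fin 6}
    (hz : DPt T z a b c d) : False := by
  obtain ⟨p, hp, hpJ⟩ := hz.arc1
  obtain ⟨q, hq, hqJ⟩ := hz.arc2
  have h1 : T p = {a, b} := hpJ.self_of_nhdsWithin hp
  have h2 : T q = {c, d} := hqJ.self_of_nhdsWithin hq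
  have h3 := hA.h1 p hp (by rw [h1, hz.pal]; intro i hi; simp only [mem_insert_iff,
    mem_singleton_iff] at hi ⊢; tauto)
  have h4 := hA.h1 q hq (by rw [h2, hz.pal]; intro i hi; simp only [mem_insert_iff,
    mem_singleton_iff] at hi ⊢; tauto)
  obtain ⟨i, hi⟩ := Set.nonempty_of_ncard_ne_zero (s := A) (by rw [hA.cardA]; omega)
  have h5 := h3 hi
  have h6 := h4 hi
  rw [h1] at h5
  rw [h2] at h6
  simp only [mem_insert_iff, mem_singleton_iff] at h5 h6
  rcases h5 with rfl | rfl <;> rcases h6 with h6 | h6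
  · exact hz.ac h6
  · exact hz.ad h6
  · exact hz.bc h6
  · exact hz.bd h6

/-- there is such a choice, with prescribed choices at the two-pair points -/
theorem exists_ChF (T : ℂ → Set (Fin 6)) (g : ℂ → Set (Fin 6))
    (hg : ∀ z a b c d, DPt T z a b c d → g z = {a, b} ∨ g z = {c, d}) :
    ∃ f, ChF T f ∧ ∀ z, (∃ a b c d, DPt T z a b c d) → f z = g z := by
  classical
  refine ⟨fun z => if h : ∃ A, Six.Harm T z A then h.choose else g z,
    ⟨fun z A hA => ?_, fun z a b c d hz => ?_⟩, fun z hz => ?_⟩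
  · have h : ∃ A, Six.Harm T z A := ⟨A, hA⟩
    rw [dif_pos h]
    exact hA.unique h.choose_spec
  · rw [dif_neg fun h => not_harm_of_dpt h.choose_spec hz]
    exact hg z a b c d hz
  · obtain ⟨a, b, c, d, hz⟩ := hz
    exact dif_neg fun h => not_harm_of_dpt h.choose_spec hz

/-- the pair of a four coloured point is the palette of a point of its circle -/
theorem ChF.circle (h : DF U T) {f : ℂ → Set (Fin 6)} (F : ChF T f) {z : ℂ}
    (hz : 4 ≤ (T z).ncard) : (f z).ncard = 2 ∧ f z ⊆ T z ∧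
      ∃ p, dist p z = 1 ∧ ∀ᶠ q in 𝓝[sphere z 1] p, T q = f z := by
  rcases h.harm_or hz with ⟨A, hA⟩ | ⟨a, b, c, d, hD⟩
  · rw [F.harm z A hA]
    exact ⟨hA.cardA, hA.sub, hA.arc⟩
  · have e1 : ({a, b} : Set (Fin 6)) ⊆ {a, b, c, d} := by
      intro i hi
      simp only [mem_insert_iff, mem_singleton_iff] at hi ⊢
      tauto
    have e2 : ({c, d} : Set (Fin 6)) ⊆ {a, b, c, d} := by
      intro i hi
      simp only [mem_insert_iff, mem_singleton_iff] at hi ⊢
      tauto
    rcases F.two z a b c d hD with hf | hf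
    · rw [hf, hD.pal]
      exact ⟨Set.ncard_pair hD.ab, e1, hD.arc1⟩
    · rw [hf, hD.pal]
      exact ⟨Set.ncard_pair hD.cd, e2, hD.arc2⟩

/-- near a two-pair point there is no other four coloured point -/
theorem DF.isolated4 (h : DF U T) {z : ℂ} {a b c d : Fin 6} (hz : DPt T z a b c d) :
    ∀ᶠ w in 𝓝 z, 4 ≤ (T w).ncard → w = z := by
  obtain ⟨p, hp, hpJ⟩ := hz.arc1
  obtain ⟨q, hq, hqJ⟩ := hz.arc2
  have h1 : T p = {a, b} := hpJ.self_of_nhdsWithin hp
  have h2 : T q = {c, d} := hqJ.self_of_nhdsWithin hq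
  have e1 : ({a, b} : Set (Fin 6)) ⊆ T z := by
    rw [hz.pal]; intro i hi
    simp only [mem_insert_iff, mem_singleton_iff] at hi ⊢
    tauto
  have e2 : ({c, d} : Set (Fin 6)) ⊆ T z := by
    rw [hz.pal]; intro i hi
    simp only [mem_insert_iff, mem_singleton_iff] at hi ⊢
    tauto
  have tr : ∀ y : ℂ, Tendsto (fun x => y + (x - z)) (𝓝 z) (𝓝 y) := by
    intro y
    have : Continuous fun x : ℂ => y + (x - z) := by fun_prop
    have h2 := this.tendsto z
    simpa using h2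
  filter_upwards [h.isolated z, h.irr.nhd z, (tr p).eventually (h.irr.nhd p),
    (tr q).eventually (h.irr.nhd q)] with w w1 w2 w3 w4 w5
  have e : T w = T z := Set.eq_of_subset_of_ncard_le w2 (by rw [hz.ncard]; exact w5)
    (Set.toFinite _)
  rcases h.harm_or w5 with ⟨A, hA⟩ | hD
  · exfalso
    have hd : ∀ y : ℂ, dist y z = 1 → dist (y + (w - z)) w = 1 := by
      intro y hy
      rw [dist_eq_norm] at hy ⊢
      rw [← hy]; congr 1; ring
    have h3 := hA.h1 _ (hd p hp) (w3.trans (by rw [h1, e]; exact e1))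
    have h4 := hA.h1 _ (hd q hq) (w4.trans (by rw [h2, e]; exact e2))
    obtain ⟨i, hi⟩ := Set.nonempty_of_ncard_ne_zero (s := A) (by rw [hA.cardA]; omega)
    have h5 := w3 (h3 hi)
    have h6 := w4 (h4 hi)
    rw [h1] at h5
    rw [h2] at h6
    simp only [mem_insert_iff, mem_singleton_iff] at h5 h6
    rcases h5 with rfl | rfl <;> rcases h6 with h6 | h6
    · exact hz.ac h6
    · exact hz.ad h6
    · exact hz.bc h6
    · exact hz.bd h6
  · exact w1 hD

variable {f : ℂ → Set (Fin 6)} {Z : Set ℂ} {c : ℂ} {R δ₀ : ℝ}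

/-- **The structure `Hm`** for any choice of the pairs at the two-pair points -/
theorem DF.exists_Hm (h : DF U T) (F : ChF T f) (hZ : Zs T Z c R) : ∃ δ₀, Hm T Z f δ₀ := by
  refine Carr.exists_Hm hZ.compact h.irr.nhd h.irr.ne
    (fun z hz => le_antisymm (h.le4 z) (hZ.four z hz))
    (fun z hz => (F.circle h (hZ.four z hz)).1) (fun z hz => (F.circle h (hZ.four z hz)).2.1)
    (fun z hz => ?_) (fun z hz => ?_)
  · obtain ⟨-, -, p, hp, hpJ⟩ := F.circle h (hZ.four z hz)
    have hpf : T p = f z := hpJ.self_of_nhdsWithin hp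
    filter_upwards [h.irr.no_layer hp, hZ.opn z hz] with w h1 h2 hwZ hf
    exact hwZ (h2 (h1 (by rw [hpf]; exact hf)))
  · rcases h.harm_or (hZ.four z hz) with ⟨A, hA⟩ | ⟨a, b, c', d, hD⟩
    · have hnD : ¬ ∃ a b c d, DPt T z a b c d := fun ⟨a, b, c, d, hD⟩ => not_harm_of_dpt hA hD
      have hev : ∀ᶠ w in 𝓝 z, ¬ ∃ a b c d, DPt T w a b c d := by
        rw [← not_frequently]
        exact fun hcl => hnD (h.dpt_of_closure (mem_closure_iff_frequently.2 hcl))
      filter_upwards [hA.nhd h.irr, hev] with w w1 w2 hwZ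
      rcases h.harm_or (hZ.four w hwZ) with ⟨A', hA'⟩ | hD'
      · rw [F.harm z A hA, F.harm w A' hA']
        exact (w1 A' hA').2
      · exact absurd hD' w2
    · filter_upwards [h.isolated4 hD] with w w1 hwZ
      rw [w1 (hZ.four w hwZ)]

/-- the frame of the state functions -/
structure DSt (U : Fin 6 → Set ℂ) (T : ℂ → Set (Fin 6)) (Z : Set ℂ) (f : ℂ → Set (Fin 6))
    (c : ℂ) (R δ₀ : ℝ) : Prop where
  df : DF U T
  ch : ChF T f
  zs : Zs T Z c R
  hm : Hm T Z f δ₀

theorem DF.exists_DS (h : DF U T) (F : ChF T f) (c : ℂ) (R : ℝ) : ∃ Z δ₀, DSt U T Z f c R δ₀ := by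
  obtain ⟨Z, hZ⟩ := exists_Zs h.irr c R
  obtain ⟨δ₀, H⟩ := h.exists_Hm F hZ
  exact ⟨Z, δ₀, h, F, hZ, H⟩

/-- a face of the state: three colours of `T u` which do not contain the separated pair -/
def FcD (T : ℂ → Set (Fin 6)) (f : ℂ → Set (Fin 6)) (u : ℂ) (s : Set (Fin 6)) : Prop :=
  s ⊆ T u ∧ (4 ≤ (T u).ncard → ¬ f u ⊆ s)

namespace DSt

variable {x y : ℂ} {a b d : Fin 6}

theorem rg (D : DSt U T Z f c R δ₀) (hx : dist x c ≤ R - 1) : Rg T Z x := D.zs.rg hx

theorem memZ (D : DSt U T Z f c R δ₀) (hx : dist x c ≤ R - 1) (hy : dist y x ≤ 1)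
    (h4 : 4 ≤ (T y).ncard) : y ∈ Z :=
  D.zs.mem y (mem_closedBall.2 (by have := dist_triangle y x c; linarith)) h4

/-- **The state is locally constant.** -/
theorem loc (D : DSt U T Z f c R δ₀) (hx : dist x c ≤ R - 1) (ha : a ∈ T x) :
    ∀ᶠ x' in 𝓝 x, a ∈ T x' → lamT T Z f δ₀ a x' = lamT T Z f δ₀ a x := by
  filter_upwards [D.hm.loc_T (D.rg hx) (av_T D.df.irr ha)] with x' h1 h2
  exact h1 (av_T D.df.irr h2)

/-- the state is constant on connected sets -/
theorem const (D : DSt U T Z f c R δ₀) {C : Set ℂ} (hC : IsPreconnected C)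
    (hCB : ∀ x ∈ C, dist x c ≤ R - 1) (hCa : ∀ x ∈ C, a ∈ T x) (hx : x ∈ C) (hy : y ∈ C) :
    lamT T Z f δ₀ a x = lamT T Z f δ₀ a y := by
  let _ : TopologicalSpace (Fin 6 → Fin 6 → ZMod 2) := ⊥
  have : DiscreteTopology (Fin 6 → Fin 6 → ZMod 2) := ⟨rfl⟩
  refine hC.constant (f := lamT T Z f δ₀ a) (fun z hz => ?_) hx hy
  refine tendsto_const_nhds.congr' ?_
  filter_upwards [mem_nhdsWithin_of_mem_nhds (D.loc (hCB z hz) (hCa z hz)),
    self_mem_nhdsWithin] with w hw hwC
  exact (hw (hCa w hwC)).symm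

theorem symm (a : Fin 6) (x : ℂ) (b d : Fin 6) :
    lamT T Z f δ₀ a x b d = lamT T Z f δ₀ a x d b := lamT_symm a x b d

/-- **Euler** -/
theorem euler (D : DSt U T Z f c R δ₀) (hx : dist x c ≤ R - 1) (ha : a ∈ T x) (hb : b ≠ a) :
    ∑ i, lamT T Z f δ₀ a x b i = 0 :=
  D.hm.euler_T (D.rg hx) (av_T D.df.irr ha) hb

/-- **Agreement** : no palette of the circle inside the two colours, and every four coloured point
of the circle has an apex off the two colours -/
theorem agree (D : DSt U T Z f c R δ₀) (hx : dist x c ≤ R - 1)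
    (hab : ∀ y, dist y x = 1 → ¬ T y ⊆ {a, b})
    (hap : ∀ z, dist z x = 1 → 4 ≤ (T z).ncard → ¬ T z \ f z ⊆ {a, b}) (d : Fin 6) :
    lamT T Z f δ₀ a x b d = lamT T Z f δ₀ b x a d := by
  refine D.hm.agree_T (D.rg hx) (fun y hy => ?_) (fun z hz hzx => ?_) d
  · obtain ⟨i, hi, hi'⟩ := Set.not_subset.1 (hab y hy)
    simp only [mem_insert_iff, mem_singleton_iff, not_or] at hi'
    exact ⟨i, hi, hi'⟩
  · obtain ⟨i, hi, hi'⟩ := Set.not_subset.1 (hap z hzx (D.zs.four z hz))
    exact ⟨i, hi.1, hi.2, hi'⟩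

/-- agreement at a point with at most three colours -/
theorem agree3 (D : DSt U T Z f c R δ₀) (hx : dist x c ≤ R - 1) (h3 : (T x).ncard ≤ 3)
    (ha : a ∈ T x) (hb : b ∈ T x)
    (hap : ∀ z, dist z x = 1 → 4 ≤ (T z).ncard → ¬ T z \ f z ⊆ {a, b}) (d : Fin 6) :
    lamT T Z f δ₀ a x b d = lamT T Z f δ₀ b x a d := by
  refine D.agree hx (fun y hy hsub => ?_) hap d
  refine D.df.irr.not_sub hy h3 (hsub.trans ?_)
  rintro i (rfl | rfl)
  · exact ha
  · exact hb

/-- **Support** : a nonzero value comes from a face in the closed disc, with the colour on the inner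
side -/
theorem supp (D : DSt U T Z f c R δ₀) (hx : dist x c ≤ R - 1) (ha : a ∈ T x)
    (hne : lamT T Z f δ₀ a x b d ≠ 0) :
    ∃ u ∈ closedBall x 1, FcD T f u {a, b, d} ∧
      ∃ᶠ w in 𝓝[closedBall x 1 \ {u}] u, a ∈ T w := by
  obtain ⟨u, hu, hF, hev⟩ := D.hm.supp_T (D.rg hx) (av_T D.df.irr ha) hne
  refine ⟨u, hu, ⟨hF.1, fun h4 => hF.2 ?_⟩, hev⟩
  exact D.memZ hx (mem_closedBall.1 hu) h4

end DSt

end Vale.Agent.P032.Six
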