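import Vale.Agent.P032.H538.H3a
import Vale.Agent.P032.H961.DHa
import Vale.Agent.P032.S5.H767.Five
import Vale.Agent.P032.S5.H767.RawT
import Vale.Agent.P032.S5.H585.Pinch

/-!
# P032: a harmless point with the colours `a`, `c` of the two pairs and the two free colours

`V` two-pair with the pairs `{a, b}`, `{c, d}`; `y` on `S(V)` with `T y = {a, c, e, f}`, harmless with
the exact pair `{e, f}`; the common neighbours (apexes) of `V` and `y` have at most three colours, among
them `e`, `f`; `S(V)` and `S(y)` have at most two points of order four.  Then `False` (`h3_538`).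
Proof by the heights of the labels `ef`, `b`, `d` on `S(y)`.
-/

open Set Filter Topology Metric

noncomputable section

namespace Vale.Agent.P032.H538

open Vale.Agent.P032.Six Vale.Agent.P032.S5.H767 Vale.Agent.P032.H564 Vale.Agent.P032.H961

variable {U : Fin 6 → Set ℂ} {T : ℂ → Set (Fin 6)} {V y y1 y2 w w' v X : ℂ} {a b c d e f : Fin 6}

theorem pair_sub538 (h : Irr U T) (hV : DPt T V a b c d) (hv : dist v V = 1) (hs : T v ⊆ T V) :
    {a, b} ⊆ T v ∨ {c, d} ⊆ T v := by
  obtain ⟨q, -, hq, hc, hsub, -, -⟩ := h.arc_of_sub hv hs univ_mem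
  rcases h.twoPairs hV q hq hc (hsub.trans hs) with h1 | h1
  · left; rw [← h1]; exact hsub
  · right; rw [← h1]; exact hsub

/-- **product rule** : where both free colours are on an arc of `S(y)` the partner on `S(V)` has a
pair -/
theorem free538 (h : Irr U T) (hV : DPt T V a b c d) (nd : [a, b, c, d, e, f].Nodup)
    (hy : dist y V = 1) (hw : dist w y = 1) (he : ∀ᶠ q in 𝓝[sphere y 1] w, e ∈ T q ∧ f ∈ T q)
    (hwV : w ≠ V) (hvy : w + V - y ≠ y) :
    {a, b} ⊆ T (w + V - y) ∨ {c, d} ⊆ T (w + V - y) := by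
  have C := ctr_of_dpt h hV nd
  have d1 : dist w (w + V - y) = 1 := by rw [dist_partner, dist_comm]; exact hy
  have d2 : dist (w + V - y) V = 1 := by rw [dist_partner']; exact hw
  have ne2 : w + V - y + y ≠ 2 * w := fun h1 => hwV (by linear_combination -h1)
  have k1 : e ∉ T (w + V - y) := fun hc =>
    line_free h hw (he.mono fun _ hq => hq.1) d1 hvy ne2 (h.sub _ hc)
  have k2 : f ∉ T (w + V - y) := fun hc =>
    line_free h hw (he.mono fun _ hq => hq.2) d1 hvy ne2 (h.sub _ hc)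
  refine pair_sub538 h hV d2 fun i hi => ?_
  by_contra hcon
  rcases C.miss hcon with rfl | rfl
  · exact k1 hi
  · exact k2 hi

/-- the end of a passage: `b` at the point, the pair `{a, b}` at the partner -/
theorem end538 (h : Irr U T) (hV : DPt T V a b c d) (nd : [a, b, c, d, e, f].Nodup)
    (hy : dist y V = 1) (hw : dist w y = 1) (hwV : w ≠ V) (hvy : w + V - y ≠ y)
    (w3 : (T w).ncard ≤ 3) (he : e ∈ T w) (hf : f ∈ T w) (hb : b ∈ T w)
    (v3 : (T (w + V - y)).ncard ≤ 3) (hs : {a, b} ⊆ T (w + V - y)) : False := by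
  have C := ctr_of_dpt h hV nd
  have d1 : dist w (w + V - y) = 1 := by rw [dist_partner, dist_comm]; exact hy
  have d2 : dist (w + V - y) V = 1 := by rw [dist_partner']; exact hw
  have ne2 : w + V ≠ 2 * (w + V - y) := fun h1 => hvy (by linear_combination -h1)
  have av : a ∈ T (w + V - y) := hs (Or.inl rfl)
  have bv : b ∈ T (w + V - y) := hs (Or.inr rfl)
  have haV : a ∈ T V := by rw [hV.pal]; simp
  have nd' := nd
  simp only [List.nodup_cons, List.mem_cons, List.not_mem_nil, or_false, not_or, List.nodup_nil,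
    and_true, not_false_eq_true] at nd'
  obtain ⟨⟨ab, ac, ad, ae, af⟩, ⟨bc, bd, be, bf⟩, ⟨cd, ce, cf⟩, ⟨de, df⟩, ef⟩ := nd'
  have key : ∀ g, (g = e ∨ g = f) → g ∉ T (w + V - y) := by
    intro g hg hgv
    have hag : a ≠ g := by rcases hg with rfl | rfl <;> assumption
    have hbg : b ≠ g := by rcases hg with rfl | rfl <;> assumption
    have hgw : g ∈ T w := by rcases hg with rfl | rfl <;> assumption
    have hT : ({a, b, g} : Set (Fin 6)) = T (w + V - y) := by
      refine Set.eq_of_subset_of_ncard_le ?_ ?_ (Set.toFinite _)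
      · rintro i (rfl | rfl | rfl) <;> assumption
      · rw [Set.ncard_insert_of_notMem, Set.ncard_pair hbg]
        · exact v3
        · simp only [mem_insert_iff, mem_singleton_iff, not_or]
          exact ⟨ab, hag⟩
    rcases h.lemmaX (u := w) (p := w + V - y) (v := V) (t := a) (by rw [dist_comm]; exact d1) w3
      (by rw [← hT]; rintro i (rfl | rfl | rfl)
          · exact Or.inl rfl
          · exact Or.inr hb
          · exact Or.inr hgw) d2 (h.sub _ haV) with h1 | h1
    · exact hwV h1.symm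
    · exact ne2 (by rw [← h1]; ring)
  have hsub : T (w + V - y) ⊆ T V := by
    intro i hi
    by_contra hcon
    exact key i (C.miss hcon) hi
  refine line_free h d2 (t := b) (v := w) ?_ (by rw [dist_comm]; exact d1) hwV ne2 (h.sub _ hb)
  filter_upwards [mem_nhdsWithin_of_mem_nhds (h.nhd (w + V - y)), self_mem_nhdsWithin] with q h1 h2
  have h1 : T q ⊆ T (w + V - y) := h1
  rcases pair_sub538 h hV h2 (h1.trans hsub) with h3 | h3
  · exact h3 (Or.inr rfl)
  · have h4 := four_le av bv (h1 (h3 (Or.inl rfl))) (h1 (h3 (Or.inr rfl)))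
      (by simp only [List.nodup_cons, List.mem_cons, List.not_mem_nil, or_false, not_or,
            List.nodup_nil, and_true, not_false_eq_true]; exact ⟨⟨ab, ac, ad⟩, ⟨bc, bd⟩, cd⟩)
    omega

/-- **passage lemma** : `b` at the first end, `d` at the last end, `e`, `f` in between -/
theorem passA538 (h : Irr U T) (hV : DPt T V a b c d) (nd : [a, b, c, d, e, f].Nodup)
    (hy : dist y V = 1) (hab : ¬ {a, b} ⊆ T y) (hcd : ¬ {c, d} ⊆ T y) {t1 t2 : ℝ} (ht : t1 < t2)
    (hm : ∀ t ∈ Ioo t1 t2, e ∈ T (pt y t) ∧ f ∈ T (pt y t)) (hne : ∀ t ∈ Icc t1 t2, pt y t ≠ V)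
    (e1 : e ∈ T (pt y t1)) (f1 : f ∈ T (pt y t1)) (b1 : b ∈ T (pt y t1))
    (c1 : (T (pt y t1)).ncard ≤ 3) (e2 : e ∈ T (pt y t2)) (f2 : f ∈ T (pt y t2))
    (d2 : d ∈ T (pt y t2)) (c2 : (T (pt y t2)).ncard ≤ 3)
    (hno : ∀ t ∈ Icc t1 t2, pt y t + V - y ≠ y → (T (pt y t + V - y)).ncard ≤ 3) : False := by
  have nd' := nd
  simp only [List.nodup_cons, List.mem_cons, List.not_mem_nil, or_false, not_or, List.nodup_nil,
    and_true, not_false_eq_true] at nd'
  obtain ⟨⟨ab, ac, ad, ae, af⟩, ⟨bc, bd, be, bf⟩, ⟨cd, ce, cf⟩, ⟨de, df⟩, ef⟩ := nd'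
  have hcont : Continuous fun t => pt y t + V - y := by
    have := continuous_pt y
    fun_prop
  have hcl : ∀ i, IsClosed {t | i ∈ T (pt y t + V - y)} := fun i => (h.closed i).preimage hcont
  have hA : IsClosed {t | {a, b} ⊆ T (pt y t + V - y)} := by
    have : {t | {a, b} ⊆ T (pt y t + V - y)} =
        {t | a ∈ T (pt y t + V - y)} ∩ {t | b ∈ T (pt y t + V - y)} := by
      ext t; simp [Set.insert_subset_iff]
    rw [this]
    exact (hcl a).inter (hcl b)
  have hC : IsClosed {t | {c, d} ⊆ T (pt y t + V - y)} := by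
    have : {t | {c, d} ⊆ T (pt y t + V - y)} =
        {t | c ∈ T (pt y t + V - y)} ∩ {t | d ∈ T (pt y t + V - y)} := by
      ext t; simp [Set.insert_subset_iff]
    rw [this]
    exact (hcl c).inter (hcl d)
  have hin : ∀ t ∈ Ioo t1 t2, pt y t + V - y ≠ y →
      {a, b} ⊆ T (pt y t + V - y) ∨ {c, d} ⊆ T (pt y t + V - y) := by
    intro t ht' hvy
    refine free538 h hV nd hy (dist_pt y t) ?_ (hne t ⟨ht'.1.le, ht'.2.le⟩) hvy
    exact ev_circle y (p := fun q => e ∈ T q ∧ f ∈ T q)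
      (by filter_upwards [Ioo_mem_nhds ht'.1 ht'.2] with s hs using hm s hs)
  have hall : Icc t1 t2 ⊆ {t | {a, b} ⊆ T (pt y t + V - y)} ∪ {t | {c, d} ⊆ T (pt y t + V - y)} := by
    rw [← closure_Ioo ht.ne]
    refine closure_minimal ?_ (hA.union hC)
    intro t ht'
    by_contra hcon
    have hO : Ioo t1 t2 ∩ ({t | {a, b} ⊆ T (pt y t + V - y)} ∪
        {t | {c, d} ⊆ T (pt y t + V - y)})ᶜ ∈ 𝓝 t :=
      (isOpen_Ioo.inter (hA.union hC).isOpen_compl).mem_nhds ⟨ht', hcon⟩
    obtain ⟨s, ⟨hs1, hs2⟩, hs3⟩ := ((((eventually_mem_set.2 hO).filter_mono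
      (nhdsWithin_le_nhds (s := Ioi t))).and (Ioo_mem_nhdsGT (show t < t + 1 by linarith)))).exists
    have hs3 : t < s ∧ s < t + 1 := hs3
    have g1 : pt y t + V - y = y := by
      by_contra hvy
      exact hcon (hin t ht' hvy)
    have g2 : pt y s + V - y = y := by
      by_contra hvy
      exact hs2 (hin s hs1 hvy)
    exact pt_ne6 (V := y) hs3.1 (by linarith) (by linear_combination g1 - g2)
  have hvy : ∀ t ∈ Icc t1 t2, pt y t + V - y ≠ y := by
    intro t ht' hc
    rcases hall ht' with h1 | h1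
    · have h1 : {a, b} ⊆ T (pt y t + V - y) := h1
      rw [hc] at h1; exact hab h1
    · have h1 : {c, d} ⊆ T (pt y t + V - y) := h1
      rw [hc] at h1; exact hcd h1
  have i1 : t1 ∈ Icc t1 t2 := ⟨le_rfl, ht.le⟩
  have i2 : t2 ∈ Icc t1 t2 := ⟨ht.le, le_rfl⟩
  by_cases kA : (Icc t1 t2 ∩ {t | {a, b} ⊆ T (pt y t + V - y)}).Nonempty
  · by_cases kC : (Icc t1 t2 ∩ {t | {c, d} ⊆ T (pt y t + V - y)}).Nonempty
    · obtain ⟨t, hti, hta, htc⟩ := isPreconnected_closed_iff.1 isPreconnected_Icc _ _ hA hC hall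
        kA kC
      have hta : {a, b} ⊆ T (pt y t + V - y) := hta
      have htc : {c, d} ⊆ T (pt y t + V - y) := htc
      have h4 := four_le (hta (Or.inl rfl)) (hta (Or.inr rfl)) (htc (Or.inl rfl))
        (htc (Or.inr rfl)) (by
          simp only [List.nodup_cons, List.mem_cons, List.not_mem_nil, or_false, not_or,
            List.nodup_nil, and_true, not_false_eq_true]; exact ⟨⟨ab, ac, ad⟩, ⟨bc, bd⟩, cd⟩)
      have := hno t hti (hvy t hti)
      omega
    · rcases hall i1 with h1 | h1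
      · exact end538 h hV nd hy (dist_pt y t1) (hne t1 i1) (hvy t1 i1) c1 e1 f1 b1
          (hno t1 i1 (hvy t1 i1)) h1
      · exact kC ⟨t1, i1, h1⟩
  · rcases hall i2 with h1 | h1
    · exact kA ⟨t2, i2, h1⟩
    · refine end538 (a := c) (b := d) (c := a) (d := b) h hV.swap ?_ hy (dist_pt y t2) (hne t2 i2)
        (hvy t2 i2) c2 e2 f2 d2 (hno t2 i2 (hvy t2 i2)) h1
      simp only [List.nodup_cons, List.mem_cons, List.not_mem_nil, or_false, not_or,
        List.nodup_nil, and_true, not_false_eq_true]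
      exact ⟨⟨cd, Ne.symm ac, Ne.symm bc, ce, cf⟩, ⟨Ne.symm ad, Ne.symm bd, de, df⟩, ⟨ab, ae, af⟩,
        ⟨be, bf⟩, ef⟩

/-! ### The labels on `S(y)` -/

/-- the labels: `0` = both of `e`, `f`; `1` = `b`; `2` = `d` -/
def Lh538 (T : ℂ → Set (Fin 6)) (b d e f : Fin 6) : Fin 3 → Set ℂ :=
  ![{x | e ∈ T x ∧ f ∈ T x}, {x | b ∈ T x}, {x | d ∈ T x}]

/-- the labels on the circle -/
def Qh538 (T : ℂ → Set (Fin 6)) (y : ℂ) (b d e f : Fin 6) (t : ℝ) : Set (Fin 3) :=
  {l | pt y t ∈ Lh538 T b d e f l}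

theorem qh0_538 {t : ℝ} : (0 : Fin 3) ∈ Qh538 T y b d e f t ↔ e ∈ T (pt y t) ∧ f ∈ T (pt y t) :=
  Iff.rfl

theorem qh1_538 {t : ℝ} : (1 : Fin 3) ∈ Qh538 T y b d e f t ↔ b ∈ T (pt y t) := Iff.rfl

theorem qh2_538 {t : ℝ} : (2 : Fin 3) ∈ Qh538 T y b d e f t ↔ d ∈ T (pt y t) := Iff.rfl

theorem lh_closed538 (h : Irr U T) (l : Fin 3) : IsClosed (Lh538 T b d e f l) := by
  fin_cases l
  · exact (h.closed e).inter (h.closed f)
  · exact h.closed b
  · exact h.closed d

/-- two points of order at most three at distance one have incomparable label sets -/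
theorem inc538 (h : Irr U T) (nd : [a, b, c, d, e, f].Nodup) (hTy : T y = {a, c, e, f})
    (hcov : ∀ q, dist q y = 1 → (e ∈ T q ∧ f ∈ T q) ∨ b ∈ T q ∨ d ∈ T q) (hw : dist w y = 1)
    (hw' : dist w' y = 1) (hww : dist w w' = 1) (h3 : (T w).ncard ≤ 3) (h3' : (T w').ncard ≤ 3)
    (hs0 : e ∈ T w ∧ f ∈ T w → e ∈ T w' ∧ f ∈ T w') (hs1 : b ∈ T w → b ∈ T w')
    (hs2 : d ∈ T w → d ∈ T w') : False := by
  simp only [List.nodup_cons, List.mem_cons, List.not_mem_nil, or_false, not_or, List.nodup_nil,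
    and_true, not_false_eq_true] at nd
  obtain ⟨⟨ab, ac, ad, ae, af⟩, ⟨bc, bd, be, bf⟩, ⟨cd, ce, cf⟩, ⟨de, df⟩, ef⟩ := nd
  have hnh : ∀ᶠ q in 𝓝[sphere y 1] w, dist q y = 1 ∧ T q ⊆ T w := by
    filter_upwards [mem_nhdsWithin_of_mem_nhds (h.nhd w), self_mem_nhdsWithin] with q h1 h2
    exact ⟨h2, h1⟩
  -- both `b` and `d`
  by_cases hbd : b ∈ T w ∧ d ∈ T w
  · obtain ⟨x, hx, -, hx', hT, -⟩ := hand h hw hw' hww h3 h3' bd hbd.1 hbd.2 (hs1 hbd.1)
      (hs2 hbd.2)
    have hxw : x ∈ T w := by rw [hT]; simp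
    -- `x` is outside `T y`; so `T w = {b, d, x}` with `x` outside both
    have hxb : x ≠ b := fun h1 => hx' (h1 ▸ hs1 hbd.1)
    have hxd : x ≠ d := fun h1 => hx' (h1 ▸ hs2 hbd.2)
    have hall : x = a ∨ x = b ∨ x = c ∨ x = d ∨ x = e ∨ x = f := by
      have h1 : ([a, b, c, d, e, f] : List (Fin 6)).toFinset = Finset.univ :=
        Finset.eq_univ_of_card _ (by
          rw [List.toFinset_card_of_nodup (by
            simp only [List.nodup_cons, List.mem_cons, List.not_mem_nil, or_false, not_or,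
              List.nodup_nil, and_true, not_false_eq_true]
            exact ⟨⟨ab, ac, ad, ae, af⟩, ⟨bc, bd, be, bf⟩, ⟨cd, ce, cf⟩, ⟨de, df⟩, ef⟩)]
          rfl)
      have h2 : x ∈ ([a, b, c, d, e, f] : List (Fin 6)).toFinset := by
        rw [h1]; exact Finset.mem_univ x
      simpa using h2
    rw [hTy] at hx
    simp only [mem_insert_iff, mem_singleton_iff, not_or] at hx
    rcases hall with h1 | h1 | h1 | h1 | h1 | h1
    exacts [hx.1 h1, hxb h1, hx.2.1 h1, hxd h1, hx.2.2.1 h1, hx.2.2.2 h1]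
  have tri3 : ∀ g, g ≠ e → g ≠ f → e ∈ T w → f ∈ T w → g ∈ T w → g ∈ T w' → False := by
    intro g hge hgf h1 h2 h4 h5
    have hT : ({g, e, f} : Set (Fin 6)) = T w := by
      refine Set.eq_of_subset_of_ncard_le ?_ ?_ (Set.toFinite _)
      · rintro i (rfl | rfl | rfl) <;> assumption
      · rw [Set.ncard_insert_of_notMem, Set.ncard_pair ef]
        · exact h3
        · simp only [mem_insert_iff, mem_singleton_iff, not_or]
          exact ⟨hge, hgf⟩
    refine h.not_sub hww h3' ?_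
    rw [← hT]
    rintro i (rfl | rfl | rfl)
    · exact h5
    · exact (hs0 ⟨h1, h2⟩).1
    · exact (hs0 ⟨h1, h2⟩).2
  by_cases hR : e ∈ T w ∧ f ∈ T w
  · by_cases hb : b ∈ T w
    · exact tri3 b be bf hR.1 hR.2 hb (hs1 hb)
    by_cases hd : d ∈ T w
    · exact tri3 d de df hR.1 hR.2 hd (hs2 hd)
    refine arc_free h hw (t := e) ?_ hw' hww (hs0 hR).1
    filter_upwards [hnh] with q hq
    rcases hcov q hq.1 with h1 | h1 | h1
    · exact h1.1
    · exact absurd (hq.2 h1) hb
    · exact absurd (hq.2 h1) hd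
  by_cases hb : b ∈ T w
  · have hd : d ∉ T w := fun hd => hbd ⟨hb, hd⟩
    refine arc_free h hw (t := b) ?_ hw' hww (hs1 hb)
    filter_upwards [hnh] with q hq
    rcases hcov q hq.1 with h1 | h1 | h1
    · exact absurd ⟨hq.2 h1.1, hq.2 h1.2⟩ hR
    · exact h1
    · exact absurd (hq.2 h1) hd
  · have hd : d ∈ T w := by
      rcases hcov w hw with h1 | h1 | h1
      · exact absurd h1 hR
      · exact absurd h1 hb
      · exact h1
    refine arc_free h hw (t := d) ?_ hw' hww (hs2 hd)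
    filter_upwards [hnh] with q hq
    rcases hcov q hq.1 with h1 | h1 | h1
    · exact absurd ⟨hq.2 h1.1, hq.2 h1.2⟩ hR
    · exact absurd (hq.2 h1) hb
    · exact h1

/-- near a point whose partner is an apex the free colours are not both there on an arc -/
theorem nr538 (h : Irr U T) (hV : DPt T V a b c d) (nd : [a, b, c, d, e, f].Nodup)
    (hy : dist y V = 1) {r : ℝ} (hr : pt y r + V - y = X) (hX : dist X y = 1)
    (hX3 : (T X).ncard ≤ 3) (he : e ∈ T X) (hf : f ∈ T X) : NR538 (Qh538 T y b d e f) r := by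
  have nd' := nd
  simp only [List.nodup_cons, List.mem_cons, List.not_mem_nil, or_false, not_or, List.nodup_nil,
    and_true, not_false_eq_true] at nd'
  obtain ⟨⟨ab, ac, ad, ae, af⟩, ⟨bc, bd, be, bf⟩, ⟨cd, ce, cf⟩, ⟨de, df⟩, ef⟩ := nd'
  have hcont : Continuous fun t => pt y t + V - y := by
    have := continuous_pt y
    fun_prop
  have hrV : pt y r ≠ V := by
    intro h1
    have h2 : X - y = 2 * (V - y) := by rw [← hr, h1]; ring
    have h3 : dist X y = 2 := by
      rw [dist_eq_norm, h2, norm_mul, ← dist_eq_norm, dist_comm, hy]; simp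
    rw [hX] at h3
    norm_num at h3
  have hXy : X ≠ y := by
    rintro rfl
    rw [dist_self] at hX
    exact zero_ne_one hX
  have k1 : ∀ᶠ t in 𝓝 r, pt y t ≠ V :=
    (continuous_pt y).continuousAt.eventually_ne hrV
  have k2 : ∀ᶠ t in 𝓝 r, pt y t + V - y ≠ y := by
    refine hcont.continuousAt.eventually_ne ?_
    show pt y r + V - y ≠ y
    rw [hr]; exact hXy
  have k3 : ∀ᶠ t in 𝓝 r, T (pt y t + V - y) ⊆ T X := by
    have h1 := hcont.tendsto r
    simp only [hr] at h1
    exact h1.eventually (h.nhd X)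
  filter_upwards [k1, k2, k3] with t h1 h2 h3 hc
  have hfree := free538 h hV nd hy (dist_pt y t)
    (ev_circle y (p := fun q => e ∈ T q ∧ f ∈ T q) hc) h1 h2
  rcases hfree with h4 | h4
  · have h5 := four_le (h3 (h4 (Or.inl rfl))) (h3 (h4 (Or.inr rfl))) he hf (by
      simp only [List.nodup_cons, List.mem_cons, List.not_mem_nil, or_false, not_or,
        List.nodup_nil, and_true, not_false_eq_true]; exact ⟨⟨ab, ae, af⟩, ⟨be, bf⟩, ef⟩)
    omega
  · have h5 := four_le (h3 (h4 (Or.inl rfl))) (h3 (h4 (Or.inr rfl))) he hf (by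
      simp only [List.nodup_cons, List.mem_cons, List.not_mem_nil, or_false, not_or,
        List.nodup_nil, and_true, not_false_eq_true]; exact ⟨⟨cd, ce, cf⟩, ⟨de, df⟩, ef⟩)
    omega

/-- **apexes** : an apex of order at most three has both free colours -/
theorem apex538 (h : Irr U T) (hV : DPt T V a b c d) (nd : [a, b, c, d, e, f].Nodup)
    (hy : dist y V = 1) (hTy : T y = {a, c, e, f})
    (hcov : ∀ q, dist q y = 1 → (e ∈ T q ∧ f ∈ T q) ∨ b ∈ T q ∨ d ∈ T q) (hX : dist X V = 1)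
    (hXy : dist X y = 1) (h3 : (T X).ncard ≤ 3) : e ∈ T X ∧ f ∈ T X := by
  have C := ctr_of_dpt h hV nd
  have nd' := nd
  simp only [List.nodup_cons, List.mem_cons, List.not_mem_nil, or_false, not_or, List.nodup_nil,
    and_true, not_false_eq_true] at nd'
  obtain ⟨⟨ab, ac, ad, ae, af⟩, ⟨bc, bd, be, bf⟩, ⟨cd, ce, cf⟩, ⟨de, df⟩, ef⟩ := nd'
  have hVy : dist V y = 1 := by rw [dist_comm]; exact hy
  have bV : b ∈ T V := by rw [hV.pal]; simp
  have dV : d ∈ T V := by rw [hV.pal]; simp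
  by_contra hR
  have hny : ∀ᶠ q in 𝓝[sphere y 1] X, dist q y = 1 ∧ T q ⊆ T X := by
    filter_upwards [mem_nhdsWithin_of_mem_nhds (h.nhd X), self_mem_nhdsWithin] with q h1 h2
    exact ⟨h2, h1⟩
  have hnV : ∀ᶠ q in 𝓝[sphere V 1] X, dist q V = 1 ∧ T q ⊆ T X := by
    filter_upwards [mem_nhdsWithin_of_mem_nhds (h.nhd X), self_mem_nhdsWithin] with q h1 h2
    exact ⟨h2, h1⟩
  by_cases hb : b ∈ T X
  swap
  · refine arc_free h hXy (t := d) ?_ hVy hX dV
    filter_upwards [hny] with q hq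
    rcases hcov q hq.1 with h1 | h1 | h1
    · exact absurd ⟨hq.2 h1.1, hq.2 h1.2⟩ hR
    · exact absurd (hq.2 h1) hb
    · exact h1
  by_cases hd : d ∈ T X
  swap
  · refine arc_free h hXy (t := b) ?_ hVy hX bV
    filter_upwards [hny] with q hq
    rcases hcov q hq.1 with h1 | h1 | h1
    · exact absurd ⟨hq.2 h1.1, hq.2 h1.2⟩ hR
    · exact h1
    · exact absurd (hq.2 h1) hd
  -- both `b` and `d`
  have k4 : ∀ g g', [b, d, g, g'].Nodup → g ∈ T X → g' ∈ T X → False := by
    intro g g' hn hg hg'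
    have := four_le hb hd hg hg' hn
    omega
  have key : ∀ g, g = e ∨ g = f → g ∈ T X → False := by
    intro g hg hgX
    have hgy : g ∈ T y := by rw [hTy]; rcases hg with rfl | rfl <;> simp
    have hbg : b ≠ g := by rcases hg with rfl | rfl <;> assumption
    have hdg : d ≠ g := by rcases hg with rfl | rfl <;> assumption
    have hag : a ≠ g := by rcases hg with rfl | rfl <;> assumption
    have hcg : c ≠ g := by rcases hg with rfl | rfl <;> assumption
    have na : a ∉ T X := fun haX => k4 a g (by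
      simp only [List.nodup_cons, List.mem_cons, List.not_mem_nil, or_false, not_or,
        List.nodup_nil, and_true, not_false_eq_true]
      exact ⟨⟨bd, Ne.symm ab, hbg⟩, ⟨Ne.symm ad, hdg⟩, hag⟩) haX hgX
    have nc : c ∉ T X := fun hcX => k4 c g (by
      simp only [List.nodup_cons, List.mem_cons, List.not_mem_nil, or_false, not_or,
        List.nodup_nil, and_true, not_false_eq_true]
      exact ⟨⟨bd, bc, hbg⟩, ⟨Ne.symm cd, hdg⟩, hcg⟩) hcX hgX
    refine arc_free h hX (t := g) ?_ hy hXy hgy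
    filter_upwards [hnV] with q hq
    by_contra hgq
    have hsub : T q ⊆ T V := by
      intro i hi
      by_contra hcon
      rcases C.miss hcon with h1 | h1
      · rcases hg with h2 | h2
        · exact hgq (by rw [h2, ← h1]; exact hi)
        · exact hR ⟨by rw [← h1]; exact hq.2 hi, by rw [← h2]; exact hgX⟩
      · rcases hg with h2 | h2
        · exact hR ⟨by rw [← h2]; exact hgX, by rw [← h1]; exact hq.2 hi⟩
        · exact hgq (by rw [h2, ← h1]; exact hi)
    rcases pair_sub538 h hV hq.1 hsub with h1 | h1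
    · exact na (hq.2 (h1 (Or.inl rfl)))
    · exact nc (hq.2 (h1 (Or.inl rfl)))
  have hXV : T X ⊆ T V := by
    intro i hi
    by_contra hcon
    exact key i (C.miss hcon) hi
  by_cases haX : a ∈ T X
  · refine arc_free h hX (t := a) ?_ hy hXy (by rw [hTy]; simp)
    filter_upwards [hnV] with q hq
    rcases pair_sub538 h hV hq.1 (hq.2.trans hXV) with h1 | h1
    · exact h1 (Or.inl rfl)
    · exact (k4 a c (by
        simp only [List.nodup_cons, List.mem_cons, List.not_mem_nil, or_false, not_or,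
          List.nodup_nil, and_true, not_false_eq_true]
        exact ⟨⟨bd, Ne.symm ab, bc⟩, ⟨Ne.symm ad, Ne.symm cd⟩, ac⟩) haX
        (hq.2 (h1 (Or.inl rfl)))).elim
  · refine arc_free h hX (t := c) ?_ hy hXy (by rw [hTy]; simp)
    filter_upwards [hnV] with q hq
    rcases pair_sub538 h hV hq.1 (hq.2.trans hXV) with h1 | h1
    · exact absurd (hq.2 (h1 (Or.inl rfl))) haX
    · exact h1 (Or.inl rfl)

/-- **core** : heights on `S(y)`; only the covering of `S(y)` by the labels is used -/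
theorem h3_core538 (h : Irr U T) (hV : DPt T V a b c d) (nd : [a, b, c, d, e, f].Nodup)
    (hy : dist y V = 1) (hTy : T y = {a, c, e, f})
    (hcov : ∀ q, dist q y = 1 → (e ∈ T q ∧ f ∈ T q) ∨ b ∈ T q ∨ d ∈ T q)
    (n3V : ∀ p, dist p V = 1 → 4 ≤ (T p).ncard → p = y ∨ p = y2)
    (n3y : ∀ p, dist p y = 1 → 4 ≤ (T p).ncard → p = V ∨ p = y1) : False := by
  have nd' := nd
  simp only [List.nodup_cons, List.mem_cons, List.not_mem_nil, or_false, not_or, List.nodup_nil,
    and_true, not_false_eq_true] at nd'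
  obtain ⟨⟨ab, ac, ad, ae, af⟩, ⟨bc, bd, be, bf⟩, ⟨cd, ce, cf⟩, ⟨de, df⟩, ef⟩ := nd'
  have hVy : dist V y = 1 := by rw [dist_comm]; exact hy
  -- the window
  obtain ⟨A, r, hr, hVr, h3⟩ : ∃ A r : ℝ, r ∈ Ioo A (A + 6) ∧ V = pt y r ∧
      ∀ t ∈ Ioo A (A + 6), pt y t ≠ V → (T (pt y t)).ncard ≤ 3 := by
    by_cases hex : ∃ p, dist p y = 1 ∧ p ≠ V ∧ 4 ≤ (T p).ncard
    · obtain ⟨p, hp, hpV, hp4⟩ := hex
      obtain ⟨A, -, hA⟩ := exists_pt hp 0
      obtain ⟨r, hr, hVr⟩ := exists_pt hVy (A + 3)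
      have hp1 : p = y1 := (n3y p hp hp4).resolve_left hpV
      refine ⟨A, r, ⟨lt_of_le_of_ne (by linarith [hr.1]) ?_, lt_of_le_of_ne (by linarith [hr.2]) ?_⟩,
        hVr, fun t ht htV => ?_⟩
      · rintro rfl
        exact hpV (by rw [hA, ← hVr])
      · rintro rfl
        rw [pt_six] at hVr
        exact hpV (by rw [hA, ← hVr])
      · by_contra hcon
        rcases n3y _ (dist_pt y t) (by omega) with h1 | h1
        · exact htV h1
        · exact pt_ne6 (V := y) ht.1 ht.2 (by rw [← hA, h1, hp1])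
    · push Not at hex
      obtain ⟨r, -, hVr⟩ := exists_pt hVy 0
      refine ⟨r - 3, r, ⟨by linarith, by linarith⟩, hVr, fun t ht htV => ?_⟩
      have := hex (pt y t) (dist_pt y t) htV
      omega
  have heV : e ∉ T V := by
    rw [hV.pal]
    simp only [mem_insert_iff, mem_singleton_iff, not_or]
    exact ⟨fun h1 => ae h1.symm, fun h1 => be h1.symm, fun h1 => ce h1.symm, fun h1 => de h1.symm⟩
  have bV : b ∈ T V := by rw [hV.pal]; simp
  have dV : d ∈ T V := by rw [hV.pal]; simp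
  have hbdef : [b, d, e, f].Nodup := by
    simp only [List.nodup_cons, List.mem_cons, List.not_mem_nil, or_false, not_or, List.nodup_nil,
      and_true, not_false_eq_true]
    exact ⟨⟨bd, be, bf⟩, ⟨de, df⟩, ef⟩
  -- an apex and `V` are incomparable
  have hap : ∀ X, dist X V = 1 → dist X y = 1 → (T X).ncard ≤ 3 → e ∈ T X ∧ f ∈ T X :=
    fun X hX hXy k => apex538 h hV nd hy hTy hcov hX hXy k
  have hapV : ∀ X, dist X V = 1 → dist X y = 1 → (T X).ncard ≤ 3 →
      (∀ l, V ∈ Lh538 T b d e f l → X ∈ Lh538 T b d e f l) → False := by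
    intro X hX hXy k1 hs
    obtain ⟨k2, k3⟩ := hap X hX hXy k1
    have := four_le (hs 1 bV) (hs 2 dV) k2 k3 hbdef
    omega
  have hapV' : ∀ X, dist X V = 1 → dist X y = 1 → (T X).ncard ≤ 3 →
      (∀ l, X ∈ Lh538 T b d e f l → V ∈ Lh538 T b d e f l) → False := by
    intro X hX hXy k1 hs
    exact heV (hs 0 (hap X hX hXy k1)).1
  have hinc : ∀ w w', dist w y = 1 → dist w' y = 1 → dist w w' = 1 →
      (w ≠ V → (T w).ncard ≤ 3) → (w' ≠ V → (T w').ncard ≤ 3) →
      (∀ l, w ∈ Lh538 T b d e f l → w' ∈ Lh538 T b d e f l) → False := by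
    intro w w' hw hw' hww g g' hs
    by_cases h1 : w = V
    · subst h1
      refine hapV w' (by rw [dist_comm]; exact hww) hw' (g' ?_) hs
      rintro rfl
      rw [dist_self] at hww
      exact zero_ne_one hww
    by_cases h2 : w' = V
    · subst h2
      exact hapV' w hww hw (g h1) hs
    exact inc538 h nd hTy hcov hw hw' hww (g h1) (g' h2) (hs 0) (hs 1) (hs 2)
  have hI : IntCov (Qh538 T y b d e f) A (A + 6) := by
    refine ⟨fun t ht => ?_, fun t ht => ?_, fun t ht => ?_, fun t h1 h2 hs => ?_,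
      fun t h1 h2 hs => ?_⟩
    · rcases hcov _ (dist_pt y t) with h1 | h1 | h1
      · exact ⟨0, h1⟩
      · exact ⟨1, h1⟩
      · exact ⟨2, h1⟩
    · by_cases htV : pt y t = V
      · refine ⟨0, fun h1 => heV ?_⟩
        rw [← htV]
        exact h1.1
      · by_contra hcon
        push Not at hcon
        have h1 := four_le (hcon 1) (hcon 2) (hcon 0).1 (hcon 0).2 hbdef
        have h2 := h3 t ht htV
        omega
    · have h1 : ∀ l : Fin 3, l ∉ Qh538 T y b d e f t → ∀ᶠ s in 𝓝 t, l ∉ Qh538 T y b d e f s :=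
        fun l hl => ((lh_closed538 h l).preimage (continuous_pt y)).isOpen_compl.mem_nhds hl
      have h2 : ∀ᶠ s in 𝓝 t, ∀ l : Fin 3, l ∉ Qh538 T y b d e f t →
          l ∉ Qh538 T y b d e f s := by
        rw [eventually_all]
        intro l
        by_cases hl : l ∈ Qh538 T y b d e f t
        · exact Eventually.of_forall fun s k => absurd hl k
        · filter_upwards [h1 l hl] with s hs _
          exact hs
      filter_upwards [h2] with s hs l hl
      by_contra hcon
      exact hs l hcon hl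
    · exact hinc (pt y t) (pt y (t + 1)) (dist_pt y t) (dist_pt y _) (dist_pt_one y t)
        (h3 t ⟨h1, by linarith⟩) (h3 (t + 1) ⟨by linarith, h2⟩) fun l hl => hs hl
    · exact hinc (pt y (t + 1)) (pt y t) (dist_pt y _) (dist_pt y t)
        (by rw [dist_comm]; exact dist_pt_one y t)
        (h3 (t + 1) ⟨by linarith, h2⟩) (h3 t ⟨h1, by linarith⟩) fun l hl => hs hl
  -- the passages
  have hab : ¬ {a, b} ⊆ T y := by
    intro h1
    have h2 := h1 (Or.inr rfl : b ∈ ({a, b} : Set (Fin 6)))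
    rw [hTy] at h2
    simp only [mem_insert_iff, mem_singleton_iff] at h2
    rcases h2 with h2 | h2 | h2 | h2
    exacts [ab h2.symm, bc h2, be h2, bf h2]
  have hcd : ¬ {c, d} ⊆ T y := by
    intro h1
    have h2 := h1 (Or.inr rfl : d ∈ ({c, d} : Set (Fin 6)))
    rw [hTy] at h2
    simp only [mem_insert_iff, mem_singleton_iff] at h2
    rcases h2 with h2 | h2 | h2 | h2
    exacts [ad h2.symm, cd h2.symm, de h2, df h2]
  have nds : [c, d, a, b, e, f].Nodup := by
    simp only [List.nodup_cons, List.mem_cons, List.not_mem_nil, or_false, not_or,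
      List.nodup_nil, and_true, not_false_eq_true]
    exact ⟨⟨cd, Ne.symm ac, Ne.symm bc, ce, cf⟩, ⟨Ne.symm ad, Ne.symm bd, de, df⟩, ⟨ab, ae, af⟩,
      ⟨be, bf⟩, ef⟩
  have hpass : ∀ t1 t2, A < t1 → t1 < t2 → t2 < A + 6 →
      (∀ t ∈ Ioo t1 t2, Qh538 T y b d e f t = {0}) →
      (Qh538 T y b d e f t1 = {0, 1} ∧ Qh538 T y b d e f t2 = {0, 2} ∨
        Qh538 T y b d e f t1 = {0, 2} ∧ Qh538 T y b d e f t2 = {0, 1}) →
      ∃ φ ∈ Icc t1 t2, pt y φ + V - y = y2 := by
    intro t1 t2 i1 i2 i3 hm he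
    by_contra hcon
    push Not at hcon
    have k1 : (0 : Fin 3) ∈ Qh538 T y b d e f t1 := by
      rcases he with ⟨g, -⟩ | ⟨g, -⟩ <;> rw [g] <;> simp
    have k2 : (0 : Fin 3) ∈ Qh538 T y b d e f t2 := by
      rcases he with ⟨-, g⟩ | ⟨-, g⟩ <;> rw [g] <;> simp
    have hm' : ∀ t ∈ Ioo t1 t2, e ∈ T (pt y t) ∧ f ∈ T (pt y t) := fun t ht => by
      have : (0 : Fin 3) ∈ Qh538 T y b d e f t := by rw [hm t ht]; rfl
      exact this
    have hne : ∀ t ∈ Icc t1 t2, pt y t ≠ V := by
      intro t ht hc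
      refine heV ?_
      rw [← hc]
      rcases eq_or_lt_of_le ht.1 with g | g
      · rw [← g]; exact k1.1
      rcases eq_or_lt_of_le ht.2 with g' | g'
      · rw [g']; exact k2.1
      exact (hm' t ⟨g, g'⟩).1
    have hno : ∀ t ∈ Icc t1 t2, pt y t + V - y ≠ y → (T (pt y t + V - y)).ncard ≤ 3 := by
      intro t ht hty
      by_contra h4
      rcases n3V _ (by rw [dist_partner']; exact dist_pt y t) (by omega) with h5 | h5
      · exact hty h5
      · exact hcon t ht h5
    have c1 := h3 t1 ⟨i1, by linarith⟩ (hne t1 ⟨le_rfl, i2.le⟩)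
    have c2 := h3 t2 ⟨by linarith, i3⟩ (hne t2 ⟨i2.le, le_rfl⟩)
    rcases he with ⟨g1, g2⟩ | ⟨g1, g2⟩
    · have b1 : (1 : Fin 3) ∈ Qh538 T y b d e f t1 := by rw [g1]; simp
      have d2 : (2 : Fin 3) ∈ Qh538 T y b d e f t2 := by rw [g2]; simp
      exact passA538 h hV nd hy hab hcd i2 hm' hne k1.1 k1.2 b1 c1 k2.1 k2.2 d2 c2 hno
    · have d1 : (2 : Fin 3) ∈ Qh538 T y b d e f t1 := by rw [g1]; simp
      have b2 : (1 : Fin 3) ∈ Qh538 T y b d e f t2 := by rw [g2]; simp
      exact passA538 h hV.swap nds hy hcd hab i2 hm' hne k1.1 k1.2 d1 c1 k2.1 k2.2 b2 c2 hno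
  have h1r : (1 : Fin 3) ∈ Qh538 T y b d e f r := by
    show b ∈ T (pt y r)
    rw [← hVr]; exact bV
  have h2r : (2 : Fin 3) ∈ Qh538 T y b d e f r := by
    show d ∈ T (pt y r)
    rw [← hVr]; exact dV
  -- the apexes
  have hX1 : dist (pt y (r + 1)) V = 1 := by
    rw [hVr, dist_comm]; exact dist_pt_one y r
  have hX2 : dist (pt y (r - 1)) V = 1 := by
    have := dist_pt_one y (r - 1)
    rw [sub_add_cancel, ← hVr] at this
    exact this
  have hne1 : pt y (r + 1) ≠ V := by
    intro hc; rw [hc, dist_self] at hX1; exact zero_ne_one hX1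
  have hne2 : pt y (r - 1) ≠ V := by
    intro hc; rw [hc, dist_self] at hX2; exact zero_ne_one hX2
  have s1 : pt y (r + 2) + V - y = pt y (r + 1) := by
    have := pt_sum y r
    rw [← hVr] at this
    linear_combination this
  have s2 : pt y (r - 2) + V - y = pt y (r - 1) := by
    have := pt_sum y (r - 2)
    rw [show r - 2 + 2 = r by ring, show r - 2 + 1 = r - 1 by ring, ← hVr] at this
    linear_combination this
  have s3 : pt y (r - 4) + V - y = pt y (r + 1) := by
    rw [← pt_six y (r - 4), show r - 4 + 6 = r + 2 by ring]; exact s1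
  have s4 : pt y (r + 4) + V - y = pt y (r - 1) := by
    rw [show r + 4 = r - 2 + 6 by ring, pt_six]; exact s2
  -- an apex of order four
  by_cases q1 : (T (pt y (r + 1))).ncard ≤ 3
  swap
  · have e2 : pt y (r + 1) = y2 := by
      rcases n3V _ hX1 (by omega) with g | g
      · have := dist_pt y (r + 1)
        rw [g, dist_self] at this
        exact absurd this zero_ne_one
      · exact g
    have hA : A = r - 5 := by
      refine le_antisymm ?_ ?_
      · by_contra hcon
        push Not at hcon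
        exact q1 (h3 (r + 1) ⟨by linarith [hr.1], by linarith⟩ hne1)
      · by_contra hcon
        push Not at hcon
        refine q1 ?_
        have g := h3 (r - 5) ⟨hcon, by linarith [hr.1, hr.2]⟩ (by
          rw [← pt_six y (r - 5), show r - 5 + 6 = r + 1 by ring]; exact hne1)
        rw [← pt_six y (r - 5), show r - 5 + 6 = r + 1 by ring] at g
        exact g
    obtain ⟨t1, t2, i1, i2, i3, hm, he⟩ := one_pass538' hI h1r h2r (by linarith)
      (by linarith)
    obtain ⟨φ, hφ, hφ2⟩ := hpass t1 t2 (by linarith) i2 (by linarith) hm he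
    refine pt_ne6 (V := y) (s := r - 4) (t := φ) (by linarith [hφ.1]) (by linarith [hφ.2]) ?_
    linear_combination s3 + e2 - hφ2
  by_cases q2 : (T (pt y (r - 1))).ncard ≤ 3
  swap
  · have e2 : pt y (r - 1) = y2 := by
      rcases n3V _ hX2 (by omega) with g | g
      · have := dist_pt y (r - 1)
        rw [g, dist_self] at this
        exact absurd this zero_ne_one
      · exact g
    have hA : A = r - 1 := by
      refine le_antisymm ?_ ?_
      · by_contra hcon
        push Not at hcon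
        refine q2 ?_
        have g := h3 (r + 5) ⟨by linarith [hr.1], by linarith⟩ (by
          rw [show r + 5 = r - 1 + 6 by ring, pt_six]; exact hne2)
        rw [show r + 5 = r - 1 + 6 by ring, pt_six] at g
        exact g
      · by_contra hcon
        push Not at hcon
        exact q2 (h3 (r - 1) ⟨hcon, by linarith [hr.2]⟩ hne2)
    obtain ⟨t1, t2, i1, i2, i3, hm, he⟩ := one_pass538 hI h1r h2r (by linarith)
      (by linarith)
    obtain ⟨φ, hφ, hφ2⟩ := hpass t1 t2 (by linarith) i2 (by linarith) hm he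
    refine pt_ne6 (V := y) (s := r - 2) (t := φ) (by linarith [hφ.1]) (by linarith [hφ.2]) ?_
    linear_combination s2 + e2 - hφ2
  obtain ⟨φ, hφ⟩ : ∃ φ, AllPass0 (Qh538 T y b d e f) A (A + 6) φ := by
    by_cases hex : ∃ φ ∈ Ioo A (A + 6), pt y φ + V - y = y2
    · obtain ⟨φ, hφ, hφ2⟩ := hex
      refine ⟨φ, fun t1 t2 i1 i2 i3 hm he => ?_⟩
      obtain ⟨ψ, hψ, hψ2⟩ := hpass t1 t2 i1 i2 i3 hm he
      have hψI : ψ ∈ Ioo A (A + 6) := ⟨by linarith [hψ.1], by linarith [hψ.2]⟩
      have heq : pt y φ = pt y ψ := by linear_combination hφ2 - hψ2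
      rcases lt_trichotomy φ ψ with g | g | g
      · exact absurd heq (pt_ne6 g (by linarith [hφ.1, hψI.2]))
      · rw [g]; exact hψ
      · exact absurd heq.symm (pt_ne6 g (by linarith [hψI.1, hφ.2]))
    · push Not at hex
      refine ⟨0, fun t1 t2 i1 i2 i3 hm he => ?_⟩
      obtain ⟨ψ, hψ, hψ2⟩ := hpass t1 t2 i1 i2 i3 hm he
      exact absurd hψ2 (hex ψ ⟨by linarith [hψ.1], by linarith [hψ.2]⟩)
  obtain ⟨g2, g3⟩ := hap _ hX1 (dist_pt y _) q1
  obtain ⟨m2, m3⟩ := hap _ hX2 (dist_pt y _) q2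
  refine ht_false538 hI rfl hφ (r := r) ?_ h1r h2r hr
    (nr538 h hV nd hy s2 (dist_pt y _) q2 m2 m3) (nr538 h hV nd hy s1 (dist_pt y _) q1 g2 g3)
    (nr538 h hV nd hy s3 (dist_pt y _) q1 g2 g3) (nr538 h hV nd hy s4 (dist_pt y _) q2 m2 m3)
  intro h1
  refine heV ?_
  rw [hVr]
  exact h1.1

/-- **h3** : `y` harmless with the exact pair `{e, f}` of the free colours and `T y = {a, c, e, f}` ;
no hypothesis about the apexes, a unit triangle `V`, `y`, `y2` is allowed -/
theorem h3_all538 (h : Irr U T) (hV : DPt T V a b c d) (nd : [a, b, c, d, e, f].Nodup)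
    (hy : dist y V = 1) (hH : Harm T y {e, f}) (hTy : T y = {a, c, e, f})
    (n3V : ∀ p, dist p V = 1 → 4 ≤ (T p).ncard → p = y ∨ p = y2)
    (n3y : ∀ p, dist p y = 1 → 4 ≤ (T p).ncard → p = V ∨ p = y1) : False := by
  refine h3_core538 h hV nd hy hTy (fun q hq => ?_) n3V n3y
  by_cases hb : b ∈ T q
  · exact Or.inr (Or.inl hb)
  by_cases hd : d ∈ T q
  · exact Or.inr (Or.inr hd)
  have C := ctr_of_dpt h hV nd
  left
  have hsub : T q ⊆ T y := by
    intro i hi
    rw [hTy]
    rcases C.all i with g | g | g | g | g | g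
    · rw [g]; simp
    · exact absurd (g ▸ hi) hb
    · rw [g]; simp
    · exact absurd (g ▸ hi) hd
    · rw [g]; simp
    · rw [g]; simp
  have := hH.h1 q hq hsub
  exact ⟨this (Or.inl rfl), this (Or.inr rfl)⟩

/-- the announced literal (the hypothesis about the apexes is not used) -/
theorem h3_538 (h : Irr U T) (hV : DPt T V a b c d) (nd : [a, b, c, d, e, f].Nodup)
    (hy : dist y V = 1) (hH : Harm T y {e, f}) (hTy : T y = {a, c, e, f})
    (_hap : ∀ X, dist X V = 1 → dist X y = 1 → (T X).ncard ≤ 3 ∧ e ∈ T X ∧ f ∈ T X)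
    (n3V : ∀ p, dist p V = 1 → 4 ≤ (T p).ncard → p = y ∨ p = y2)
    (n3y : ∀ p, dist p y = 1 → 4 ≤ (T p).ncard → p = V ∨ p = y1) : False :=
  h3_all538 h hV nd hy hH hTy n3V n3y

/-- the literal for a unit triangle -/
theorem h3tri_538 (h : Irr U T) (hV : DPt T V a b c d) (nd : [a, b, c, d, e, f].Nodup)
    (hy : dist y V = 1) (hH : Harm T y {e, f}) (hTy : T y = {a, c, e, f})
    (n3V : ∀ p, dist p V = 1 → 4 ≤ (T p).ncard → p = y ∨ p = y2)
    (n3y : ∀ p, dist p y = 1 → 4 ≤ (T p).ncard → p = V ∨ p = y2) : False :=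
  h3_all538 h hV nd hy hH hTy n3V n3y

end Vale.Agent.P032.H538
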