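import Vale.Agent.P032.H492.TwoJ

/-!
# P032: a two-pair point with two points of its palette on its circle

`z` is a two-pair point with the pairs `{a, b}`, `{c, d}`; `v`, `v₁ ≠ v₂` are points of `S(z)` with the
palette of `z`.

* `Irr.anti_J538` : (one point `v`) at the antipode `2 z - v` one colour of each pair is absent.
* `Irr.full_germs538` : the exact arcs at `v₁`, `v₂`.
* `Irr.four_sectors538` : for every `y` of `S(z)` off the two lines `z v₁`, `z v₂` one of the two pairs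
  is absent in `Pal U y`, and which one.
* `Irr.full_split538` : the same without the position.
* `Irr.full_anti538` : the colours absent at the two antipodes.
* `Irr.full_ee538` : a point `y` of `S(z)` whose palette meets both pairs is one of `v₁`, `v₂` or one
  of their antipodes `2 z - v₁`, `2 z - v₂`.
* `Irr.full_card538` : no other point of `S(z)` has three colours of `z`.
-/

open Set Filter Topology Metric

noncomputable section

namespace Vale.Agent.P032.Six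

variable {U : Fin 6 → Set ℂ} {T : ℂ → Set (Fin 6)}

/-- the branch `τ` of `S(y)` at `z` relative to the circle about `g` -/
theorem branch_in538 {z y g : ℂ} (hg : dist g z = 1) {τ : ℝ}
    (hs : τ * cr (y - z) (g - z) < 0) :
    ∀ᶠ t : ℝ in 𝓝[>] 0, dist (y + (z - y) * cis (τ * t)) g < 1 := by
  have h1 := branch_in (z := z) (V := 2 * z - y) (g := g) hg (τ := τ) (by
    have e : cr (2 * z - y - z) (g - z) = -cr (y - z) (g - z) := by unfold cr; simp; ring
    rw [e]; linarith)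
  filter_upwards [h1] with t ht
  have e : 2 * z - (2 * z - y) + (2 * z - y - z) * cis (τ * t) = y + (z - y) * cis (τ * t) := by ring
  rwa [e] at ht

theorem branch_out538 {z y g : ℂ} (hg : dist g z = 1) {τ : ℝ}
    (hs : 0 < τ * cr (y - z) (g - z)) :
    ∀ᶠ t : ℝ in 𝓝[>] 0, 1 < dist (y + (z - y) * cis (τ * t)) g := by
  have h1 := branch_out (z := z) (V := 2 * z - y) (g := g) hg (τ := τ) (by
    have e : cr (2 * z - y - z) (g - z) = -cr (y - z) (g - z) := by unfold cr; simp; ring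
    rw [e]; linarith)
  filter_upwards [h1] with t ht
  have e : 2 * z - (2 * z - y) + (2 * z - y - z) * cis (τ * t) = y + (z - y) * cis (τ * t) := by ring
  rwa [e] at ht

theorem tendsto_branch538 (z y : ℂ) (τ : ℝ) :
    Tendsto (fun t : ℝ => y + (z - y) * cis (τ * t)) (𝓝[>] 0) (𝓝 z) := by
  have h1 := tendsto_branch z (2 * z - y) τ
  refine h1.congr fun t => ?_
  ring

/-- a point of `S(y)` near `z` with one colour: this colour is absent at `y` -/
theorem Irr.absent_of_branch538 (h : Irr U T) {z y : ℂ} (hy : dist y z = 1) {τ : ℝ} {i : Fin 6}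
    (hb : ∀ᶠ t : ℝ in 𝓝[>] 0, T (y + (z - y) * cis (τ * t)) ⊆ {i}) : i ∉ Pal U y := by
  obtain ⟨t, ht⟩ := hb.exists
  refine h.mx.notMem' (h.mem_of_single ht) ?_
  rw [dist_eq_norm, show y + (z - y) * cis (τ * t) - y = (z - y) * cis (τ * t) by ring, norm_mul,
    norm_cis, mul_one, ← dist_eq_norm, dist_comm]
  exact hy

/-- the colour of an exact arc and its sides -/
theorem Irr.two_sides538 (h : Irr U T) {z g : ℂ} {a b c d : Fin 6} (hz : DPt T z a b c d)
    (hg : Arc T z g {a, b}) :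
    (Sd U z g a b ∧ Sd U g z a b) ∨ (Sd U z g b a ∧ Sd U g z b a) := by
  rcases h.sides hz hg.1 with h1 | h1
  · exact Or.inl ⟨h1, h.sd_center hg h1⟩
  · exact Or.inr ⟨h1, h.sd_center (by rwa [pair_comm]) h1⟩

/-! ### signs -/

theorem pos_left538 {x y : ℝ} (h : 0 < x * y) (hx : 0 < x) : 0 < y := by
  by_contra h1
  push Not at h1
  exact absurd (mul_nonpos_of_nonneg_of_nonpos hx.le h1) (not_le.2 h)

theorem neg_left538 {x y : ℝ} (h : 0 < x * y) (hx : x < 0) : y < 0 := by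
  by_contra h1
  push Not at h1
  exact absurd (mul_nonpos_of_nonpos_of_nonneg hx.le h1) (not_le.2 h)

theorem pos_right538 {x y : ℝ} (h : x * y < 0) (hx : x < 0) : 0 < y := by
  by_contra h1
  push Not at h1
  exact absurd (mul_nonneg_of_nonpos_of_nonpos hx.le h1) (not_le.2 h)

theorem neg_right538 {x y : ℝ} (h : x * y < 0) (hx : 0 < x) : y < 0 := by
  by_contra h1
  push Not at h1
  exact absurd (mul_nonneg hx.le h1) (not_le.2 h)

theorem scale538 {τ x y : ℝ} (hτ : τ = 1 ∨ τ = -1) : (τ * x) * (τ * y) = x * y := by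
  rcases hτ with rfl | rfl <;> ring

theorem opp538 {ε x y : ℝ} (hε : ε = 1 ∨ ε = -1) (hxy : x * y < 0) :
    0 < ε * x ↔ ¬ 0 < ε * y := by
  have h1 : (ε * x) * (ε * y) < 0 := by rw [scale538 hε]; exact hxy
  constructor
  · intro h2 h3
    exact absurd (mul_pos h2 h3) (not_lt.2 h1.le)
  · intro h2
    push Not at h2
    by_contra h3
    push Not at h3
    exact absurd (mul_nonneg_of_nonpos_of_nonpos h3 h2) (not_le.2 h1)

theorem same538 {ε x y : ℝ} (hε : ε = 1 ∨ ε = -1) (hxy : 0 < x * y) :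
    0 < ε * x ↔ 0 < ε * y := by
  have h1 : 0 < (ε * x) * (ε * y) := by rw [scale538 hε]; exact hxy
  constructor
  · intro h2
    exact pos_left538 h1 h2
  · intro h2
    exact pos_left538 (by rwa [mul_comm] at h1) h2

/-! ### one branch -/

/-- one branch of `S(y)` at `z` without three of the four colours of `z`: the fourth one is absent
at `y` -/
theorem Irr.absent_three538 (h : Irr U T) {z y : ℂ} (hy : dist y z = 1) {τ : ℝ} {m p q r : Fin 6}
    (hT : ∀ i ∈ T z, i = m ∨ i = p ∨ i = q ∨ i = r)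
    (hp : ∀ᶠ t : ℝ in 𝓝[>] 0, p ∉ Pal U (y + (z - y) * cis (τ * t)))
    (hq : ∀ᶠ t : ℝ in 𝓝[>] 0, q ∉ Pal U (y + (z - y) * cis (τ * t)))
    (hr : ∀ᶠ t : ℝ in 𝓝[>] 0, r ∉ Pal U (y + (z - y) * cis (τ * t))) : m ∉ Pal U y := by
  refine h.absent_of_branch538 hy (τ := τ) ?_
  filter_upwards [hp, hq, hr, (tendsto_branch538 z y τ).eventually (h.nhd z)] with t h1 h2 h3 h4
  intro i hi
  rcases hT i (h4 hi) with rfl | rfl | rfl | rfl
  · rfl
  · exact absurd (h.sub _ hi) h1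
  · exact absurd (h.sub _ hi) h2
  · exact absurd (h.sub _ hi) h3

/-- sides at the centre `z` from the circle about `g`, on a branch of `S(y)` -/
theorem sd_in538 {z y g : ℂ} {i j : Fin 6} (hg : dist g z = 1) (hs : Sd U g z i j) {τ : ℝ}
    (ht : τ * cr (y - z) (g - z) < 0) :
    ∀ᶠ t : ℝ in 𝓝[>] 0, j ∉ Pal U (y + (z - y) * cis (τ * t)) := by
  filter_upwards [branch_in538 hg ht, (tendsto_branch538 z y τ).eventually hs] with t h1 h2
  exact h2.2 h1

theorem sd_out538 {z y g : ℂ} {i j : Fin 6} (hg : dist g z = 1) (hs : Sd U g z i j) {τ : ℝ}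
    (ht : 0 < τ * cr (y - z) (g - z)) :
    ∀ᶠ t : ℝ in 𝓝[>] 0, i ∉ Pal U (y + (z - y) * cis (τ * t)) := by
  filter_upwards [branch_out538 hg ht, (tendsto_branch538 z y τ).eventually hs] with t h1 h2
  exact h2.1 h1

theorem exists_tau538 {x : ℝ} (hx : x ≠ 0) : ∃ τ : ℝ, (τ = 1 ∨ τ = -1) ∧ τ * x < 0 ∧
    0 < -τ * x := by
  rcases lt_or_gt_of_ne hx with h1 | h1
  · exact ⟨1, Or.inl rfl, by linarith, by linarith⟩
  · exact ⟨-1, Or.inr rfl, by linarith, by linarith⟩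

/-- the directions `g₁`, `g₂`, `k₁`, `k₂` on the same side of the line `z y` -/
theorem Irr.split_same538 (h : Irr U T) {z y g₁ g₂ k₁ : ℂ} {a b c d : Fin 6}
    (hy : dist y z = 1) (hP : ∀ i ∈ T z, i = a ∨ i = b ∨ i = c ∨ i = d)
    (d1 : dist g₁ z = 1) (d2 : dist g₂ z = 1) (d3 : dist k₁ z = 1)
    (s1 : Sd U g₁ z a b) (s2 : Sd U g₂ z b a) (s3 : Sd U k₁ z c d)
    (H3 : 0 < cr (y - z) (g₁ - z) * cr (y - z) (k₁ - z))
    (H5 : 0 < cr (y - z) (g₁ - z) * cr (y - z) (g₂ - z)) : c ∉ Pal U y ∧ d ∉ Pal U y := by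
  have n1 : cr (y - z) (g₁ - z) ≠ 0 := fun h0 => by rw [h0, zero_mul] at H3; exact lt_irrefl _ H3
  obtain ⟨τ, hτ, t1, t2⟩ := exists_tau538 n1
  have hτ' : -τ = 1 ∨ -τ = -1 := by
    rcases hτ with rfl | rfl
    · right; rfl
    · left; norm_num
  constructor
  · refine h.absent_three538 hy (τ := τ) (m := c) (p := a) (q := b) (r := d)
      (fun i hi => by have := hP i hi; tauto) (sd_in538 d2 s2 ?_) (sd_in538 d1 s1 t1)
      (sd_in538 d3 s3 ?_)
    · exact neg_left538 (by rw [scale538 hτ]; exact H5) t1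
    · exact neg_left538 (by rw [scale538 hτ]; exact H3) t1
  · refine h.absent_three538 hy (τ := -τ) (m := d) (p := a) (q := b) (r := c)
      (fun i hi => by have := hP i hi; tauto) (sd_out538 d1 s1 t2) (sd_out538 d2 s2 ?_)
      (sd_out538 d3 s3 ?_)
    · exact pos_left538 (by rw [scale538 hτ']; exact H5) t2
    · exact pos_left538 (by rw [scale538 hτ']; exact H3) t2

/-- the directions `g₁`, `k₁` on one side of the line `z y`, the directions `g₂`, `k₂` on the other -/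
theorem Irr.split_opp538 (h : Irr U T) {z y g₁ g₂ k₁ k₂ : ℂ} {a b c d : Fin 6}
    (hy : dist y z = 1) (hP : ∀ i ∈ T z, i = a ∨ i = b ∨ i = c ∨ i = d)
    (d1 : dist g₁ z = 1) (d3 : dist k₁ z = 1) (d4 : dist k₂ z = 1)
    (s1 : Sd U g₁ z a b) (s3 : Sd U k₁ z c d)
    (s4 : Sd U k₂ z c d) (H3 : 0 < cr (y - z) (g₁ - z) * cr (y - z) (k₁ - z))
    (H4 : 0 < cr (y - z) (g₂ - z) * cr (y - z) (k₂ - z))
    (H5 : cr (y - z) (g₁ - z) * cr (y - z) (g₂ - z) < 0) : a ∉ Pal U y ∧ b ∉ Pal U y := by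
  have n1 : cr (y - z) (g₁ - z) ≠ 0 := fun h0 => by rw [h0, zero_mul] at H3; exact lt_irrefl _ H3
  obtain ⟨τ, hτ, t1, t2⟩ := exists_tau538 n1
  have hτ' : -τ = 1 ∨ -τ = -1 := by
    rcases hτ with rfl | rfl
    · right; rfl
    · left; norm_num
  constructor
  · have t3 : 0 < τ * cr (y - z) (g₂ - z) := pos_right538 (by rw [scale538 hτ]; exact H5) t1
    refine h.absent_three538 hy (τ := τ) (m := a) (p := b) (q := c) (r := d)
      (fun i hi => by have := hP i hi; tauto) (sd_in538 d1 s1 t1) (sd_out538 d4 s4 ?_)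
      (sd_in538 d3 s3 ?_)
    · exact pos_left538 (by rw [scale538 hτ]; exact H4) t3
    · exact neg_left538 (by rw [scale538 hτ]; exact H3) t1
  · have t3 : -τ * cr (y - z) (g₂ - z) < 0 := neg_right538 (by rw [scale538 hτ']; exact H5) t2
    refine h.absent_three538 hy (τ := -τ) (m := b) (p := a) (q := c) (r := d)
      (fun i hi => by have := hP i hi; tauto) (sd_out538 d1 s1 t2) (sd_out538 d3 s3 ?_)
      (sd_in538 d4 s4 ?_)
    · exact pos_left538 (by rw [scale538 hτ']; exact H3) t2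
    · exact neg_left538 (by rw [scale538 hτ']; exact H4) t3

/-- opposite sides of the `ab`-directions `g₁`, `g₂` on different sides of a `cd`-direction `k` -/
theorem Irr.sd_opp538 (h : Irr U T) {z g₁ g₂ k : ℂ} {a b c d : Fin 6}
    (hz : DPt T z a b c d) (e1 : Arc T z g₁ {a, b}) (e2 : Arc T z g₂ {a, b})
    (f1 : Arc T z k {c, d}) (H1 : cr (k - z) (g₁ - z) * cr (k - z) (g₂ - z) < 0) :
    (Sd U g₁ z a b ∧ Sd U g₂ z b a) ∨ (Sd U g₁ z b a ∧ Sd U g₂ z a b) := by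
  have ma1 : a ∈ T g₁ := by rw [e1.mem]; simp
  have ma2 : a ∈ T g₂ := by rw [e2.mem]; simp
  obtain ⟨ε, hε, E⟩ := h.sd_iff492 hz f1
  have E1 := E g₁ e1.1 ma1 fun h0 => by rw [h0, zero_mul] at H1; exact lt_irrefl _ H1
  have E2 := E g₂ e2.1 ma2 fun h0 => by rw [h0, mul_zero] at H1; exact lt_irrefl _ H1
  have o1 := opp538 hε H1
  rcases h.two_sides538 hz e1 with ⟨h1, h2⟩ | ⟨h1, h2⟩ <;>
    rcases h.two_sides538 hz e2 with ⟨h3, h4⟩ | ⟨h3, h4⟩
  · exact absurd (E2.1 h3) (o1.1 (E1.1 h1))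
  · exact Or.inl ⟨h2, h4⟩
  · exact Or.inr ⟨h2, h4⟩
  · exfalso
    exact h.sd_unique ma1 (E1.2 (o1.2 fun h6 => h.sd_unique ma2 (E2.2 h6) h3)) h1

/-- the same sides of the `ab`-directions `g₁`, `g₂` on one side of a `cd`-direction `k` -/
theorem Irr.sd_same538 (h : Irr U T) {z g₁ g₂ k : ℂ} {a b c d : Fin 6}
    (hz : DPt T z a b c d) (e1 : Arc T z g₁ {a, b}) (e2 : Arc T z g₂ {a, b})
    (f1 : Arc T z k {c, d}) (H1 : 0 < cr (k - z) (g₁ - z) * cr (k - z) (g₂ - z)) :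
    (Sd U g₁ z a b ∧ Sd U g₂ z a b) ∨ (Sd U g₁ z b a ∧ Sd U g₂ z b a) := by
  have ma1 : a ∈ T g₁ := by rw [e1.mem]; simp
  have ma2 : a ∈ T g₂ := by rw [e2.mem]; simp
  obtain ⟨ε, hε, E⟩ := h.sd_iff492 hz f1
  have E1 := E g₁ e1.1 ma1 fun h0 => by rw [h0, zero_mul] at H1; exact lt_irrefl _ H1
  have E2 := E g₂ e2.1 ma2 fun h0 => by rw [h0, mul_zero] at H1; exact lt_irrefl _ H1
  have o1 := same538 hε H1
  rcases h.two_sides538 hz e1 with ⟨h1, h2⟩ | ⟨h1, h2⟩ <;>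
    rcases h.two_sides538 hz e2 with ⟨h3, h4⟩ | ⟨h3, h4⟩
  · exact Or.inl ⟨h2, h4⟩
  · exact absurd (E2.2 (o1.1 (E1.1 h1))) fun h5 => h.sd_unique ma2 h5 h3
  · exact absurd (E1.2 (o1.2 (E2.1 h3))) fun h5 => h.sd_unique ma1 h5 h1
  · exact Or.inr ⟨h2, h4⟩

/-- **the core**: `ab`-directions `g₁`, `g₂` and `cd`-directions `k₁`, `k₂` with the `cd`-directions
between the `ab`-directions -/
theorem Irr.split_core538 (h : Irr U T) {z y g₁ g₂ k₁ k₂ : ℂ} {a b c d : Fin 6}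
    (hz : DPt T z a b c d) (hy : dist y z = 1)
    (e1 : Arc T z g₁ {a, b}) (e2 : Arc T z g₂ {a, b}) (f1 : Arc T z k₁ {c, d})
    (f2 : Arc T z k₂ {c, d})
    (H1 : cr (k₁ - z) (g₁ - z) * cr (k₁ - z) (g₂ - z) < 0)
    (H2 : 0 < cr (g₁ - z) (k₁ - z) * cr (g₁ - z) (k₂ - z))
    (H3 : 0 < cr (y - z) (g₁ - z) * cr (y - z) (k₁ - z))
    (H4 : 0 < cr (y - z) (g₂ - z) * cr (y - z) (k₂ - z)) :
    (0 < cr (y - z) (g₁ - z) * cr (y - z) (g₂ - z) → c ∉ Pal U y ∧ d ∉ Pal U y) ∧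
    (cr (y - z) (g₁ - z) * cr (y - z) (g₂ - z) < 0 → a ∉ Pal U y ∧ b ∉ Pal U y) := by
  have hP : ∀ i ∈ T z, i = a ∨ i = b ∨ i = c ∨ i = d := by
    intro i hi
    rw [hz.pal] at hi
    simpa using hi
  have P2 : ∀ i ∈ T z, i = a ∨ i = b ∨ i = d ∨ i = c := fun i hi => by have := hP i hi; tauto
  have P3 : ∀ i ∈ T z, i = b ∨ i = a ∨ i = c ∨ i = d := fun i hi => by have := hP i hi; tauto
  have P4 : ∀ i ∈ T z, i = b ∨ i = a ∨ i = d ∨ i = c := fun i hi => by have := hP i hi; tauto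
  rcases h.sd_opp538 hz e1 e2 f1 H1 with ⟨s1, s2⟩ | ⟨s1, s2⟩ <;>
    rcases h.sd_same538 hz.swap f1 f2 e1 H2 with ⟨s3, s4⟩ | ⟨s3, s4⟩
  · exact ⟨fun H5 => h.split_same538 hy hP e1.1 e2.1 f1.1 s1 s2 s3 H3 H5,
      fun H5 => h.split_opp538 hy hP e1.1 f1.1 f2.1 s1 s3 s4 H3 H4 H5⟩
  · exact ⟨fun H5 => (h.split_same538 hy P2 e1.1 e2.1 f1.1 s1 s2 s3 H3 H5).symm,
      fun H5 => h.split_opp538 hy P2 e1.1 f1.1 f2.1 s1 s3 s4 H3 H4 H5⟩
  · exact ⟨fun H5 => h.split_same538 hy P3 e1.1 e2.1 f1.1 s1 s2 s3 H3 H5,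
      fun H5 => (h.split_opp538 hy P3 e1.1 f1.1 f2.1 s1 s3 s4 H3 H4 H5).symm⟩
  · exact ⟨fun H5 => (h.split_same538 hy P4 e1.1 e2.1 f1.1 s1 s2 s3 H3 H5).symm,
      fun H5 => (h.split_opp538 hy P4 e1.1 f1.1 f2.1 s1 s3 s4 H3 H4 H5).symm⟩

/-! ### half branches of `S(z)` -/

theorem cr_hb538 {z v : ℂ} (hv : dist v z = 1) (σ σ' t : ℝ) :
    cr (hb z v σ t - z) (hb z v σ' t - z) = Real.sin ((σ' - σ) * t) := by
  have h1 := ip_sq (n := v - z) (by rw [← dist_eq_norm]; exact hv)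
  unfold cr hb
  rw [add_sub_cancel_left, add_sub_cancel_left, show (σ' - σ) * t = σ' * t - σ * t by ring,
    Real.sin_sub]
  simp only [Complex.mul_re, Complex.mul_im, cis_re, cis_im]
  linear_combination (Real.cos (σ * t) * Real.sin (σ' * t) -
    Real.sin (σ * t) * Real.cos (σ' * t)) * h1

theorem cr_ev538 {z v v' : ℂ} (σ σ' : ℝ) (h0 : cr (v - z) (v' - z) ≠ 0) :
    ∀ᶠ t : ℝ in 𝓝[>] 0, 0 < cr (hb z v σ t - z) (hb z v' σ' t - z) * cr (v - z) (v' - z) := by
  have h1 : Tendsto (fun p : ℂ × ℂ => cr (p.1 - z) (p.2 - z) * cr (v - z) (v' - z)) (𝓝 (v, v'))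
      (𝓝 (cr (v - z) (v' - z) * cr (v - z) (v' - z))) := by
    have : Continuous fun p : ℂ × ℂ => cr (p.1 - z) (p.2 - z) * cr (v - z) (v' - z) := by
      unfold cr
      fun_prop
    exact this.tendsto (v, v')
  have h2 := (tendsto_hb z v σ).prodMk_nhds (tendsto_hb z v' σ')
  exact (h1.comp h2).eventually (Ioi_mem_nhds (mul_self_pos.2 h0))

theorem cr_swap538 (x y : ℂ) : cr x y = -cr y x := by unfold cr; ring

theorem cr_ev_left538 {z v y : ℂ} (τ : ℝ) (h0 : cr (y - z) (v - z) ≠ 0) :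
    ∀ᶠ t : ℝ in 𝓝[>] 0, 0 < cr (y - z) (hb z v τ t - z) * cr (y - z) (v - z) := by
  have h1 : cr (v - z) (y - z) ≠ 0 := by
    rw [cr_swap538, neg_ne_zero]; exact h0
  filter_upwards [cr_ev492 (z := z) (v := v) (v' := y) τ h1] with t ht
  rw [cr_swap538 (y - z) (hb z v τ t - z), cr_swap538 (y - z) (v - z), neg_mul_neg]
  exact ht

/-- **the four sectors**: `τ` is the direction of the exact `ab`-arc at `v₁`, and the `cd`-arcs are
between `v₁` and `v₂`: `S(z)` off the two lines has no `ab`-colour inside the angle of `v₁`, `v₂` and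
its opposite, no `cd`-colour outside -/
theorem Irr.four_sectors538 (h : Irr U T) {z v₁ v₂ y : ℂ} {a b c d : Fin 6}
    (hz : DPt T z a b c d) (h1 : dist v₁ z = 1) (h2 : dist v₂ z = 1) {τ : ℝ}
    (hτ : τ = 1 ∨ τ = -1)
    (a1 : ∀ᶠ t : ℝ in 𝓝[>] 0, T (hb z v₁ τ t) = {a, b})
    (c1 : ∀ᶠ t : ℝ in 𝓝[>] 0, T (hb z v₁ (-τ) t) = {c, d})
    (a2 : ∀ᶠ t : ℝ in 𝓝[>] 0, T (hb z v₂ (-τ) t) = {a, b})
    (c2 : ∀ᶠ t : ℝ in 𝓝[>] 0, T (hb z v₂ τ t) = {c, d})
    (hD : τ * cr (v₁ - z) (v₂ - z) < 0)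
    (hy : dist y z = 1) (n1 : cr (y - z) (v₁ - z) ≠ 0) (n2 : cr (y - z) (v₂ - z) ≠ 0) :
    (0 < cr (y - z) (v₁ - z) * cr (y - z) (v₂ - z) → c ∉ Pal U y ∧ d ∉ Pal U y) ∧
    (cr (y - z) (v₁ - z) * cr (y - z) (v₂ - z) < 0 → a ∉ Pal U y ∧ b ∉ Pal U y) := by
  have nD : cr (v₁ - z) (v₂ - z) ≠ 0 := fun h0 => by rw [h0, mul_zero] at hD; exact lt_irrefl _ hD
  have small : ∀ᶠ t : ℝ in 𝓝[>] 0, 0 < t ∧ t < Real.pi / 2 := by
    filter_upwards [self_mem_nhdsWithin,
      mem_nhdsWithin_of_mem_nhds (Iio_mem_nhds (half_pos Real.pi_pos))] with t h1 h2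
    exact ⟨h1, h2⟩
  obtain ⟨t, ⟨t1, t2, t3, t4⟩, t5, t6, t7, t8, t9, t10, t11⟩ :=
    ((a1.and (c1.and (a2.and c2))).and ((cr_ev538 (-τ) (-τ) nD).and ((cr_ev538 τ τ nD).and
      ((cr_ev_left538 τ n1).and ((cr_ev_left538 (-τ) n1).and ((cr_ev_left538 (-τ) n2).and
        ((cr_ev_left538 τ n2).and small))))))).exists
  have ma : a ∈ T z := by rw [hz.pal]; simp
  have mb : b ∈ T z := by rw [hz.pal]; simp
  have mc : c ∈ T z := by rw [hz.pal]; simp
  have md : d ∈ T z := by rw [hz.pal]; simp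
  have A1 := h.arc_of_eq hz.ab ma mb (dist_hb h1 τ t) t1
  have C1 := h.arc_of_eq hz.cd mc md (dist_hb h1 (-τ) t) t2
  have A2 := h.arc_of_eq hz.ab ma mb (dist_hb h2 (-τ) t) t3
  have C2 := h.arc_of_eq hz.cd mc md (dist_hb h2 τ t) t4
  have hsin : 0 < Real.sin (2 * t) := Real.sin_pos_of_pos_of_lt_pi (by linarith [t11.1])
    (by linarith [t11.2])
  have s1 : cr (hb z v₁ (-τ) t - z) (hb z v₁ τ t - z) = τ * Real.sin (2 * t) := by
    rw [cr_hb538 h1]
    rcases hτ with rfl | rfl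
    · rw [one_mul]; congr 1; ring
    · rw [neg_one_mul, ← Real.sin_neg]; congr 1; ring
  have s2 : cr (hb z v₁ τ t - z) (hb z v₁ (-τ) t - z) = -(τ * Real.sin (2 * t)) := by
    rw [cr_swap538, s1]
  -- signs
  have e1 : ∀ x : ℝ, 0 < x * cr (v₁ - z) (v₂ - z) → τ * x < 0 := by
    intro x hx
    by_contra h0
    push Not at h0
    have : (τ * x) * (τ * cr (v₁ - z) (v₂ - z)) = x * cr (v₁ - z) (v₂ - z) := scale538 hτ
    nlinarith [mul_nonneg h0 (neg_nonneg.2 hD.le)]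
  have key := h.split_core538 (y := y) hz hy A1 A2 C1 C2 ?_ ?_ ?_ ?_
  · have p1 : ∀ x x' y y' : ℝ, 0 < x * x' → 0 < y * y' → (0 < x * y ↔ 0 < x' * y') ∧
        (x * y < 0 ↔ x' * y' < 0) := by
      intro x x' y y' g1 g2
      have g3 : 0 < (x * y) * (x' * y') := by nlinarith [mul_pos g1 g2]
      constructor
      · exact ⟨fun g4 => pos_left538 g3 g4, fun g4 => pos_left538 (by rwa [mul_comm] at g3) g4⟩
      · exact ⟨fun g4 => neg_left538 g3 g4, fun g4 => neg_left538 (by rwa [mul_comm] at g3) g4⟩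
    have p2 := p1 _ _ _ _ t7 t9
    exact ⟨fun g => key.1 (p2.1.2 g), fun g => key.2 (p2.2.2 g)⟩
  · rw [s1]
    have := e1 _ t5
    nlinarith [mul_pos hsin (neg_pos.2 this)]
  · rw [s2]
    have := e1 _ t6
    nlinarith [mul_pos hsin (neg_pos.2 this)]
  · have : 0 < (cr (y - z) (hb z v₁ τ t - z) * cr (y - z) (hb z v₁ (-τ) t - z)) *
        (cr (y - z) (v₁ - z)) ^ 2 := by nlinarith [mul_pos t7 t8]
    exact pos_left538 (by rwa [mul_comm] at this) (by positivity)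
  · have : 0 < (cr (y - z) (hb z v₂ (-τ) t - z) * cr (y - z) (hb z v₂ τ t - z)) *
        (cr (y - z) (v₂ - z)) ^ 2 := by nlinarith [mul_pos t9 t10]
    exact pos_left538 (by rwa [mul_comm] at this) (by positivity)

/-! ### the antipode of a point of the palette of `z` -/

theorem ray_near538 {z u : ℂ} {P : ℂ → Prop} (hP : ∀ᶠ x in 𝓝 z, P x) :
    ∀ᶠ r : ℝ in 𝓝[>] 0, P (z + r * u) := (tendsto_ray169 z u).eventually hP

/-- a ray of `U i` at `z` is outside `S(g)` if `i` is absent inside -/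
theorem ray_side538 {z g u : ℂ} {i j : Fin 6} (hg : dist g z = 1) (hs : Sd U g z j i)
    (hr : Ray (U i) z u) : ip u (g - z) ≤ 0 := by
  by_contra h0
  push Not at h0
  obtain ⟨r, h1, h2, h3⟩ := (hr.and ((ray_near538 hs).and
    (ray_in169 (v := z) (z := g) (by rw [dist_comm]; exact hg) h0))).exists
  exact h2.2 h3 (subset_closure h1)

/-- outside `S(v)` near `z` the two colours of `z` are absent which have no ray outside `S(v)` -/
theorem Irr.outer538 (h : Irr U T) {z v u u' : ℂ} {a b c d p q r s : Fin 6}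
    (hz : DPt T z a b c d) (hv : DPt T v p q r s) (hzv : dist z v = 1) (hT : T v = T z)
    (ra : Ray (U a) z u) (hu : ip u (v - z) < 0) (rd : Ray (U d) z u') (hu' : ip u' (v - z) < 0) :
    ∀ᶠ x in 𝓝 z, 1 < dist x v → b ∉ Pal U x ∧ c ∉ Pal U x := by
  have key : ∀ p q r s : Fin 6, (∀ i, i ∈ T z → i = p ∨ i = q ∨ i = r ∨ i = s) →
      Sd U v z p q → Sd U v z r s →
      ∀ᶠ x in 𝓝 z, 1 < dist x v → b ∉ Pal U x ∧ c ∉ Pal U x := by
    intro p q r s hP h1 h2
    -- a colour with a ray outside is not an inner colour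
    have out : ∀ {i j m : Fin 6} {w : ℂ}, Ray (U i) z w → ip w (v - z) < 0 → Sd U v z j m →
        i ≠ j := by
      intro i j m w hr hw hs he
      subst he
      obtain ⟨t, t1, t2, t3⟩ := (hr.and ((ray_near538 hs).and (ray_out169 hzv hw))).exists
      exact t2.1 t3 (subset_closure t1)
    have a1 := out ra hu h1
    have a2 := out ra hu h2
    have d1 := out rd hu' h1
    have d2 := out rd hu' h2
    have ma := hP a (by rw [hz.pal]; simp)
    have mb := hP b (by rw [hz.pal]; simp)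
    have mc := hP c (by rw [hz.pal]; simp)
    have md := hP d (by rw [hz.pal]; simp)
    have hab := hz.ab
    have hac := hz.ac
    have had := hz.ad
    have hbd := hz.bd
    have hcd := hz.cd
    have eb : b = p ∨ b = r := by
      rcases ma with e | e | e | e
      · exact absurd e a1
      · rcases md with e' | e' | e' | e'
        · exact absurd e' d1
        · exact absurd (e.trans e'.symm) had
        · exact absurd e' d2
        · rcases mb with e'' | e'' | e'' | e''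
          · exact Or.inl e''
          · exact absurd (e.trans e''.symm) hab
          · exact Or.inr e''
          · exact absurd (e''.trans e'.symm) hbd
      · exact absurd e a2
      · rcases md with e' | e' | e' | e'
        · exact absurd e' d1
        · rcases mb with e'' | e'' | e'' | e''
          · exact Or.inl e''
          · exact absurd (e''.trans e'.symm) hbd
          · exact Or.inr e''
          · exact absurd (e.trans e''.symm) hab
        · exact absurd e' d2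
        · exact absurd (e.trans e'.symm) had
    have ec : c = p ∨ c = r := by
      rcases ma with e | e | e | e
      · exact absurd e a1
      · rcases md with e' | e' | e' | e'
        · exact absurd e' d1
        · exact absurd (e.trans e'.symm) had
        · exact absurd e' d2
        · rcases mc with e'' | e'' | e'' | e''
          · exact Or.inl e''
          · exact absurd (e.trans e''.symm) hac
          · exact Or.inr e''
          · exact absurd (e''.trans e'.symm) hcd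
      · exact absurd e a2
      · rcases md with e' | e' | e' | e'
        · exact absurd e' d1
        · rcases mc with e'' | e'' | e'' | e''
          · exact Or.inl e''
          · exact absurd (e''.trans e'.symm) hcd
          · exact Or.inr e''
          · exact absurd (e.trans e''.symm) hac
        · exact absurd e' d2
        · exact absurd (e.trans e'.symm) had
    filter_upwards [h1, h2] with x h3 h4 h5
    constructor
    · rcases eb with e | e
      · rw [e]; exact h3.1 h5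
      · rw [e]; exact h4.1 h5
    · rcases ec with e | e
      · rw [e]; exact h3.1 h5
      · rw [e]; exact h4.1 h5
  have hP : ∀ i, i ∈ T z → i = p ∨ i = q ∨ i = r ∨ i = s := by
    intro i hi
    rw [← hT, hv.pal] at hi
    simpa using hi
  rcases h.sides hv hzv with h1 | h1 <;> rcases h.sides hv.swap hzv with h2 | h2
  · exact key p q r s hP h1 h2
  · exact key p q s r (fun i hi => by have := hP i hi; tauto) h1 h2
  · exact key q p r s (fun i hi => by have := hP i hi; tauto) h1 h2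
  · exact key q p s r (fun i hi => by have := hP i hi; tauto) h1 h2

theorem dist_anti538 {z v : ℂ} (hv : dist v z = 1) {σ : ℝ} (hσ : σ = 1 ∨ σ = -1) :
    ∀ᶠ t : ℝ in 𝓝[>] 0, 1 < dist (2 * z - v + (v - z) * cis (σ * t)) v := by
  have hVn : ‖v - z‖ = 1 := by rw [← dist_eq_norm]; exact hv
  filter_upwards [small492] with t ht
  have e1 : 2 * z - v + (v - z) * cis (σ * t) - v = (v - z) * (cis (σ * t) - 2) := by ring
  rw [dist_eq_norm, e1, norm_mul, hVn, one_mul]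
  have hcos : Real.cos (σ * t) < 1 := by
    have hc : Real.cos (σ * t) = Real.cos t := by
      rcases hσ with rfl | rfl
      · rw [one_mul]
      · rw [neg_one_mul, Real.cos_neg]
    rw [hc, ← Real.cos_zero]
    exact Real.cos_lt_cos_of_nonneg_of_le_pi le_rfl ht.2.le ht.1
  have h6 : ‖cis (σ * t) - 2‖ ^ 2 = 5 - 4 * Real.cos (σ * t) := by
    rw [Complex.sq_norm, Complex.normSq_apply]
    simp only [Complex.sub_re, Complex.sub_im, cis_re, cis_im]
    have := Real.sin_sq_add_cos_sq (σ * t)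
    simp
    nlinarith
  have h7 := norm_nonneg (cis (σ * t) - 2)
  nlinarith

/-- a point of `S(2 z - v)` near `z` with one colour -/
theorem Irr.absent_anti538 (h : Irr U T) {z v : ℂ} (hv : dist v z = 1) {σ : ℝ} {i : Fin 6}
    (hb : ∀ᶠ t : ℝ in 𝓝[>] 0, T (2 * z - v + (v - z) * cis (σ * t)) ⊆ {i}) :
    i ∉ Pal U (2 * z - v) := by
  obtain ⟨t, ht⟩ := hb.exists
  refine h.mx.notMem' (h.mem_of_single ht) ?_
  rw [dist_eq_norm, add_sub_cancel_left, norm_mul, norm_cis, mul_one, ← dist_eq_norm]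
  exact hv

/-- **the antipode of a point `v` of the palette of `z`**, with the colours named by the sides: the
exact `ab`-direction `g` and the exact `cd`-direction `k` are on the two sides of `v` -/
theorem Irr.anti_end538 (h : Irr U T) {z v g k : ℂ} {a b c d : Fin 6}
    (hz : DPt T z a b c d) (hv : dist v z = 1) (hT : T v = T z)
    (hg : Arc T z g {a, b}) (hk : Arc T z k {c, d}) (s1 : Sd U g z b a) (s2 : Sd U k z c d)
    (C1 : 0 < cr (k - z) (v - z) * cr (k - z) (g - z))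
    (C2 : 0 < cr (g - z) (v - z) * cr (g - z) (k - z)) :
    a ∉ Pal U (2 * z - v) ∧ d ∉ Pal U (2 * z - v) := by
  have hzv : dist z v = 1 := by rw [dist_comm]; exact hv
  obtain ⟨p, q, r, s, hD⟩ := h.dpt_of_eq169 ⟨a, b, c, d, hz⟩ hv hT
  have nkg : cr (k - z) (g - z) ≠ 0 := fun h0 => by rw [h0, mul_zero] at C1; exact lt_irrefl _ C1
  have ngk : cr (g - z) (k - z) ≠ 0 := fun h0 => by rw [h0, mul_zero] at C2; exact lt_irrefl _ C2
  -- the ray of `a`
  obtain ⟨u, ra, hu⟩ : ∃ u, Ray (U a) z u ∧ ip u (v - z) < 0 := by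
    rcases h.d0 hz hk with ⟨h1, -⟩ | ⟨-, h1⟩
    · refine ⟨_, h1, ?_⟩
      have h2 := ray_side538 hg.1 s1 h1
      rw [ip_I] at h2 ⊢
      exact neg_left538 (by rwa [mul_comm] at C1) (lt_of_le_of_ne h2 nkg)
    · refine ⟨_, h1, ?_⟩
      have h2 := ray_side538 hg.1 s1 h1
      rw [ip_neg, ip_I] at h2 ⊢
      have h3 : 0 < cr (k - z) (g - z) := lt_of_le_of_ne (by linarith) nkg.symm
      have := pos_left538 (by rwa [mul_comm] at C1) h3
      linarith
  -- the ray of `d`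
  obtain ⟨u', rd, hu'⟩ : ∃ u, Ray (U d) z u ∧ ip u (v - z) < 0 := by
    rcases h.d0 hz.swap hg with ⟨-, h1⟩ | ⟨h1, -⟩
    · refine ⟨_, h1, ?_⟩
      have h2 := ray_side538 hk.1 s2 h1
      rw [ip_neg, ip_I] at h2 ⊢
      have h3 : 0 < cr (g - z) (k - z) := lt_of_le_of_ne (by linarith) ngk.symm
      have := pos_left538 (by rwa [mul_comm] at C2) h3
      linarith
    · refine ⟨_, h1, ?_⟩
      have h2 := ray_side538 hk.1 s2 h1
      rw [ip_I] at h2 ⊢
      exact neg_left538 (by rwa [mul_comm] at C2) (lt_of_le_of_ne h2 ngk)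
  have hout := h.outer538 hz hD hzv hT ra hu rd hu'
  -- `g`, `k` are on different sides of `v`
  have C3 : cr (v - z) (g - z) * cr (v - z) (k - z) < 0 := by
    have e1 := cr_swap538 (v - z) (g - z)
    have e2 := cr_swap538 (v - z) (k - z)
    have e3 := cr_swap538 (g - z) (k - z)
    rw [e3] at C2
    rw [e1, e2]
    generalize cr (g - z) (v - z) = x at *
    generalize cr (k - z) (v - z) = y at *
    generalize cr (k - z) (g - z) = w at *
    by_contra h0
    push Not at h0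
    nlinarith [mul_pos C1 C2, mul_nonneg h0 (sq_nonneg w)]
  have nvg : cr (v - z) (g - z) ≠ 0 := fun h0 => by rw [h0, zero_mul] at C3; exact lt_irrefl _ C3
  have branch : ∀ {σ : ℝ} {w : ℂ} {i j m : Fin 6}, (σ = 1 ∨ σ = -1) → dist w z = 1 →
      Sd U w z j i → 0 < σ * cr (v - z) (w - z) → (∀ l ∈ T z, l = m ∨ l = i ∨ l = b ∨ l = c) →
      m ∉ Pal U (2 * z - v) := by
    intro σ w i j m hσ hw hs hpos hl
    refine h.absent_anti538 hv (σ := σ) ?_
    filter_upwards [dist_anti538 hv hσ, branch_in hw hpos, (tendsto_branch z v σ).eventually hs,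
      (tendsto_branch z v σ).eventually hout, (tendsto_branch z v σ).eventually (h.nhd z)]
      with t t1 t2 t3 t4 t5
    intro l hl'
    rcases hl l (t5 hl') with rfl | rfl | rfl | rfl
    · rfl
    · exact absurd (h.sub _ hl') (t3.2 t2)
    · exact absurd (h.sub _ hl') (t4 t1).1
    · exact absurd (h.sub _ hl') (t4 t1).2
  have hP : ∀ i ∈ T z, i = a ∨ i = b ∨ i = c ∨ i = d := by
    intro i hi
    rw [hz.pal] at hi
    simpa using hi
  obtain ⟨σ, hσ, c1, c2⟩ := exists_tau538 nvg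
  have hσ' : -σ = 1 ∨ -σ = -1 := by
    rcases hσ with rfl | rfl
    · right; rfl
    · left; norm_num
  constructor
  · refine branch (σ := σ) (w := k) (i := d) (j := c) (m := a) hσ hk.1 s2 ?_
      (fun l hl => by have := hP l hl; tauto)
    exact pos_right538 (by rw [scale538 hσ]; exact C3) c1
  · exact branch (σ := -σ) (w := g) (i := a) (j := b) (m := d) hσ' hg.1 s1 c2
      (fun l hl => by have := hP l hl; tauto)

theorem small538 : ∀ᶠ t : ℝ in 𝓝[>] 0, 0 < t ∧ t < Real.pi / 2 := by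
  filter_upwards [self_mem_nhdsWithin,
    mem_nhdsWithin_of_mem_nhds (Iio_mem_nhds (half_pos Real.pi_pos))] with t h1 h2
  exact ⟨h1, h2⟩

theorem sin_tau538 {τ : ℝ} (hτ : τ = 1 ∨ τ = -1) (x : ℝ) : Real.sin (τ * x) = τ * Real.sin x := by
  rcases hτ with rfl | rfl
  · rw [one_mul, one_mul]
  · rw [neg_one_mul, neg_one_mul, Real.sin_neg]

/-- the two sign conditions of `anti_end538` for the directions `g = hb z v τ t`, `k = hb z v (-τ) t` -/
theorem signs538 {z v : ℂ} (hv : dist v z = 1) {τ t : ℝ} (hτ : τ = 1 ∨ τ = -1) (h0 : 0 < t)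
    (h1 : t < Real.pi / 2) :
    0 < cr (hb z v (-τ) t - z) (v - z) * cr (hb z v (-τ) t - z) (hb z v τ t - z) ∧
    0 < cr (hb z v τ t - z) (v - z) * cr (hb z v τ t - z) (hb z v (-τ) t - z) := by
  have hs : 0 < Real.sin t := Real.sin_pos_of_pos_of_lt_pi h0 (by linarith [Real.pi_pos])
  have hs2 : 0 < Real.sin (2 * t) := Real.sin_pos_of_pos_of_lt_pi (by linarith) (by linarith)
  have e1 : cr (hb z v (-τ) t - z) (v - z) = τ * Real.sin t := by
    rw [cr_self492 hv, neg_mul, Real.sin_neg, neg_neg, sin_tau538 hτ]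
  have e2 : cr (hb z v (-τ) t - z) (hb z v τ t - z) = τ * Real.sin (2 * t) := by
    rw [cr_hb538 hv, ← sin_tau538 hτ]; congr 1; ring
  have e3 : cr (hb z v τ t - z) (v - z) = -(τ * Real.sin t) := by
    rw [cr_self492 hv, sin_tau538 hτ]
  have e4 : cr (hb z v τ t - z) (hb z v (-τ) t - z) = -(τ * Real.sin (2 * t)) := by
    rw [cr_swap538, e2]
  have h5 : 0 < (τ * Real.sin t) * (τ * Real.sin (2 * t)) := by
    rw [scale538 hτ]; exact mul_pos hs hs2
  rw [e1, e2, e3, e4, neg_mul_neg]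
  exact ⟨h5, h5⟩

/-- **The antipode of one point of the palette of `z`**: at `2 z - v` one colour of each pair of the
two-pair point `z` is absent -/
theorem Irr.anti_J538 (h : Irr U T) {z v : ℂ} {a b c d : Fin 6} (hz : DPt T z a b c d)
    (hv : dist v z = 1) (hT : T v = T z) :
    ∃ a' b' c' d' : Fin 6, DPt T z a' b' c' d' ∧ ({a', b'} : Set (Fin 6)) = {a, b} ∧
      ({c', d'} : Set (Fin 6)) = {c, d} ∧ a' ∉ Pal U (2 * z - v) ∧ d' ∉ Pal U (2 * z - v) := by
  obtain ⟨τ, hτ, h1, h2⟩ := h.j_sides hz hv hT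
  obtain ⟨t, t1, t2, t3, t4⟩ := (h1.and (h2.and small538)).exists
  obtain ⟨C1, C2⟩ := signs538 hv hτ t3 t4
  have ma : a ∈ T z := by rw [hz.pal]; simp
  have mb : b ∈ T z := by rw [hz.pal]; simp
  have mc : c ∈ T z := by rw [hz.pal]; simp
  have md : d ∈ T z := by rw [hz.pal]; simp
  have hg := h.arc_of_eq hz.ab ma mb (dist_hb hv τ t) t1
  have hk := h.arc_of_eq hz.cd mc md (dist_hb hv (-τ) t) t2
  have hg' : Arc T z (hb z v τ t) {b, a} := by rw [pair_comm]; exact hg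
  have hk' : Arc T z (hb z v (-τ) t) {d, c} := by rw [pair_comm]; exact hk
  rcases h.two_sides538 hz hg with ⟨-, s1⟩ | ⟨-, s1⟩ <;>
    rcases h.two_sides538 hz.swap hk with ⟨-, s2⟩ | ⟨-, s2⟩
  · have := h.anti_end538 hz.swap12 hv hT hg' hk s1 s2 C1 C2
    exact ⟨b, a, c, d, hz.swap12, pair_comm _ _, rfl, this.1, this.2⟩
  · have := h.anti_end538 hz.swap12.swap34 hv hT hg' hk' s1 s2 C1 C2
    exact ⟨b, a, d, c, hz.swap12.swap34, pair_comm _ _, pair_comm _ _, this.1, this.2⟩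
  · have := h.anti_end538 hz hv hT hg hk s1 s2 C1 C2
    exact ⟨a, b, c, d, hz, rfl, rfl, this.1, this.2⟩
  · have := h.anti_end538 hz.swap34 hv hT hg hk' s1 s2 C1 C2
    exact ⟨a, b, d, c, hz.swap34, rfl, pair_comm _ _, this.1, this.2⟩

/-- **Two points of the palette of `z`**, with the `cd`-arcs between them -/
theorem Irr.full_aux538 (h : Irr U T) {z v₁ v₂ : ℂ} {a b c d : Fin 6}
    (hz : DPt T z a b c d) (h1 : dist v₁ z = 1) (h2 : dist v₂ z = 1) (hT1 : T v₁ = T z)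
    (hT2 : T v₂ = T z) {τ : ℝ} (hτ : τ = 1 ∨ τ = -1)
    (a1 : ∀ᶠ t : ℝ in 𝓝[>] 0, T (hb z v₁ τ t) = {a, b})
    (c1 : ∀ᶠ t : ℝ in 𝓝[>] 0, T (hb z v₁ (-τ) t) = {c, d})
    (a2 : ∀ᶠ t : ℝ in 𝓝[>] 0, T (hb z v₂ (-τ) t) = {a, b})
    (c2 : ∀ᶠ t : ℝ in 𝓝[>] 0, T (hb z v₂ τ t) = {c, d})
    (hD : τ * cr (v₁ - z) (v₂ - z) < 0) :
    ∃ a' b' c' d' : Fin 6, DPt T z a' b' c' d' ∧
      (a' ∉ Pal U (2 * z - v₁) ∧ d' ∉ Pal U (2 * z - v₁)) ∧
      b' ∉ Pal U (2 * z - v₂) ∧ d' ∉ Pal U (2 * z - v₂) := by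
  have nD : cr (v₁ - z) (v₂ - z) ≠ 0 := fun h0 => by rw [h0, mul_zero] at hD; exact lt_irrefl _ hD
  obtain ⟨t, ⟨t1, t2, t3, t4⟩, t5, t6, t7, t8⟩ := ((a1.and (c1.and (a2.and c2))).and
    ((cr_ev538 (-τ) (-τ) nD).and ((cr_ev538 τ τ nD).and small538))).exists
  have ma : a ∈ T z := by rw [hz.pal]; simp
  have mb : b ∈ T z := by rw [hz.pal]; simp
  have mc : c ∈ T z := by rw [hz.pal]; simp
  have md : d ∈ T z := by rw [hz.pal]; simp
  have A1 := h.arc_of_eq hz.ab ma mb (dist_hb h1 τ t) t1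
  have C1 := h.arc_of_eq hz.cd mc md (dist_hb h1 (-τ) t) t2
  have A2 := h.arc_of_eq hz.ab ma mb (dist_hb h2 (-τ) t) t3
  have C2 := h.arc_of_eq hz.cd mc md (dist_hb h2 τ t) t4
  have A1' : Arc T z (hb z v₁ τ t) {b, a} := by rw [pair_comm]; exact A1
  have C1' : Arc T z (hb z v₁ (-τ) t) {d, c} := by rw [pair_comm]; exact C1
  have A2' : Arc T z (hb z v₂ (-τ) t) {b, a} := by rw [pair_comm]; exact A2
  have C2' : Arc T z (hb z v₂ τ t) {d, c} := by rw [pair_comm]; exact C2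
  have hτ' : -τ = 1 ∨ -τ = -1 := by
    rcases hτ with rfl | rfl
    · right; rfl
    · left; norm_num
  obtain ⟨E1, E2⟩ := signs538 h1 hτ t7 t8
  have hS := signs538 h2 hτ' t7 t8
  rw [neg_neg] at hS
  obtain ⟨E3, E4⟩ := hS
  have hsin : 0 < Real.sin (2 * t) := Real.sin_pos_of_pos_of_lt_pi (by linarith) (by linarith)
  have s1 : cr (hb z v₁ (-τ) t - z) (hb z v₁ τ t - z) = τ * Real.sin (2 * t) := by
    rw [cr_hb538 h1, ← sin_tau538 hτ]; congr 1; ring
  have s2 : cr (hb z v₁ τ t - z) (hb z v₁ (-τ) t - z) = -(τ * Real.sin (2 * t)) := by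
    rw [cr_swap538, s1]
  have e1 : ∀ x : ℝ, 0 < x * cr (v₁ - z) (v₂ - z) → τ * x < 0 := by
    intro x hx
    by_contra h0
    push Not at h0
    have : (τ * x) * (τ * cr (v₁ - z) (v₂ - z)) = x * cr (v₁ - z) (v₂ - z) := scale538 hτ
    nlinarith [mul_nonneg h0 (neg_nonneg.2 hD.le)]
  have H1 : cr (hb z v₁ (-τ) t - z) (hb z v₁ τ t - z) *
      cr (hb z v₁ (-τ) t - z) (hb z v₂ (-τ) t - z) < 0 := by
    rw [s1]
    have := e1 _ t5
    nlinarith [mul_pos hsin (neg_pos.2 this)]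
  have H2 : 0 < cr (hb z v₁ τ t - z) (hb z v₁ (-τ) t - z) *
      cr (hb z v₁ τ t - z) (hb z v₂ τ t - z) := by
    rw [s2]
    have := e1 _ t6
    nlinarith [mul_pos hsin (neg_pos.2 this)]
  rcases h.sd_opp538 hz A1 A2 C1 H1 with ⟨r1, r2⟩ | ⟨r1, r2⟩ <;>
    rcases h.sd_same538 hz.swap C1 C2 A1 H2 with ⟨r3, r4⟩ | ⟨r3, r4⟩
  · exact ⟨b, a, c, d, hz.swap12, h.anti_end538 hz.swap12 h1 hT1 A1' C1 r1 r3 E1 E2,
      h.anti_end538 hz h2 hT2 A2 C2 r2 r4 E3 E4⟩
  · exact ⟨b, a, d, c, hz.swap12.swap34,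
      h.anti_end538 hz.swap12.swap34 h1 hT1 A1' C1' r1 r3 E1 E2,
      h.anti_end538 hz.swap34 h2 hT2 A2 C2' r2 r4 E3 E4⟩
  · exact ⟨a, b, c, d, hz, h.anti_end538 hz h1 hT1 A1 C1 r1 r3 E1 E2,
      h.anti_end538 hz.swap12 h2 hT2 A2' C2 r2 r4 E3 E4⟩
  · exact ⟨a, b, d, c, hz.swap34, h.anti_end538 hz.swap34 h1 hT1 A1 C1' r1 r3 E1 E2,
      h.anti_end538 hz.swap12.swap34 h2 hT2 A2' C2' r2 r4 E3 E4⟩

/-- the directions of the exact arcs at the two points -/
theorem Irr.full_germs538 (h : Irr U T) {z v₁ v₂ : ℂ} {a b c d : Fin 6}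
    (hz : DPt T z a b c d) (h1 : dist v₁ z = 1) (h2 : dist v₂ z = 1) (hT1 : T v₁ = T z)
    (hT2 : T v₂ = T z) (hne : v₁ ≠ v₂) :
    cr (v₁ - z) (v₂ - z) ≠ 0 ∧ ∃ τ : ℝ, (τ = 1 ∨ τ = -1) ∧
      (∀ᶠ t : ℝ in 𝓝[>] 0, T (hb z v₁ τ t) = {a, b}) ∧
      (∀ᶠ t : ℝ in 𝓝[>] 0, T (hb z v₁ (-τ) t) = {c, d}) ∧
      (∀ᶠ t : ℝ in 𝓝[>] 0, T (hb z v₂ (-τ) t) = {a, b}) ∧
      ∀ᶠ t : ℝ in 𝓝[>] 0, T (hb z v₂ τ t) = {c, d} := by
  have ha : a ∈ T z := by rw [hz.pal]; simp
  have hopp : v₁ + v₂ ≠ 2 * z := by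
    intro h4
    refine h.j_opp hz h1 hT1 ?_
    rw [show 2 * z - v₁ = v₂ by linear_combination -h4]
    exact hT2
  refine ⟨cr_ne_of h1 h2 hne hopp, ?_⟩
  obtain ⟨τ₁, k1, f1, l1⟩ := h.j_sides hz h1 hT1
  obtain ⟨τ₂, k2, f2, l2⟩ := h.j_sides hz h2 hT2
  have m12 := h.j_turn hz h1 h2 (by rw [hT1]; exact ha) (by rw [hT2]; exact ha) hne hopp k1 k2 l1 l2
  have e : τ₂ = -τ₁ := by
    rcases k1 with rfl | rfl <;> rcases k2 with rfl | rfl
    · norm_num at m12
    · rfl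
    · norm_num
    · norm_num at m12
  subst e
  rw [neg_neg] at l2
  exact ⟨τ₁, k1, f1, l1, f2, l2⟩

/-- **Two points of the palette of the two-pair point `z`**: at their antipodes one colour of each
pair is absent; the colour `d'` is absent at both, `a'` and `b'` at one each -/
theorem Irr.full_anti538 (h : Irr U T) {z v₁ v₂ : ℂ} {a b c d : Fin 6}
    (hz : DPt T z a b c d) (h1 : dist v₁ z = 1) (h2 : dist v₂ z = 1) (hT1 : T v₁ = T z)
    (hT2 : T v₂ = T z) (hne : v₁ ≠ v₂) :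
    ∃ a' b' c' d' : Fin 6, DPt T z a' b' c' d' ∧
      (a' ∉ Pal U (2 * z - v₁) ∧ d' ∉ Pal U (2 * z - v₁)) ∧
      b' ∉ Pal U (2 * z - v₂) ∧ d' ∉ Pal U (2 * z - v₂) := by
  obtain ⟨nD, τ, hτ, a1, c1, a2, c2⟩ := h.full_germs538 hz h1 h2 hT1 hT2 hne
  have hτ' : -τ = 1 ∨ -τ = -1 := by
    rcases hτ with rfl | rfl
    · right; rfl
    · left; norm_num
  have nτ : τ * cr (v₁ - z) (v₂ - z) ≠ 0 := by
    rcases hτ with rfl | rfl <;> simpa using nD
  rcases lt_or_gt_of_ne nτ with h3 | h3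
  · exact h.full_aux538 hz h1 h2 hT1 hT2 hτ a1 c1 a2 c2 h3
  · refine h.full_aux538 hz.swap h1 h2 hT1 hT2 hτ' c1 (by rwa [neg_neg]) (by rwa [neg_neg]) a2
      (by linarith)

/-- **off the two lines one of the two pairs is absent** -/
theorem Irr.full_split538 (h : Irr U T) {z v₁ v₂ y : ℂ} {a b c d : Fin 6}
    (hz : DPt T z a b c d) (h1 : dist v₁ z = 1) (h2 : dist v₂ z = 1) (hT1 : T v₁ = T z)
    (hT2 : T v₂ = T z) (hne : v₁ ≠ v₂) (hy : dist y z = 1) (n1 : y ≠ v₁) (n2 : y ≠ v₂)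
    (m1 : y ≠ 2 * z - v₁) (m2 : y ≠ 2 * z - v₂) :
    (a ∉ Pal U y ∧ b ∉ Pal U y) ∨ (c ∉ Pal U y ∧ d ∉ Pal U y) := by
  have k1 : cr (y - z) (v₁ - z) ≠ 0 := cr_ne_of hy h1 n1 fun h3 => m1 (by linear_combination h3)
  have k2 : cr (y - z) (v₂ - z) ≠ 0 := cr_ne_of hy h2 n2 fun h3 => m2 (by linear_combination h3)
  obtain ⟨nD, τ, hτ, a1, c1, a2, c2⟩ := h.full_germs538 hz h1 h2 hT1 hT2 hne
  have hτ' : -τ = 1 ∨ -τ = -1 := by
    rcases hτ with rfl | rfl
    · right; rfl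
    · left; norm_num
  have nτ : τ * cr (v₁ - z) (v₂ - z) ≠ 0 := by
    rcases hτ with rfl | rfl <;> simpa using nD
  rcases lt_or_gt_of_ne nτ with h3 | h3
  · have key := h.four_sectors538 hz h1 h2 hτ a1 c1 a2 c2 h3 hy k1 k2
    rcases lt_or_gt_of_ne (mul_ne_zero k1 k2) with h4 | h4
    · exact Or.inl (key.2 h4)
    · exact Or.inr (key.1 h4)
  · have key := h.four_sectors538 hz.swap h1 h2 hτ' c1 (by rwa [neg_neg]) (by rwa [neg_neg]) a2
      (by linarith) hy k1 k2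
    rcases lt_or_gt_of_ne (mul_ne_zero k1 k2) with h4 | h4
    · exact Or.inr (key.2 h4)
    · exact Or.inl (key.1 h4)

/-- **the other points of `S(z)` which meet both pairs are the antipodes of `v₁`, `v₂`** -/
theorem Irr.full_ee538 (h : Irr U T) {z v₁ v₂ y : ℂ} {a b c d : Fin 6}
    (hz : DPt T z a b c d) (h1 : dist v₁ z = 1) (h2 : dist v₂ z = 1) (hT1 : T v₁ = T z)
    (hT2 : T v₂ = T z) (hne : v₁ ≠ v₂) (hy : dist y z = 1)
    (hab : a ∈ Pal U y ∨ b ∈ Pal U y) (hcd : c ∈ Pal U y ∨ d ∈ Pal U y) :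
    y = v₁ ∨ y = v₂ ∨ y = 2 * z - v₁ ∨ y = 2 * z - v₂ := by
  by_contra hcon
  push Not at hcon
  rcases h.full_split538 hz h1 h2 hT1 hT2 hne hy hcon.1 hcon.2.1 hcon.2.2.1 hcon.2.2.2
    with ⟨h3, h4⟩ | ⟨h3, h4⟩
  · rcases hab with h5 | h5
    · exact h3 h5
    · exact h4 h5
  · rcases hcd with h5 | h5
    · exact h3 h5
    · exact h4 h5

/-- **no other neighbour has three colours of `z`** (no `K`-neighbour) -/
theorem Irr.full_card538 (h : Irr U T) {z v₁ v₂ y : ℂ} {a b c d : Fin 6}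
    (hz : DPt T z a b c d) (h1 : dist v₁ z = 1) (h2 : dist v₂ z = 1) (hT1 : T v₁ = T z)
    (hT2 : T v₂ = T z) (hne : v₁ ≠ v₂) (hy : dist y z = 1) (n1 : y ≠ v₁) (n2 : y ≠ v₂) :
    (T z ∩ Pal U y).ncard ≤ 2 := by
  have key : ∀ {a b c d : Fin 6}, T z = {a, b, c, d} → a ∉ Pal U y → b ∉ Pal U y →
      (T z ∩ Pal U y).ncard ≤ 2 := by
    intro a b c d hP h3 h4
    have h5 : T z ∩ Pal U y ⊆ {c, d} := by
      rintro i ⟨hi, hi'⟩
      rw [hP] at hi
      rcases hi with rfl | rfl | h6 | h6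
      · exact absurd hi' h3
      · exact absurd hi' h4
      · exact Or.inl h6
      · exact Or.inr h6
    refine (Set.ncard_le_ncard h5 (Set.toFinite _)).trans ?_
    have h6 := Set.ncard_insert_le c ({d} : Set (Fin 6))
    rw [Set.ncard_singleton] at h6
    exact h6
  obtain ⟨a', b', c', d', hD, ⟨p1, p2⟩, p3, p4⟩ := h.full_anti538 hz h1 h2 hT1 hT2 hne
  by_cases m1 : y = 2 * z - v₁
  · subst m1
    refine key (a := a') (b := d') (c := b') (d := c') ?_ p1 p2
    rw [hD.pal]; ext x; simp only [mem_insert_iff, mem_singleton_iff]; tauto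
  by_cases m2 : y = 2 * z - v₂
  · subst m2
    refine key (a := b') (b := d') (c := a') (d := c') ?_ p3 p4
    rw [hD.pal]; ext x; simp only [mem_insert_iff, mem_singleton_iff]; tauto
  rcases h.full_split538 hz h1 h2 hT1 hT2 hne hy n1 n2 m1 m2 with ⟨h3, h4⟩ | ⟨h3, h4⟩
  · exact key hz.pal h3 h4
  · exact key hz.swap.pal h3 h4

/-- a full point (`H169/Full`) has two points of its palette on its circle -/
theorem Full.two538 {z : ℂ} (hF : Full T z) : ∃ (a b c d : Fin 6) (v₁ v₂ : ℂ), DPt T z a b c d ∧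
    v₁ ≠ v₂ ∧ dist v₁ z = 1 ∧ dist v₂ z = 1 ∧ T v₁ = T z ∧ T v₂ = T z := by
  obtain ⟨a, b, c, d, α, β, hD, hne, hle, hα, hβ, -⟩ := hF
  refine ⟨a, b, c, d, z + cis α, z + cis β, hD, ?_, dist_add_cis z α, dist_add_cis z β, hα, hβ⟩
  intro h0
  have h1 : cis α = cis β := add_left_cancel h0
  have h2 : cis (β - α) = 1 := by
    have h3 : cis β = cis (β - α) * cis α := by rw [← cis_add169, sub_add_cancel]
    rw [← h1] at h3
    have h4 : cis α ≠ 0 := by
      intro h5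
      have := norm_cis α
      rw [h5, norm_zero] at this
      norm_num at this
    field_simp at h3
    exact h3.symm
  exact cis_ne_one492 (abs_pos.2 (sub_ne_zero.2 hne)) (by linarith [Real.pi_pos]) h2

end Vale.Agent.P032.Six
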