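import Vale.Agent.P032.H273.A5

/-!
# P032: passages through the label `0`

A family `Q` of labels `0, 1, 2` on an interval (`IntCov`), at the time `r` the labels `1, 2`.
If all passages `1 - 0 - 2` contain one direction then

* `two_pass538` : not both `r - 2` and `r + 2` are in the interval;
* `far_pass538` : if `r - 4` is in the closed interval then `0` is a label on an interval
  arbitrarily close to `r - 2` or to `r - 4`.
-/

open Set Filter Topology

noncomputable section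

namespace Vale.Agent.P032.H538

open Vale.Agent.P032.H180 Vale.Agent.P032.H564 Vale.Agent.P032.H273

variable {Q : ℝ → Set (Fin 3)} {a b : ℝ} {M : ℝ → ℤ} {u v : ℝ} {N : ℤ} {φ r : ℝ}

theorem lab0_538 (H : IntHt Q M u v N) {t : ℝ} (ht : t ∈ Icc u v) (hm : M t % 6 = 0) :
    Q t = {0} := by
  ext l
  rw [H.mem t ht l]
  fin_cases l <;> simp [Res] <;> omega

theorem lab01_538 (H : IntHt Q M u v N) {t : ℝ} (ht : t ∈ Icc u v) (hm : M t % 6 = 1) :
    Q t = {0, 1} := by
  ext l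
  rw [H.mem t ht l]
  fin_cases l <;> simp [Res] <;> omega

theorem lab02_538 (H : IntHt Q M u v N) {t : ℝ} (ht : t ∈ Icc u v) (hm : M t % 6 = 5) :
    Q t = {0, 2} := by
  ext l
  rw [H.mem t ht l]
  fin_cases l <;> simp [Res] <;> omega

/-- `φ` lies on every passage `1 - 0 - 2` (either order) -/
def AllPass0 (Q : ℝ → Set (Fin 3)) (a b φ : ℝ) : Prop :=
  ∀ t1 t2, a < t1 → t1 < t2 → t2 < b → (∀ t ∈ Ioo t1 t2, Q t = {0}) →
    (Q t1 = {0, 1} ∧ Q t2 = {0, 2} ∨ Q t1 = {0, 2} ∧ Q t2 = {0, 1}) → φ ∈ Icc t1 t2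

/-- on the passage with centre `c` the height at `φ` is within `1` of `c` -/
theorem pass0_mem (h : IntCov Q a b) (H : IntHt Q M u v N) (hu : a < u) (hv : v < b)
    (hp : AllPass0 Q a b φ) {c : ℤ} (hc : c % 6 = 0) {p q : ℝ} (hpI : p ∈ Icc u v)
    (hqI : q ∈ Icc u v) (hpq : p ≤ q)
    (h12 : (M p ≤ c - 1 ∧ c + 1 ≤ M q) ∨ (c + 1 ≤ M p ∧ M q ≤ c - 1)) :
    c - 1 ≤ M φ ∧ M φ ≤ c + 1 := by
  rcases h12 with ⟨h1, h2⟩ | ⟨h1, h2⟩
  · obtain ⟨t1, t2, hlt, i1, i2, e1, e2, hm⟩ := pass_up h H hu hv (by omega) hpI hqI hpq h1 h2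
    have hδ := hp t1 t2 (by linarith [i1.1]) hlt (by linarith [i2.2])
      (fun t ht => lab0_538 H ⟨by linarith [ht.1, i1.1], by linarith [ht.2, i2.2]⟩
        (by rw [hm t ht]; exact hc))
      (Or.inr ⟨lab02_538 H i1 (by omega), lab01_538 H i2 (by omega)⟩)
    rcases eq_or_lt_of_le hδ.1 with he | hl
    · rw [← he]; omega
    rcases eq_or_lt_of_le hδ.2 with he | hl'
    · rw [he]; omega
    rw [hm φ ⟨hl, hl'⟩]; omega
  · obtain ⟨t1, t2, hlt, i1, i2, e1, e2, hm⟩ := pass_down h H hu hv (by omega) hpI hqI hpq h1 h2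
    have hδ := hp t1 t2 (by linarith [i1.1]) hlt (by linarith [i2.2])
      (fun t ht => lab0_538 H ⟨by linarith [ht.1, i1.1], by linarith [ht.2, i2.2]⟩
        (by rw [hm t ht]; exact hc))
      (Or.inl ⟨lab01_538 H i1 (by omega), lab02_538 H i2 (by omega)⟩)
    rcases eq_or_lt_of_le hδ.1 with he | hl
    · rw [← he]; omega
    rcases eq_or_lt_of_le hδ.2 with he | hl'
    · rw [he]; omega
    rw [hm φ ⟨hl, hl'⟩]; omega

/-- the height at a time with the labels `1`, `2` -/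
theorem mod3_538 (H : IntHt Q M u v N) {t : ℝ} (ht : t ∈ Icc u v) (h1 : 1 ∈ Q t) (h2 : 2 ∈ Q t) :
    M t % 6 = 3 := by
  have k1 := (H.mem t ht 1).1 h1
  have k2 := (H.mem t ht 2).1 h2
  simp only [Res, Fin.val_one, Fin.val_two, Nat.cast_one, Nat.cast_ofNat] at k1 k2
  omega

/-- the height at a time without the label `0` -/
theorem mod_n0_538 (H : IntHt Q M u v N) {t : ℝ} (ht : t ∈ Icc u v) (h0 : 0 ∉ Q t) :
    M t % 6 = 2 ∨ M t % 6 = 3 ∨ M t % 6 = 4 := by
  have k0 : ¬ Res (M t - 2 * ((0 : Fin 3) : ℕ)) := fun hc => h0 ((H.mem t ht 0).2 hc)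
  simp only [Res, Fin.val_zero, Nat.cast_zero] at k0
  omega

theorem two_pass538 (h : IntCov Q a b) (hp : AllPass0 Q a b φ) (h1 : 1 ∈ Q r) (h2 : 2 ∈ Q r)
    (ha : a < r - 2) (hb : r + 2 < b) : False := by
  obtain ⟨M, N, H⟩ := h.exHt (u := r - 2) (v := r + 2) ha (by linarith) hb
  have i0 : r ∈ Icc (r - 2) (r + 2) := ⟨by linarith, by linarith⟩
  have i1 : r - 2 ∈ Icc (r - 2) (r + 2) := ⟨le_rfl, by linarith⟩
  have i2 : r + 2 ∈ Icc (r - 2) (r + 2) := ⟨by linarith, le_rfl⟩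
  have e0 := mod3_538 H i0 h1 h2
  have s1 := H.step (r - 2) le_rfl (by linarith)
  have s2 := H.step (r - 1) (by linarith) (by linarith)
  have s3 := H.step r (by linarith) (by linarith)
  have s4 := H.step (r + 1) (by linarith) (by linarith)
  rw [show r - 2 + 1 = r - 1 by ring] at s1
  rw [show r - 1 + 1 = r by ring] at s2
  rw [show r + 1 + 1 = r + 2 by ring] at s4
  rcases lt_or_ge N 0 with hN | hN
  · have p1 := pass0_mem h H ha hb hp (c := M r + 3) (by omega) i1 i0 (by linarith)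
      (Or.inr ⟨by omega, by omega⟩)
    have p2 := pass0_mem h H ha hb hp (c := M r - 3) (by omega) i0 i2 (by linarith)
      (Or.inr ⟨by omega, by omega⟩)
    omega
  · have p1 := pass0_mem h H ha hb hp (c := M r - 3) (by omega) i1 i0 (by linarith)
      (Or.inl ⟨by omega, by omega⟩)
    have p2 := pass0_mem h H ha hb hp (c := M r + 3) (by omega) i0 i2 (by linarith)
      (Or.inl ⟨by omega, by omega⟩)
    omega

/-- a passage just after `r` -/
theorem one_pass538 (h : IntCov Q a b) (h1 : 1 ∈ Q r) (h2 : 2 ∈ Q r) (ha : a < r)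
    (hb : r + 2 < b) : ∃ t1 t2, r ≤ t1 ∧ t1 < t2 ∧ t2 ≤ r + 2 ∧ (∀ t ∈ Ioo t1 t2, Q t = {0}) ∧
      (Q t1 = {0, 1} ∧ Q t2 = {0, 2} ∨ Q t1 = {0, 2} ∧ Q t2 = {0, 1}) := by
  obtain ⟨M, N, H⟩ := h.exHt (u := r) (v := r + 2) ha (by linarith) hb
  have i0 : r ∈ Icc r (r + 2) := ⟨le_rfl, by linarith⟩
  have i2 : r + 2 ∈ Icc r (r + 2) := ⟨by linarith, le_rfl⟩
  have e0 := mod3_538 H i0 h1 h2
  have s3 := H.step r (by linarith) (by linarith)
  have s4 := H.step (r + 1) (by linarith) (by linarith)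
  rw [show r + 1 + 1 = r + 2 by ring] at s4
  rcases lt_or_ge N 0 with hN | hN
  · obtain ⟨t1, t2, hlt, i1, i2, e1, e2, hm⟩ := pass_down h H ha hb (c := M r - 3) (by omega) i0 i2
      (by linarith) (by omega) (by omega)
    exact ⟨t1, t2, i1.1, hlt, i2.2,
      fun t ht => lab0_538 H ⟨by linarith [ht.1, i1.1], by linarith [ht.2, i2.2]⟩
        (by rw [hm t ht]; omega), Or.inl ⟨lab01_538 H i1 (by omega), lab02_538 H i2 (by omega)⟩⟩
  · obtain ⟨t1, t2, hlt, i1, i2, e1, e2, hm⟩ := pass_up h H ha hb (c := M r + 3) (by omega) i0 i2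
      (by linarith) (by omega) (by omega)
    exact ⟨t1, t2, i1.1, hlt, i2.2,
      fun t ht => lab0_538 H ⟨by linarith [ht.1, i1.1], by linarith [ht.2, i2.2]⟩
        (by rw [hm t ht]; omega), Or.inr ⟨lab02_538 H i1 (by omega), lab01_538 H i2 (by omega)⟩⟩

/-- a passage just before `r` -/
theorem one_pass538' (h : IntCov Q a b) (h1 : 1 ∈ Q r) (h2 : 2 ∈ Q r) (ha : a < r - 2)
    (hb : r < b) : ∃ t1 t2, r - 2 ≤ t1 ∧ t1 < t2 ∧ t2 ≤ r ∧ (∀ t ∈ Ioo t1 t2, Q t = {0}) ∧
      (Q t1 = {0, 1} ∧ Q t2 = {0, 2} ∨ Q t1 = {0, 2} ∧ Q t2 = {0, 1}) := by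
  obtain ⟨M, N, H⟩ := h.exHt (u := r - 2) (v := r) ha (by linarith) hb
  have i0 : r ∈ Icc (r - 2) r := ⟨by linarith, le_rfl⟩
  have i2 : r - 2 ∈ Icc (r - 2) r := ⟨le_rfl, by linarith⟩
  have e0 := mod3_538 H i0 h1 h2
  have s3 := H.step (r - 2) (by linarith) (by linarith)
  have s4 := H.step (r - 1) (by linarith) (by linarith)
  rw [show r - 2 + 1 = r - 1 by ring] at s3
  rw [show r - 1 + 1 = r by ring] at s4
  rcases lt_or_ge N 0 with hN | hN
  · obtain ⟨t1, t2, hlt, i1, i2, e1, e2, hm⟩ := pass_down h H ha hb (c := M r + 3) (by omega) i2 i0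
      (by linarith) (by omega) (by omega)
    exact ⟨t1, t2, i1.1, hlt, i2.2,
      fun t ht => lab0_538 H ⟨by linarith [ht.1, i1.1], by linarith [ht.2, i2.2]⟩
        (by rw [hm t ht]; omega), Or.inl ⟨lab01_538 H i1 (by omega), lab02_538 H i2 (by omega)⟩⟩
  · obtain ⟨t1, t2, hlt, i1, i2, e1, e2, hm⟩ := pass_up h H ha hb (c := M r - 3) (by omega) i2 i0
      (by linarith) (by omega) (by omega)
    exact ⟨t1, t2, i1.1, hlt, i2.2,
      fun t ht => lab0_538 H ⟨by linarith [ht.1, i1.1], by linarith [ht.2, i2.2]⟩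
        (by rw [hm t ht]; omega), Or.inr ⟨lab02_538 H i1 (by omega), lab01_538 H i2 (by omega)⟩⟩

/-- near `r` the label `0` is not there on an interval -/
def NR538 (Q : ℝ → Set (Fin 3)) (r : ℝ) : Prop := ∀ᶠ t in 𝓝 r, ¬ ∀ᶠ s in 𝓝 t, 0 ∈ Q s

/-- where the height is `0` modulo `6` the label `0` is there on an interval -/
theorem loc0_538 (h : IntCov Q a b) (H : IntHt Q M u v N) (hu : a < u) (hv : v < b) {t : ℝ}
    (h1 : u < t) (h2 : t < v) (hm : M t % 6 = 0) : ∀ᶠ s in 𝓝 t, 0 ∈ Q s := by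
  have k1 := even_loc h H hu hv (t := t) ⟨h1.le, h2.le⟩ (by omega)
  rw [nhdsWithin_eq_nhds.2 (Icc_mem_nhds h1 h2)] at k1
  filter_upwards [k1, Icc_mem_nhds h1 h2] with s hs hsI
  rw [lab0_538 H hsI (by rw [hs]; exact hm)]
  rfl

/-- the height on an interval with labels in `{1, 2}` -/
theorem near3_538 (H : IntHt Q M u v N) {r s : ℝ} (hrs : r ≤ s) (hr : u ≤ r) (hs : s ≤ v)
    (h0 : ∀ t ∈ Icc r s, 0 ∉ Q t) (e : M r % 6 = 3) : |M s - M r| ≤ 1 := by
  have hc := const_of_loc (a := r) (b := s) (f := fun t => M t / 6) fun t ht => by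
    have hI : t ∈ Icc u v := ⟨by linarith [ht.1], by linarith [ht.2]⟩
    have k := nhdsWithin_mono t (Icc_subset_Icc hr hs) (H.loc t hI)
    filter_upwards [k, self_mem_nhdsWithin] with x hx hxI
    have hxI' : x ∈ Icc r s := hxI
    have m1 := mod_n0_538 H (t := x) ⟨by linarith [hxI'.1], by linarith [hxI'.2]⟩ (h0 x hxI')
    have m2 := mod_n0_538 H hI (h0 t ht)
    rw [abs_le] at hx
    omega
  have h1 := hc s ⟨hrs, le_rfl⟩ r ⟨le_rfl, hrs⟩
  have m1 := mod_n0_538 H (t := s) ⟨by linarith, hs⟩ (h0 s ⟨hrs, le_rfl⟩)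
  rw [abs_le]
  omega

theorem far_pass538 (h : IntCov Q a b) (hp : AllPass0 Q a b φ) (h0 : 0 ∉ Q r) (h1 : 1 ∈ Q r)
    (h2 : 2 ∈ Q r) (ha : a ≤ r - 4) (hb : r < b) (n2 : NR538 Q (r - 2)) (n4 : NR538 Q (r - 4)) :
    False := by
  -- the time `s` just after `r - 2`
  have hr0 : ∀ᶠ t in 𝓝 r, 0 ∉ Q t := by
    filter_upwards [h.usc r ⟨by linarith, hb⟩] with t ht hc
    exact h0 (ht hc)
  obtain ⟨δ, hδ, hball⟩ := Metric.eventually_nhds_iff.1 hr0
  have t2 : Tendsto (fun s : ℝ => s - 2) (𝓝 (r - 2)) (𝓝 (r - 4)) := by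
    have : Continuous fun s : ℝ => s - 2 := by fun_prop
    have h3 := this.tendsto (r - 2)
    rwa [show r - 2 - 2 = r - 4 by ring] at h3
  have n4' : ∀ᶠ s in 𝓝 (r - 2), ¬ ∀ᶠ x in 𝓝 (s - 2), 0 ∈ Q x := t2.eventually n4
  obtain ⟨ε, hε, hb2⟩ := Metric.eventually_nhds_iff.1 (n2.and n4')
  obtain ⟨η, hη, e1, e2, e3, e4⟩ : ∃ η : ℝ, 0 < η ∧ η < ε ∧ η < δ ∧ η < 1 ∧ η < b - r :=
    ⟨min (min ε δ) (min 1 (b - r)) / 2, by
        have : 0 < min (min ε δ) (min 1 (b - r)) :=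
          lt_min (lt_min hε hδ) (lt_min one_pos (by linarith))
        linarith, by
        have h4 : min (min ε δ) (min 1 (b - r)) ≤ ε := (min_le_left _ _).trans (min_le_left _ _)
        linarith, by
        have h4 : min (min ε δ) (min 1 (b - r)) ≤ δ := (min_le_left _ _).trans (min_le_right _ _)
        linarith, by
        have h4 : min (min ε δ) (min 1 (b - r)) ≤ 1 := (min_le_right _ _).trans (min_le_left _ _)
        linarith, by
        have h4 : min (min ε δ) (min 1 (b - r)) ≤ b - r :=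
          (min_le_right _ _).trans (min_le_right _ _)
        linarith⟩
  have hmid := (hb2 (y := r - 2 + η / 2) (by
    rw [Real.dist_eq, show r - 2 + η / 2 - (r - 2) = η / 2 by ring, abs_of_pos (by linarith)]
    linarith)).1
  rw [not_eventually] at hmid
  obtain ⟨s, hs0, hs1⟩ := (hmid.and_eventually (Ioo_mem_nhds
    (show r - 2 < r - 2 + η / 2 by linarith) (show r - 2 + η / 2 < r - 2 + η by linarith))).exists
  have hs1 : r - 2 < s ∧ s < r - 2 + η := hs1
  have hs4 := (hb2 (y := s) (by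
    rw [Real.dist_eq, abs_of_pos (by linarith)]
    linarith)).2
  obtain ⟨u, hu1, hu2⟩ := exists_between (show a < s - 2 by linarith)
  obtain ⟨v, hv1, hv2⟩ := exists_between (show s + 2 < b by linarith)
  obtain ⟨M, N, H⟩ := h.exHt hu1 (by linarith) hv2
  have ir : r ∈ Icc u v := ⟨by linarith, by linarith⟩
  have is : s ∈ Icc u v := ⟨by linarith, by linarith⟩
  have i2 : s - 2 ∈ Icc u v := ⟨by linarith, by linarith⟩
  have m0 := mod3_538 H ir h1 h2
  have ms := mod_n0_538 H is hs0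
  have m2 : M (s - 2) % 6 ≠ 0 := fun hm => hs4 (loc0_538 h H hu1 hv2 hu2 (by linarith) hm)
  have k1 := near3_538 H (r := r) (s := s + 2) (by linarith) (by linarith) (by linarith)
    (fun t ht => hball (by
      rw [Real.dist_eq, abs_of_nonneg (by linarith [ht.1])]
      linarith [ht.2])) m0
  rw [abs_le] at k1
  have s1 := H.step (s - 2) (by linarith) (by linarith)
  have s2 := H.step (s - 1) (by linarith) (by linarith)
  have s3 := H.step s (by linarith) (by linarith)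
  have s4 := H.step (s + 1) (by linarith) (by linarith)
  rw [show s - 2 + 1 = s - 1 by ring] at s1
  rw [show s - 1 + 1 = s by ring] at s2
  rw [show s + 1 + 1 = s + 2 by ring] at s4
  rcases lt_or_ge N 0 with hN | hN
  · have p1 := pass0_mem h H hu1 hv2 hp (c := M r + 3) (by omega) is ir (by linarith)
      (Or.inr ⟨by omega, by omega⟩)
    have p2 := pass0_mem h H hu1 hv2 hp (c := M r + 9) (by omega) i2 ir (by linarith)
      (Or.inr ⟨by omega, by omega⟩)
    omega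
  · have p1 := pass0_mem h H hu1 hv2 hp (c := M r - 3) (by omega) is ir (by linarith)
      (Or.inl ⟨by omega, by omega⟩)
    have p2 := pass0_mem h H hu1 hv2 hp (c := M r - 9) (by omega) i2 ir (by linarith)
      (Or.inl ⟨by omega, by omega⟩)
    omega

/-- **heights** : an interval of length six -/
theorem ht_false538 (h : IntCov Q a b) (hab : b = a + 6) (hp : AllPass0 Q a b φ) (h0 : 0 ∉ Q r)
    (h1 : 1 ∈ Q r) (h2 : 2 ∈ Q r) (hr : r ∈ Ioo a b) (n1 : NR538 Q (r - 2))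
    (n2 : NR538 Q (r + 2)) (n3 : NR538 Q (r - 4)) (n4 : NR538 Q (r + 4)) : False := by
  rcases lt_or_ge (r - 4) a with k1 | k1
  swap
  · exact far_pass538 h hp h0 h1 h2 k1 hr.2 n1 n3
  rcases lt_or_ge b (r + 4) with k2 | k2
  · exact two_pass538 h hp h1 h2 (by linarith) (by linarith)
  have neg : ∀ x y : ℝ, y = -x → NR538 Q x → NR538 (fun t => Q (-t)) y := by
    rintro x y rfl hx
    have t1 : Tendsto (fun s : ℝ => -s) (𝓝 (-x)) (𝓝 x) := by
      simpa using continuous_neg.tendsto (-x)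
    filter_upwards [t1.eventually hx] with t ht hc
    refine ht ?_
    have t2 : Tendsto (fun s : ℝ => -s) (𝓝 (-t)) (𝓝 t) := by
      simpa using continuous_neg.tendsto (-t)
    filter_upwards [t2.eventually hc] with s hs
    rwa [neg_neg] at hs
  refine far_pass538 h.mirror (φ := -φ) (r := -r) ?_ ?_ ?_ ?_ (by linarith) (by linarith [hr.1])
    (neg (r + 2) _ (by ring) n2) (neg (r + 4) _ (by ring) n4)
  · intro t1 t2 i1 i2 i3 hm he
    have := hp (-t2) (-t1) (by linarith) (by linarith) (by linarith)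
      (fun t ht => by
        have := hm (-t) ⟨by linarith [ht.2], by linarith [ht.1]⟩
        simpa using this)
      (by
        rcases he with ⟨e1, e2⟩ | ⟨e1, e2⟩
        · exact Or.inr ⟨e2, e1⟩
        · exact Or.inl ⟨e2, e1⟩)
    exact ⟨by linarith [this.2], by linarith [this.1]⟩
  · simpa using h0
  · simpa using h1
  · simpa using h2

end Vale.Agent.P032.H538
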