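import Vale.Agent.P032.H538.H3
import Vale.Agent.P032.H594.HarmA
import Vale.Agent.P032.H862.HarmS

/-!
# P032: row `RowHarm98` from the two outputs of the list theorem

`ExcE538`, `ExcK538` : the two outputs of the list theorem (a plain apex with both free colours; a plain
apex outside the closed pair arcs); `rowHarm538 : ExcE538 → ExcK538 → RowHarm98`.
-/

open Set Filter Topology Metric

noncomputable section

namespace Vale.Agent.P032.H538

open Vale.Agent.P032.Six Vale.Agent.P032.S5.H767 Vale.Agent.P032.H383 Vale.Agent.P032.H800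
open Vale.Agent.P032.H98 Vale.Agent.P032.H862

variable {U : Fin 6 → Set ℂ} {T : ℂ → Set (Fin 6)} {V y : ℂ} {a b c d e f : Fin 6}
  {A : Set (Fin 6)}

/-- output (E) of the list theorem -/
def ExcE538 : Prop := ∀ (U : Fin 6 → Set ℂ) (T : ℂ → Set (Fin 6)), XC U T →
  ∀ V a b c d e f, Md98 T V a b c d e f → ∀ y, dist y V = 1 → 4 ≤ (T y).ncard →
    y ∉ closure (Ex T V {a, b}) → y ∉ closure (Ex T V {c, d}) →
    ∃ p, dist p V = 1 ∧ dist p y = 1 ∧ (T p).ncard ≤ 3 ∧ e ∈ T p ∧ f ∈ T p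

/-- output (K) of the list theorem -/
def ExcK538 : Prop := ∀ (U : Fin 6 → Set ℂ) (T : ℂ → Set (Fin 6)), XC U T →
  ∀ V a b c d e f, Md98 T V a b c d e f → ∀ y, dist y V = 1 → 4 ≤ (T y).ncard →
    y ∉ closure (Ex T V {c, d}) →
    ∃ p, dist p V = 1 ∧ dist p y = 1 ∧ (T p).ncard ≤ 3 ∧ p ∉ closure (Ex T V {c, d})

theorem notCl538 (h : Irr U T) {P : Set (Fin 6)} {i : Fin 6} (hi : i ∈ P) (hiy : i ∉ T y) :
    y ∉ closure (Ex T V P) := fun hcl => hiy (sub_of_closure h hcl hi)

/-- the palette `{a, b, e, f}` -/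
theorem harm2_538 (hK : ExcK538) (X : XC U T) (M : Md98 T V a b c d e f) (hy : dist y V = 1)
    (hH : Six.Harm T y A) (hT : T y = {a, b, e, f}) : False := by
  have hn := M.nd
  simp only [List.nodup_cons, List.mem_cons, List.not_mem_nil, or_false, not_or, List.nodup_nil,
    and_true, not_false_eq_true] at hn
  obtain ⟨⟨ab, ac, ad, ae, af⟩, ⟨bc, bd, be, bf⟩, ⟨cd, ce, cf⟩, ⟨de, df⟩, ef⟩ := hn
  by_cases he : e ∈ A
  · exact harmT862 X M hy hH hT he
  · refine harmT2_862 X M hy hH hT he (hK U T X V a b c d e f M y hy hH.card.ge ?_)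
    refine notCl538 X.df.irr (i := c) (Or.inl rfl) ?_
    rw [hT]
    simp only [mem_insert_iff, mem_singleton_iff, not_or]
    exact ⟨Ne.symm ac, Ne.symm bc, ce, cf⟩

/-- the palette `{a, c, e, f}` -/
theorem harm4_538 (hE : ExcE538) (X : XC U T) (M : Md98 T V a b c d e f) (hy : dist y V = 1)
    (hH : Six.Harm T y A) (hT : T y = {a, c, e, f}) : False := by
  have hn := M.nd
  simp only [List.nodup_cons, List.mem_cons, List.not_mem_nil, or_false, not_or, List.nodup_nil,
    and_true, not_false_eq_true] at hn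
  obtain ⟨⟨ab, ac, ad, ae, af⟩, ⟨bc, bd, be, bf⟩, ⟨cd, ce, cf⟩, ⟨de, df⟩, ef⟩ := hn
  by_cases hA : A = {e, f}
  · subst hA
    obtain ⟨y2, h2⟩ := n3_two862 X.n3 M.dpt.ncard.ge hy hH.card.ge
    obtain ⟨y1, h1⟩ := n3_two862 X.n3 hH.card.ge (by rw [dist_comm]; exact hy) M.dpt.ncard.ge
    exact h3_all538 X.df.irr M.dpt M.nd hy hH hT h2 h1
  · refine harmE862 X M hy hH hA (by rw [hT]; simp) (by rw [hT]; simp)
      (hE U T X V a b c d e f M y hy hH.card.ge ?_ ?_)
    · refine notCl538 X.df.irr (i := b) (Or.inr rfl) ?_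
      rw [hT]
      simp only [mem_insert_iff, mem_singleton_iff, not_or]
      exact ⟨Ne.symm ab, bc, be, bf⟩
    · refine notCl538 X.df.irr (i := d) (Or.inr rfl) ?_
      rw [hT]
      simp only [mem_insert_iff, mem_singleton_iff, not_or]
      exact ⟨Ne.symm ad, Ne.symm cd, de, df⟩

/-- **row `RowHarm98`** -/
theorem rowHarm538 (hE : ExcE538) (hK : ExcK538) : RowHarm98 := by
  intro U T X V a b c d e f M y hy A hH
  rcases H594.harm_cases594 X M hy hH with (h1 | h1) | (h1 | h1) | (h1 | h1)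
  · exact harm2_538 hK X M hy hH h1
  · exact harm2_538 hK X M.swap hy hH h1
  · exact harm4_538 hE X M hy hH h1
  · exact harm4_538 hE X M.swap34 hy hH h1
  · exact harm4_538 hE X M.swap12 hy hH h1
  · exact harm4_538 hE X M.swap12.swap34 hy hH h1

end Vale.Agent.P032.H538
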