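import Vale.Agent.P032.S5.H180.HexZ

/-!
# P032: the class law of the hexagon with one exceptional pair

`HexW Q r` : the data of `HexZ` (periodic letters `Q t`, at a full time the apex `r t`) without the
sixty degree rule.  `HexW.one_exc` : if the sixty degree rule holds at all times except `t₀` (mod 6),
it cannot be violated at `t₀` by a swap (`o g` before, `g o` after).
-/

open Set Filter Topology

noncomputable section

namespace Vale.Agent.P032.H538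

open Vale.Agent.P032.H180

/-- the letters on a circle, full times allowed -/
structure HexW (Q : ℝ → Set (Fin 3)) (r : ℝ → Fin 3) : Prop where
  per : ∀ t, Q (t + 6) = Q t
  rper : ∀ t, r (t + 6) = r t
  ne : ∀ t, (Q t).Nonempty
  usc : ∀ t, ∀ᶠ s in 𝓝 t, Q s ⊆ Q t
  lay : ∀ t, Q t = univ → ∀ᶠ s in 𝓝 t, (Q s = univ ∧ r s = r t) ∨
    (Q s ≠ univ ∧ ∀ i ∈ Q s, ∀ j ∈ Q s, i = r t ∨ j = r t ∨ i = j)

variable {Q : ℝ → Set (Fin 3)} {r : ℝ → Fin 3}

theorem HexW.coc (_h : HexW Q r) {t : ℝ} {i j l : Fin 3} (hi : i ∈ Q t) (hj : j ∈ Q t)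
    (hl : l ∈ Q t) : phz Q r t i j + phz Q r t j l = phz Q r t i l := by
  unfold phz
  split_ifs with h1
  · ring
  · exact dz_coc _ _ _ fun h2 => h1 (univ_of_three hi hj hl h2)

theorem HexW.floc (h : HexW Q r) (t : ℝ) : ∀ᶠ s in 𝓝 t, Q s ⊆ Q t ∧
    ∀ i ∈ Q s, ∀ j ∈ Q s, phz Q r s i j = phz Q r t i j := by
  by_cases ht : Q t = univ
  · filter_upwards [h.usc t, h.lay t ht] with s h1 h2
    refine ⟨h1, fun i hi j hj => ?_⟩
    rcases h2 with ⟨h2, h3⟩ | ⟨h2, h3⟩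
    · unfold phz
      rw [if_pos h2, if_pos ht, h3]
    · rw [phz_tree (h3 i hi j hj)]
      unfold phz
      rw [if_neg h2]
  · filter_upwards [h.usc t] with s h1
    refine ⟨h1, fun i hi j hj => ?_⟩
    have h2 : Q s ≠ univ := fun h2 => ht (Set.univ_subset_iff.1 (h2 ▸ h1))
    unfold phz
    rw [if_neg h2, if_neg ht]

theorem HexW.tor (h : HexW Q r) (B : Set ℝ) : Tor B Q (phz Q r) :=
  ⟨fun t _ => h.ne t, fun _ _ _ hi _ hj _ hl => h.coc hi hj hl,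
    fun t _ => mem_nhdsWithin_of_mem_nhds (h.floc t)⟩

/-- the integer lift -/
theorem HexW.lift (h : HexW Q r) : ∃ ℓ : ℝ → Fin 3 → ℤ,
    Sec (Icc (0 : ℝ) 12) Q (phz Q r) ℓ ∧
      ∀ t ∈ Icc (0 : ℝ) 12, ∀ i ∈ Q t, (3 : ℤ) ∣ ℓ t i - (i : ℕ) := by
  obtain ⟨ℓ, hℓ⟩ := interval (by norm_num) (h.tor (Icc (0 : ℝ) 12))
  have h3 : Sec (Icc (0 : ℝ) 12) Q (fun t i j => ((phz Q r t i j : ℤ) : ZMod 3))
      fun t i => (ℓ t i : ZMod 3) := by
    refine ⟨fun t ht i hi j hj => ?_, fun t ht => ?_⟩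
    · rw [hℓ.diff t ht i hi j hj]; push_cast; rfl
    · filter_upwards [hℓ.loc t ht] with s hs i hi
      rw [hs i hi]
  have h3' : Sec (Icc (0 : ℝ) 12) Q (fun t i j => ((phz Q r t i j : ℤ) : ZMod 3))
      fun _ i => ((i : ℕ) : ZMod 3) :=
    ⟨fun t _ i _ j _ => phz_cast t i j, fun _ _ => Eventually.of_forall fun _ _ _ => rfl⟩
  have ht3 : Tor (Icc (0 : ℝ) 12) Q (fun t i j => ((phz Q r t i j : ℤ) : ZMod 3)) := by
    have h0 := h.tor (Icc (0 : ℝ) 12)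
    refine ⟨h0.ne, fun t ht i hi j hj l hl => ?_, fun t ht => ?_⟩
    · rw [← h0.coc t ht i hi j hj l hl]
      push_cast
      rfl
    · filter_upwards [h0.loc t ht] with s hs
      refine ⟨hs.1, fun i hi j hj => ?_⟩
      rw [hs.2 i hi j hj]
  obtain ⟨c, hc⟩ := Sec.unique ht3 isPreconnected_Icc h3 h3'
  refine ⟨fun t i => ℓ t i + (-(c.val : ℤ)), hℓ.add _, fun t ht i hi => ?_⟩
  have h1 := hc t ht i hi
  have h2 : ((ℓ t i + (-(c.val : ℤ)) - ((i : ℕ) : ℤ) : ℤ) : ZMod 3) = 0 := by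
    push_cast
    rw [h1, ZMod.natCast_zmod_val]
    ring
  exact_mod_cast (ZMod.intCast_zmod_eq_zero_iff_dvd _ 3).1 h2

theorem HexW.pair (h : HexW Q r) (t : ℝ) : ∃ i j, i ∈ Qt Q r t ∧ j ∈ Qt Q r t ∧
    ∀ l ∈ Qt Q r t, l = i ∨ l = j := by
  by_cases ht : Q t = univ
  · rw [Qt_of_eq ht]
    exact ⟨r t, r t, rfl, rfl, fun l hl => Or.inl hl⟩
  · rw [Qt_of_ne ht]
    obtain ⟨i, hi⟩ := h.ne t
    by_cases hex : ∃ j ∈ Q t, j ≠ i
    · obtain ⟨j, hj, hji⟩ := hex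
      refine ⟨i, j, hi, hj, fun l hl => ?_⟩
      by_contra hcon
      push Not at hcon
      exact ht (univ_of_three hi hj hl ⟨hji.symm, hcon.2.symm, hcon.1.symm⟩)
    · push Not at hex
      exact ⟨i, i, hi, hi, fun l hl => Or.inl (hex l hl)⟩

theorem HexW.exM (h : HexW Q r) : ∃ (ℓ : ℝ → Fin 3 → ℤ) (M : ℝ → ℤ),
    Sec (Icc (0 : ℝ) 12) Q (phz Q r) ℓ ∧
      (∀ t ∈ Icc (0 : ℝ) 12, ∀ i ∈ Q t, (3 : ℤ) ∣ ℓ t i - (i : ℕ)) ∧
      (∀ t ∈ Icc (0 : ℝ) 12, ∀ l : Fin 3, l ∈ Qt Q r t ↔ Res (M t - 2 * (l : ℕ))) ∧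
      (∀ t ∈ Icc (0 : ℝ) 12, ∀ᶠ s in 𝓝[Icc (0 : ℝ) 12] t, Jmp Q r M s t) ∧
      ∀ t ∈ Icc (0 : ℝ) 12, ∀ i ∈ Qt Q r t, |M t - 2 * ℓ t i| ≤ 1 := by
  obtain ⟨ℓ, hℓ, hd⟩ := h.lift
  choose I J hI hJ hIJ using h.pair
  have hdz : ∀ t, phz Q r t (I t) (J t) = dz (I t) (J t) := by
    intro t
    by_cases ht : Q t = univ
    · exact phz_tree (Or.inl ((hI t).2 ht))
    · unfold phz
      rw [if_neg ht]
  refine ⟨ℓ, fun t => ℓ t (I t) + ℓ t (J t), hℓ, hd, fun t ht l => ?_, fun t ht => ?_,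
    fun t ht i hi => ?_⟩
  · have h1 := mem_iff_mod (hd t ht _ (hI t).1)
      ((hℓ.diff t ht _ (hI t).1 _ (hJ t).1).symm.trans (hdz t)) l
    unfold Res
    rw [← h1]
    exact ⟨hIJ t l, fun h2 => by rcases h2 with rfl | rfl; exacts [hI t, hJ t]⟩
  · by_cases htu : Q t = univ
    · have hIt := (hI t).2 htu
      have hJt := (hJ t).2 htu
      filter_upwards [hℓ.loc t ht, mem_nhdsWithin_of_mem_nhds (h.lay t htu), self_mem_nhdsWithin]
        with s hs hK hsB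
      have e1 := hs _ (hI s).1
      have e2 := hs _ (hJ s).1
      have hmem : ∀ l, l ∈ Q t := fun l => by rw [htu]; exact mem_univ l
      have e3 : ∀ l, ℓ t l - ℓ t (r t) = dz (r t) l := fun l => by
        rw [← hℓ.diff t ht (r t) (hmem _) l (hmem _), phz_tree (Or.inl rfl)]
      have e4 := e3 (I s)
      have e5 := e3 (J s)
      have a1 := abs_le.1 (abs_dz (r t) (I s))
      have a2 := abs_le.1 (abs_dz (r t) (J s))
      have hM : ℓ s (I s) + ℓ s (J s) - (ℓ t (I t) + ℓ t (J t)) =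
          dz (r t) (I s) + dz (r t) (J s) := by
        rw [e1, e2, hIt, hJt, ← e4, ← e5]; ring
      rcases hK with ⟨k1, k2⟩ | ⟨k1, k2⟩
      · have hIs := (hI s).2 k1
        have hJs := (hJ s).2 k1
        have hz : ℓ s (I s) + ℓ s (J s) - (ℓ t (I t) + ℓ t (J t)) = 0 := by
          rw [hM, hIs, hJs, k2]
          simp [dz]
        refine ⟨by simp only [hz]; norm_num, fun _ => by simp only [hz]; norm_num,
          fun h1 => ?_, fun h1 => ?_⟩
        · rw [hz] at h1; norm_num at h1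
        · rw [hz] at h1; norm_num at h1
      · have hone : ∀ m : Fin 3, I s = m → J s = m → Q s = {m} := by
          intro m h1 h2
          rw [← Qt_of_ne (Q := Q) (r := r) k1]
          ext l
          constructor
          · intro hl
            rcases hIJ s l hl with h3 | h3
            · exact h3.trans h1
            · exact h3.trans h2
          · rintro rfl
            exact h1 ▸ hI s
        refine ⟨?_, fun h1 => absurd htu h1, fun h1 => ?_, fun h1 => ?_⟩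
        · rw [hM, abs_le]
          constructor <;> linarith [a1.1, a1.2, a2.1, a2.2]
        · rw [hM] at h1
          exact hone _ (dz_one (by linarith [a1.2, a2.2])) (dz_one (by linarith [a1.2, a2.2]))
        · rw [hM] at h1
          exact hone _ (dz_neg (by linarith [a1.1, a2.1])) (dz_neg (by linarith [a1.1, a2.1]))
    · filter_upwards [hℓ.loc t ht, mem_nhdsWithin_of_mem_nhds (h.usc t), self_mem_nhdsWithin]
        with s hs hK hsB
      have e1 := hs _ (hI s).1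
      have e2 := hs _ (hJ s).1
      have e3 := hℓ.diff t ht _ (hI t).1 _ (hJ t).1
      rw [hdz] at e3
      have e4 := abs_dz (I t) (J t)
      have hKs : Q s ⊆ Q t := hK
      have hle : |ℓ s (I s) + ℓ s (J s) - (ℓ t (I t) + ℓ t (J t))| ≤ 1 := by
        rw [e1, e2]
        rw [abs_le] at e4 ⊢
        have q1 := hIJ t (I s) (by rw [Qt_of_ne htu]; exact hKs (hI s).1)
        have q2 := hIJ t (J s) (by rw [Qt_of_ne htu]; exact hKs (hJ s).1)
        rcases q1 with a | a <;> rcases q2 with b | b <;>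
          rw [a, b] <;> constructor <;> linarith [e4.1, e4.2]
      have hle' := abs_le.1 hle
      refine ⟨hle.trans (by norm_num), fun _ => hle, fun h1 => ?_, fun h1 => ?_⟩
      · linarith [hle'.2]
      · linarith [hle'.1]
  · have e3 := hℓ.diff t ht _ (hI t).1 _ (hJ t).1
    rw [hdz] at e3
    have e4 := abs_dz (I t) (J t)
    rw [abs_le] at e4 ⊢
    rcases hIJ t i hi with rfl | rfl <;> constructor <;> simp only <;> linarith [e4.1, e4.2]

theorem HexW.shift (h : HexW Q r) (c : ℝ) : HexW (fun t => Q (c + t)) (fun t => r (c + t)) := by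
  have hc : ∀ t, Tendsto (fun s : ℝ => c + s) (𝓝 t) (𝓝 (c + t)) := fun t => by
    have : Continuous fun s : ℝ => c + s := by fun_prop
    exact this.tendsto t
  exact ⟨fun t => by rw [← add_assoc]; exact h.per _, fun t => by rw [← add_assoc]; exact h.rper _,
    fun t => h.ne _, fun t => (hc t).eventually (h.usc (c + t)),
    fun t ht => (hc t).eventually (h.lay (c + t) ht)⟩

theorem of_HexZ (h : HexZ Q r) : HexW Q r := ⟨h.per, h.rper, h.ne, h.usc, h.lay⟩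

/-- the two sides of a swap have different classes -/
theorem swap_int {m0 m1 a0 a1 b0 b1 g o : ℤ} (hg : 0 ≤ g ∧ g ≤ 2) (ho : 0 ≤ o ∧ o ≤ 2)
    (hgo : g ≠ o) (hp0 : (a0 - 2 * g) % 6 = 0) (hp1 : (a1 - 2 * o) % 6 = 0)
    (hq0 : (b0 - 2 * o) % 6 = 0) (hq1 : (b1 - 2 * g) % 6 = 0)
    (h1 : |a0 - m0| ≤ 1) (h2 : |a1 - m1| ≤ 1) (h3 : |b0 - m0| ≤ 1) (h4 : |b1 - m1| ≤ 1) :
    (a1 - a0 - 2) / 6 ≠ (b1 - b0 - 2) / 6 := by
  rw [abs_le] at h1 h2 h3 h4
  omega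

theorem res_single {m : ℤ} {a : Fin 3} (h : ∀ l : Fin 3, l = a ↔ Res (m - 2 * (l : ℕ))) :
    (m - 2 * ((a : ℕ) : ℤ)) % 6 = 0 := by
  have := res_apex h
  omega

theorem fin3_add_one (a : Fin 3) : a + 1 ≠ a := by
  revert a; decide

theorem HexW.one_exc1 (h : HexW Q r) (inc : ∀ t ∈ Ioo (1 : ℝ) 7, ¬ Qt Q r t ⊆ Qt Q r (t + 1))
    (inc' : ∀ t ∈ Ioo (1 : ℝ) 7, ¬ Qt Q r (t + 1) ⊆ Qt Q r t)
    (nbad : ∀ t ∈ Ioo (1 : ℝ) 7, Q t = univ → Q (t + 1) = univ →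
      ∀ᶠ s in 𝓝 t, ¬ (Q s = {r (t + 1)} ∧ Q (s + 1) = {r t}))
    (u0 : Q 1 ≠ univ) (u1 : Q 2 ≠ univ) {g o : Fin 3} (hgo : g ≠ o)
    (hr : ∀ᶠ t in 𝓝[>] (1 : ℝ), Q t = {g} ∧ Q (t + 1) = {o})
    (hl : ∀ᶠ t in 𝓝[<] (1 : ℝ), Q t = {o} ∧ Q (t + 1) = {g}) : False := by
  obtain ⟨ℓ, M, hℓ, hd, hM, hMloc, hMℓ⟩ := h.exM
  have hQ6 : ∀ t, Qt Q r (t + 6) = Qt Q r t := by
    intro t
    unfold Qt
    rw [h.per, h.rper]
  have hloc : ∀ t ∈ Ioo (0 : ℝ) 12, ∀ᶠ s in 𝓝 t, Jmp Q r M s t := by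
    intro t ht
    have := hMloc t ⟨ht.1.le, ht.2.le⟩
    rwa [nhdsWithin_eq_nhds.2 (Icc_mem_nhds ht.1 ht.2)] at this
  have htr : ∀ c t : ℝ, Tendsto (fun s : ℝ => s + c) (𝓝 t) (𝓝 (t + c)) := fun c t => by
    have : Continuous fun s : ℝ => s + c := by fun_prop
    exact this.tendsto t
  -- steps
  have hE : ∀ t ∈ Ioo (1 : ℝ) 7, (M (t + 1) - M t) % 6 = 2 ∨ (M (t + 1) - M t) % 6 = 3 ∨
      (M (t + 1) - M t) % 6 = 4 := by
    intro t ht
    have ht0 : t ∈ Icc (0 : ℝ) 12 := ⟨by linarith [ht.1], by linarith [ht.2]⟩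
    have ht1 : t + 1 ∈ Icc (0 : ℝ) 12 := ⟨by linarith [ht.1], by linarith [ht.2]⟩
    apply incomparable_mod
    · have := inc t ht
      rw [Set.not_subset] at this
      obtain ⟨l, hl, hl'⟩ := this
      exact ⟨l, (hM t ht0 l).1 hl, fun hc => hl' ((hM _ ht1 l).2 hc)⟩
    · have := inc' t ht
      rw [Set.not_subset] at this
      obtain ⟨l, hl, hl'⟩ := this
      exact ⟨l, (hM _ ht1 l).1 hl, fun hc => hl' ((hM _ ht0 l).2 hc)⟩
  have hap : ∀ τ ∈ Icc (0 : ℝ) 12, Q τ = univ → M τ % 6 = (2 * ((r τ : ℕ) : ℤ)) % 6 := by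
    intro τ hτ hu
    refine res_apex fun l => ?_
    rw [← hM τ hτ l, Qt_of_eq hu]
    rfl
  have hEloc : ∀ t ∈ Ioo (1 : ℝ) 7, ∀ᶠ s in 𝓝 t,
      (M (s + 1) - M s - 2) / 6 = (M (t + 1) - M t - 2) / 6 := by
    intro t ht
    have ht0 : t ∈ Icc (0 : ℝ) 12 := ⟨by linarith [ht.1], by linarith [ht.2]⟩
    have ht1 : t + 1 ∈ Icc (0 : ℝ) 12 := ⟨by linarith [ht.1], by linarith [ht.2]⟩
    have h1 := (htr 1 t).eventually (hloc (t + 1) ⟨by linarith [ht.1], by linarith [ht.2]⟩)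
    have h2 := hloc t ⟨by linarith [ht.1], by linarith [ht.2]⟩
    have h3 : ∀ᶠ s in 𝓝 t, Q t = univ → Q (t + 1) = univ →
        ¬ (Q s = {r (t + 1)} ∧ Q (s + 1) = {r t}) := by
      by_cases c1 : Q t = univ
      · by_cases c2 : Q (t + 1) = univ
        · exact (nbad t ht c1 c2).mono fun s hs _ _ => hs
        · exact Eventually.of_forall fun s _ h5 => absurd h5 c2
      · exact Eventually.of_forall fun s h5 => absurd h5 c1
    filter_upwards [h1, h2, h3, Ioo_mem_nhds ht.1 ht.2] with s hs1 hs2 hs3 hs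
    by_cases c1 : Q t = univ
    · by_cases c2 : Q (t + 1) = univ
      · obtain ⟨q1, q2⟩ := apex_two (hap t ht0 c1) (hap _ ht1 c2)
        refine step_const (hE t ht) (hE s hs) hs2.two hs1.two (fun a1 a2 a3 => ?_)
          fun a1 a2 a3 => ?_
        · refine hs3 c1 c2 ⟨?_, ?_⟩
          · rw [hs2.pos a2, (q1 a1).1]
          · rw [hs1.neg a3, (q1 a1).2]
        · refine hs3 c1 c2 ⟨?_, ?_⟩
          · rw [hs2.neg a2, (q2 a1).1]
          · rw [hs1.pos a3, (q2 a1).2]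
      · have a4 := abs_le.1 (hs1.one c2)
        exact step_const (hE t ht) (hE s hs) hs2.two hs1.two
          (fun a1 a2 a3 => by linarith [a4.1]) (fun a1 a2 a3 => by linarith [a4.2])
    · have a4 := abs_le.1 (hs2.one c1)
      exact step_const (hE t ht) (hE s hs) hs2.two hs1.two
        (fun a1 a2 a3 => by linarith [a4.2]) (fun a1 a2 a3 => by linarith [a4.1])
  -- constant on the open interval
  have hcon : ∀ s ∈ Ioo (1 : ℝ) 7, ∀ t ∈ Ioo (1 : ℝ) 7,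
      (M (s + 1) - M s - 2) / 6 = (M (t + 1) - M t - 2) / 6 := by
    intro s hs t ht
    have hc : ContinuousOn (fun t => (M (t + 1) - M t - 2) / 6) (Ioo (1 : ℝ) 7) := fun x hx =>
      ((tendsto_const_nhds (x := (M (x + 1) - M x - 2) / 6)).congr'
        ((hEloc x hx).mono fun y hy => hy.symm)).mono_left nhdsWithin_le_nhds
    exact isPreconnected_Ioo.constant hc hs ht
  -- the period
  have hD : ∀ t ∈ Icc (0 : ℝ) 6, (M (t + 6) - M t) % 6 = 0 := by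
    intro t ht
    have ht0 : t ∈ Icc (0 : ℝ) 12 := ⟨ht.1, by linarith [ht.2]⟩
    have ht1 : t + 6 ∈ Icc (0 : ℝ) 12 := ⟨by linarith [ht.1], by linarith [ht.2]⟩
    apply eq_mod_of_res
    intro l
    rw [← hM t ht0 l, ← hM _ ht1 l, hQ6]
  have hDloc : ∀ t ∈ Icc (0 : ℝ) 6, ∀ᶠ s in 𝓝[Icc (0 : ℝ) 6] t,
      M (s + 6) - M s = M (t + 6) - M t := by
    intro t ht
    have ht0 : t ∈ Icc (0 : ℝ) 12 := ⟨ht.1, by linarith [ht.2]⟩
    have ht1 : t + 6 ∈ Icc (0 : ℝ) 12 := ⟨by linarith [ht.1], by linarith [ht.2]⟩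
    have h1 := (tendsto_add_Icc (t := t) (a := 0) (b := 6) (a' := 0) (b' := 12) (c := 6)
      fun s hs => ⟨by linarith [hs.1], by linarith [hs.2]⟩).eventually (hMloc _ ht1)
    have h2 := nhdsWithin_mono t (Icc_subset_Icc le_rfl (by norm_num : (6 : ℝ) ≤ 12))
      (hMloc t ht0)
    filter_upwards [h1, h2, self_mem_nhdsWithin] with s hs1 hs2 hs
    have e1 := hD s hs
    have e2 := hD t ht
    have e3 := abs_le.1 hs1.two
    have e4 := abs_le.1 hs2.two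
    omega
  have hW := const_of_loc hDloc
  -- the two sides
  have hmem1 : g ∈ Q 1 ∧ o ∈ Q 1 := by
    have h1 := (hr.and (mem_nhdsWithin_of_mem_nhds (h.usc 1))).exists
    have h2 := (hl.and (mem_nhdsWithin_of_mem_nhds (h.usc 1))).exists
    obtain ⟨s, ⟨hs, -⟩, hs'⟩ := h1
    obtain ⟨s', ⟨ht, -⟩, ht'⟩ := h2
    exact ⟨hs' (by rw [hs]; rfl), ht' (by rw [ht]; rfl)⟩
  have n1 : ∀ᶠ s in 𝓝 (1 : ℝ), |M s - M 1| ≤ 1 :=
    (hloc 1 ⟨by norm_num, by norm_num⟩).mono fun s hs => hs.one u0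
  have n2 : ∀ᶠ s in 𝓝 (1 : ℝ), |M (s + 1) - M 2| ≤ 1 := by
    have h1 := (htr 1 1).eventually (hloc (1 + 1) ⟨by norm_num, by norm_num⟩)
    have e : (1 : ℝ) + 1 = 2 := by norm_num
    rw [e] at h1
    exact h1.mono fun s hs => hs.one u1
  obtain ⟨s, ⟨⟨hs1, hs2⟩, hs3⟩, hs4, hs5⟩ := ((hr.and (Ioo_mem_nhdsGT (show (1 : ℝ) < 2 by norm_num))).and
    (mem_nhdsWithin_of_mem_nhds (n1.and n2))).exists
  obtain ⟨t, ⟨⟨ht1, ht2⟩, ht3⟩, ht4, ht5⟩ := ((hl.and (Ioo_mem_nhdsLT (show (0 : ℝ) < 1 by norm_num))).and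
    (mem_nhdsWithin_of_mem_nhds (n1.and n2))).exists
  have key : ∀ τ ∈ Icc (0 : ℝ) 12, ∀ a : Fin 3, Q τ = {a} → (M τ - 2 * ((a : ℕ) : ℤ)) % 6 = 0 := by
    intro τ hτ a ha
    refine res_single fun l => ?_
    rw [← hM τ hτ l, Qt_of_ne (by
      rw [ha]; intro hc
      have : a + 1 ∈ ({a} : Set (Fin 3)) := by rw [hc]; trivial
      exact fin3_add_one a this), ha]
    rfl
  have k1 := key s ⟨by linarith [hs3.1], by linarith [hs3.2]⟩ g hs1
  have k2 := key (s + 1) ⟨by linarith [hs3.1], by linarith [hs3.2]⟩ o hs2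
  have k3 := key t ⟨by linarith [ht3.1], by linarith [ht3.2]⟩ o ht1
  have k4 := key (t + 1) ⟨by linarith [ht3.1], by linarith [ht3.2]⟩ g ht2
  have c1 : (g : ℕ) < 3 := g.isLt
  have c2 : (o : ℕ) < 3 := o.isLt
  have c3 : ((g : ℕ) : ℤ) ≠ ((o : ℕ) : ℤ) := fun hc => hgo (Fin.ext (by exact_mod_cast hc))
  refine swap_int (g := ((g : ℕ) : ℤ)) (o := ((o : ℕ) : ℤ)) ⟨by positivity, by omega⟩
    ⟨by positivity, by omega⟩ c3 k1 k2 k3 k4 hs4 hs5 ht4 ht5 ?_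
  -- shift by the period
  have e1 := hcon s ⟨hs3.1, by linarith [hs3.2]⟩ (t + 6) ⟨by linarith [ht3.1], by linarith [ht3.2]⟩
  have e2 := hW t ⟨ht3.1.le, by linarith [ht3.2]⟩ 0 ⟨le_rfl, by norm_num⟩
  have e3 := hW (t + 1) ⟨by linarith [ht3.1], by linarith [ht3.2]⟩ 0 ⟨le_rfl, by norm_num⟩
  have e4 : t + 6 + 1 = t + 1 + 6 := by ring
  rw [e4] at e1
  rw [e1]
  congr 1
  linarith

/-- **The class law with one exceptional pair** -/
theorem HexW.one_exc (h : HexW Q r) (t₀ : ℝ)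
    (inc : ∀ t, (∀ n : ℤ, t ≠ t₀ + 6 * n) → ¬ Qt Q r t ⊆ Qt Q r (t + 1))
    (inc' : ∀ t, (∀ n : ℤ, t ≠ t₀ + 6 * n) → ¬ Qt Q r (t + 1) ⊆ Qt Q r t)
    (nbad : ∀ t, (∀ n : ℤ, t ≠ t₀ + 6 * n) → Q t = univ → Q (t + 1) = univ →
      ∀ᶠ s in 𝓝 t, ¬ (Q s = {r (t + 1)} ∧ Q (s + 1) = {r t}))
    (u0 : Q t₀ ≠ univ) (u1 : Q (t₀ + 1) ≠ univ) {g o : Fin 3} (hgo : g ≠ o)
    (hr : ∀ᶠ t in 𝓝[>] t₀, Q t = {g} ∧ Q (t + 1) = {o})
    (hl : ∀ᶠ t in 𝓝[<] t₀, Q t = {o} ∧ Q (t + 1) = {g}) : False := by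
  have hn : ∀ t ∈ Ioo (1 : ℝ) 7, ∀ n : ℤ, t₀ - 1 + t ≠ t₀ + 6 * n := by
    rintro t ht n hc
    have h1 : (0 : ℝ) < n := by linarith [ht.1]
    have h2 : (n : ℝ) < 1 := by linarith [ht.2]
    have h3 : (0 : ℤ) < n := by exact_mod_cast h1
    have h4 : n < 1 := by exact_mod_cast h2
    omega
  have hc : ∀ t, Tendsto (fun s : ℝ => t₀ - 1 + s) (𝓝 t) (𝓝 (t₀ - 1 + t)) := fun t => by
    have : Continuous fun s : ℝ => t₀ - 1 + s := by fun_prop
    exact this.tendsto t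
  have a1 : ∀ t, t₀ - 1 + (t + 1) = t₀ - 1 + t + 1 := fun t => by ring
  refine (h.shift (t₀ - 1)).one_exc1 (fun t ht => ?_) (fun t ht => ?_) (fun t ht h1 h2 => ?_) ?_ ?_
    hgo ?_ ?_
  · have := inc _ (hn t ht)
    unfold Qt at this ⊢
    simpa only [a1] using this
  · have := inc' _ (hn t ht)
    unfold Qt at this ⊢
    simpa only [a1] using this
  · have h3 := (hc t).eventually (nbad _ (hn t ht) h1 (by rw [← a1]; exact h2))
    filter_upwards [h3] with s hs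
    simpa only [a1] using hs
  · show Q (t₀ - 1 + 1) ≠ univ
    rwa [sub_add_cancel]
  · show Q (t₀ - 1 + 2) ≠ univ
    have : t₀ - 1 + 2 = t₀ + 1 := by ring
    rwa [this]
  · have h1 : Tendsto (fun s : ℝ => t₀ - 1 + s) (𝓝[>] 1) (𝓝[>] t₀) := by
      refine tendsto_nhdsWithin_iff.2 ⟨?_, ?_⟩
      · have := hc 1
        rw [sub_add_cancel] at this
        exact this.mono_left nhdsWithin_le_nhds
      · filter_upwards [self_mem_nhdsWithin] with s hs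
        have : (1 : ℝ) < s := hs
        show t₀ < t₀ - 1 + s
        linarith
    filter_upwards [h1.eventually hr] with s hs
    simpa only [a1] using hs
  · have h1 : Tendsto (fun s : ℝ => t₀ - 1 + s) (𝓝[<] 1) (𝓝[<] t₀) := by
      refine tendsto_nhdsWithin_iff.2 ⟨?_, ?_⟩
      · have := hc 1
        rw [sub_add_cancel] at this
        exact this.mono_left nhdsWithin_le_nhds
      · filter_upwards [self_mem_nhdsWithin] with s hs
        have : s < (1 : ℝ) := hs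
        show t₀ - 1 + s < t₀
        linarith
    filter_upwards [h1.eventually hl] with s hs
    simpa only [a1] using hs

end Vale.Agent.P032.H538
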