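import Vale.Agent.P032.H383.RingW
import Vale.Agent.P032.H180.Viol

/-!
# P032, X.STATE.4: the forbidden state near two adjacent harmless full times

`RC.lay538` : the letters near a full time.
`DSt.nbad538` : field `nbad` of the record at a three coloured point: `t`, `t + 1` full and harmless,
the sixty degree rule for the essential labels near `t`.
-/

open Set Filter Topology Metric

noncomputable section

namespace Vale.Agent.P032.Six

open Vale.Agent.P032.S5 Vale.Agent.P032.Carr Vale.Agent.P032.S5.Tab Vale.Agent.P032.H538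
open Vale.Agent.P032.H180 (Qt Qt_of_ne Qt_of_eq continuous_pt)
open Vale.Agent.P032.S5.H180 (Qx rx Qx_univ usc_pt dist_pt_succ pt_shift third_label
  eq_singleton_of)

variable {U : Fin 6 → Set ℂ} {T : ℂ → Set (Fin 6)} {f : ℂ → Set (Fin 6)} {Z : Set ℂ} {c : ℂ}
  {R δ₀ : ℝ} {x : ℂ} {col : Fin 3 → Fin 6} {t : ℝ}

/-- a full point is in `Z` -/
theorem RC.mem538 (B : H57.RC T Z f δ₀ x (T x)) {y : ℂ} (hy : dist y x = 1)
    (hs : (T x)ᶜ ⊆ T y) : y ∈ Z := by
  by_contra hyZ
  exact B.nc y hy hyZ hs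

theorem RC.c3_538 (B : H57.RC T Z f δ₀ x (T x)) : ((T x)ᶜ).ncard = 3 := by
  rw [Set.ncard_compl, B.three]; simp

/-- the apex label is the third colour -/
theorem RC.apex538 (B : H57.RC T Z f δ₀ x (T x)) {z : ℂ} (hzx : dist z x = 1)
    (hs : (T x)ᶜ ⊆ T z) :
    hp T f (T x) z ∈ T z ∧ hp T f (T x) z ∉ f z ∧ hp T f (T x) z ∉ T x ∧
      ∀ i, i ∉ T x → i = hp T f (T x) z ∨ i ∈ f z := by
  have hz := RC.mem538 B hzx hs
  obtain ⟨h1, h2⟩ := B.hm.apex hz (T x)
  have h3 : hp T f (T x) z ∉ T x := pick_avoid (B.unp z hz hzx)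
  refine ⟨h1, h2, h3, fun i hi => ?_⟩
  by_contra hcon
  push Not at hcon
  have h4 : insert i (insert (hp T f (T x) z) (f z)) ⊆ (T x)ᶜ :=
    Set.insert_subset hi (Set.insert_subset h3 (B.fz z hz hzx hs))
  have h5 := Set.ncard_le_ncard h4 (Set.toFinite _)
  rw [RC.c3_538 B, Set.ncard_insert_of_notMem, Set.ncard_insert_of_notMem h2, B.hm.two z hz] at h5
  · omega
  · rintro (h6 | h6)
    · exact hcon.1 h6
    · exact hcon.2 h6

/-- near a full time -/
theorem RC.lay538 (B : H57.RC T Z f δ₀ x (T x)) (hcol : ∀ i, i ∉ T x ↔ ∃ l, i = col l)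
    (hinj : Function.Injective col) (ht : Qx T x col t = univ) :
    ∀ᶠ s in 𝓝 t, (Qx T x col s = univ ∧ rx T f (T x) x col s = rx T f (T x) x col t) ∨
      (Qx T x col s ≠ univ ∧ ∀ i ∈ Qx T x col s, ∀ j ∈ Qx T x col s,
        i = rx T f (T x) x col t ∨ j = rx T f (T x) x col t ∨ i = j) := by
  have hS := (Qx_univ hcol).1 ht
  have hzx := Vale.Agent.P032.H180.dist_pt x t
  have hz := RC.mem538 B hzx hS
  have h1 : Tendsto (Vale.Agent.P032.H180.pt x) (𝓝 t) (𝓝 (Vale.Agent.P032.H180.pt x t)) :=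
    (continuous_pt x).continuousAt
  filter_upwards [h1.eventually (closedBall_mem_nhds _ B.hm.pos)] with s hs
  have hs' := mem_closedBall.1 hs
  by_cases hsZ : Vale.Agent.P032.H180.pt x s ∈ Z
  · left
    obtain ⟨e1, e2⟩ := B.hm.const _ hz _ hsZ hs'
    have hsu : Qx T x col s = univ := by
      rw [Qx_univ hcol, e1]
      exact hS
    refine ⟨hsu, hinj ?_⟩
    rw [rx_spec383 B hcol ((Qx_univ hcol).1 hsu), rx_spec383 B hcol hS]
    unfold hp
    rw [e1, e2]
  · right
    have hns : ¬ (T x)ᶜ ⊆ T (Vale.Agent.P032.H180.pt x s) := fun h2 =>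
      hsZ (RC.mem538 B (Vale.Agent.P032.H180.dist_pt x s) h2)
    refine ⟨fun h2 => hns ((Qx_univ hcol).1 h2), fun i hi j hj => ?_⟩
    by_contra hcon
    push Not at hcon
    obtain ⟨hir, hjr, hij⟩ := hcon
    obtain ⟨-, -, -, a4⟩ := RC.apex538 B hzx hS
    have hap := rx_spec383 B hcol hS
    have key : ∀ m : Fin 3, m ≠ rx T f (T x) x col t →
        col m ∈ f (Vale.Agent.P032.H180.pt x t) := by
      intro m hm
      rcases a4 (col m) ((hcol _).2 ⟨m, rfl⟩) with h3 | h3
      · rw [← hap] at h3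
        exact absurd (hinj h3) hm
      · exact h3
    refine B.hm.forb _ hz _ hs' hsZ ?_
    have h4 : f (Vale.Agent.P032.H180.pt x t) = {col i, col j} := by
      symm
      apply Set.eq_of_subset_of_ncard_le
      · rintro m (rfl | rfl)
        · exact key i hir
        · exact key j hjr
      · rw [B.hm.two _ hz, Set.ncard_pair fun h => hij (hinj h)]
      · exact Set.toFinite _
    rw [h4]
    rintro m (rfl | rfl)
    · exact hi
    · exact hj

/-- the forbidden solid state: geometric part -/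
theorem DSt.solid538 (D : DSt U T Z f c R δ₀) (B : H57.RC T Z f δ₀ x (T x))
    (hcol : ∀ i, i ∉ T x ↔ ∃ l, i = col l) (hinj : Function.Injective col) {s : ℝ}
    (h0 : Qx T x col s = univ) (h1 : Qx T x col (s + 1) = univ)
    (hH0 : ∃ A, Harm T (Vale.Agent.P032.H180.pt x s) A)
    (hH1 : ∃ A, Harm T (Vale.Agent.P032.H180.pt x (s + 1)) A)
    (hr : rx T f (T x) x col s ≠ rx T f (T x) x col (s + 1))
    {sg : ℝ} (hsg : sg = 1 ∨ sg = -1) {ρ : ℝ} (hρ : 0 < ρ)
    (hbad : ∀ σ, 0 < σ → σ < ρ → Qx T x col (s + sg * σ) = {rx T f (T x) x col (s + 1)} ∧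
      Qx T x col (s + sg * σ + 1) = {rx T f (T x) x col s}) : False := by
  have hirr := D.df.irr
  have hS0 := (Qx_univ hcol).1 h0
  have hS1 := (Qx_univ hcol).1 h1
  have d0 := Vale.Agent.P032.H180.dist_pt x s
  have d1 := Vale.Agent.P032.H180.dist_pt x (s + 1)
  have d01 := dist_pt_succ x s
  obtain ⟨l, hl0, hl1, hl⟩ := third_label hr
  obtain ⟨a1, a2, a3, a4⟩ := RC.apex538 B d0 hS0
  obtain ⟨b1, b2, b3, b4⟩ := RC.apex538 B d1 hS1
  have e0 := rx_spec383 B hcol hS0
  have e1 := rx_spec383 B hcol hS1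
  have hnS : ∀ m, col m ∉ T x := fun m => (hcol _).2 ⟨m, rfl⟩
  have hzZ := RC.mem538 B d0 hS0
  have hpZ := RC.mem538 B d1 hS1
  have hcz : Harm T (Vale.Agent.P032.H180.pt x s) (f (Vale.Agent.P032.H180.pt x s)) := by
    obtain ⟨A, hA⟩ := hH0
    rw [D.ch.harm _ A hA]; exact hA
  have hcp : Harm T (Vale.Agent.P032.H180.pt x (s + 1)) (f (Vale.Agent.P032.H180.pt x (s + 1))) := by
    obtain ⟨A, hA⟩ := hH1
    rw [D.ch.harm _ A hA]; exact hA
  -- the colour of the face in `T z`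
  obtain ⟨g, hgT, hgS, hgone⟩ : ∃ g, g ∈ T (Vale.Agent.P032.H180.pt x s) ∧ g ∈ T x ∧
      ∀ i ∈ T (Vale.Agent.P032.H180.pt x s), i ∈ T x → i = g := by
    have h4 : (T (Vale.Agent.P032.H180.pt x s) ∩ T x).ncard = 1 := by
      have h5 := Set.ncard_inter_add_ncard_sdiff_eq_ncard (T (Vale.Agent.P032.H180.pt x s)) (T x)
        (Set.toFinite _)
      have h6 : T (Vale.Agent.P032.H180.pt x s) \ T x = (T x)ᶜ := by
        apply Subset.antisymm
        · exact fun i hi => hi.2
        · exact fun i hi => ⟨hS0 hi, hi⟩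
      rw [hcz.card, h6, RC.c3_538 B] at h5
      omega
    obtain ⟨g, hg⟩ := Set.ncard_eq_one.1 h4
    have h5 : g ∈ T (Vale.Agent.P032.H180.pt x s) ∩ T x := by rw [hg]; rfl
    exact ⟨g, h5.1, h5.2, fun i hi hiS =>
      (Set.ncard_le_one (Set.toFinite _)).1 h4.le i ⟨hi, hiS⟩ g h5⟩
  have hTz : T (Vale.Agent.P032.H180.pt x s) ⊆
      {col l, col (rx T f (T x) x col (s + 1)), col (rx T f (T x) x col s), g} := by
    intro i hi
    by_cases hiS : i ∈ T x
    · exact Or.inr (Or.inr (Or.inr (hgone i hi hiS)))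
    · obtain ⟨m, rfl⟩ := (hcol i).1 hiS
      rcases hl m with h5 | h5 | h5
      · exact Or.inl (by rw [h5])
      · exact Or.inr (Or.inl (by rw [h5]))
      · exact Or.inr (Or.inr (Or.inl (by rw [h5])))
  have hfz : f (Vale.Agent.P032.H180.pt x s) ⊆ {col l, col (rx T f (T x) x col (s + 1))} := by
    intro i hi
    obtain ⟨m, rfl⟩ := (hcol i).1 (B.fz _ hzZ d0 hS0 hi)
    rcases hl m with h5 | h5 | h5
    · exact Or.inl (by rw [h5])
    · exact Or.inr (by rw [h5]; rfl)
    · exfalso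
      rw [h5, e0] at hi
      exact a2 hi
  have hfp : col l ∈ f (Vale.Agent.P032.H180.pt x (s + 1)) := by
    rcases b4 (col l) (hnS l) with h5 | h5
    · rw [← e1] at h5
      exact absurd (hinj h5) hl1
    · exact h5
  have hhalf := hirr.half_a (x := x) d0 d1 d01 (a := col l)
    (b := col (rx T f (T x) x col (s + 1))) (c := col (rx T f (T x) x col s)) (g := g)
    hgS hTz (by
      filter_upwards [Vale.Agent.P032.S5.H180.lay hirr hcz] with w hw q1 q2
      have h5 : T w = T (Vale.Agent.P032.H180.pt x s) := hw (hfz.trans (by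
        rintro i (rfl | rfl) <;> assumption))
      rw [h5]
      exact hgT) (by
      filter_upwards [mem_nhdsWithin_of_mem_nhds (hirr.nhd (Vale.Agent.P032.H180.pt x s)),
        self_mem_nhdsWithin] with q q1 q2 q3
      have h5 : T q ⊆ T (Vale.Agent.P032.H180.pt x (s + 1)) := by
        intro i hi
        by_cases hiS : i ∈ T x
        · exact absurd (hgone i (q1 hi) hiS ▸ hi) q3
        · exact hS1 hiS
      exact hcp.h1 q q2 h5 hfp) hsg (hS1 (hnS _)) (by
      filter_upwards [Ioo_mem_nhdsGT (show (0 : ℝ) < ρ * Real.pi / 3 by positivity)] with τ hτ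
      have hpi := Real.pi_pos
      have q1 := (hbad (3 * τ / Real.pi) (by have := hτ.1; positivity) (by
        rw [div_lt_iff₀ hpi]; linarith [hτ.2])).2
      have q2 : rx T f (T x) x col s ∈ Qx T x col (s + sg * (3 * τ / Real.pi) + 1) := by
        rw [q1]; rfl
      rw [Vale.Agent.P032.S5.H180.pt_shift]
      have q3 : s + 1 + 3 * (sg * τ) / Real.pi = s + sg * (3 * τ / Real.pi) + 1 := by ring
      rw [q3]
      exact q2)
  have hpi := Real.pi_pos
  obtain ⟨τ, hτ1, hτ2⟩ := (hhalf.and (Ioo_mem_nhdsGT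
    (show (0 : ℝ) < ρ * Real.pi / 3 by positivity))).exists
  have q1 := (hbad (3 * τ / Real.pi) (by have := hτ2.1; positivity) (by
    rw [div_lt_iff₀ hpi]; linarith [hτ2.2])).1
  rw [Vale.Agent.P032.S5.H180.pt_shift] at hτ1
  have q3 : s + 3 * (sg * τ) / Real.pi = s + sg * (3 * τ / Real.pi) := by ring
  rw [q3] at hτ1
  have q2 : l ∈ Qx T x col (s + sg * (3 * τ / Real.pi)) := hτ1
  rw [q1] at q2
  exact hl1 q2

theorem RC.ne538 (B : H57.RC T Z f δ₀ x (T x)) (hcol : ∀ i, i ∉ T x ↔ ∃ l, i = col l) (t : ℝ) :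
    (Qx T x col t).Nonempty := by
  obtain ⟨i, hi, hiS⟩ := Set.not_subset.1 (B.full _ (Vale.Agent.P032.H180.dist_pt x t))
  obtain ⟨l, rfl⟩ := (hcol i).1 hiS
  exact ⟨l, hi⟩

/-- the forbidden state does not occur near two adjacent harmless full times, one side -/
theorem DSt.nbad_side538 (D : DSt U T Z f c R δ₀) (B : H57.RC T Z f δ₀ x (T x))
    (hcol : ∀ i, i ∉ T x ↔ ∃ l, i = col l) (hinj : Function.Injective col)
    (h0 : Qx T x col t = univ) (h1 : Qx T x col (t + 1) = univ)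
    (hH0 : ∃ A, Harm T (Vale.Agent.P032.H180.pt x t) A)
    (hH1 : ∃ A, Harm T (Vale.Agent.P032.H180.pt x (t + 1)) A)
    (hinc : ∀ᶠ s in 𝓝 t,
      ¬ Qt (Qx T x col) (rx T f (T x) x col) s ⊆ Qt (Qx T x col) (rx T f (T x) x col) (s + 1) ∧
      ¬ Qt (Qx T x col) (rx T f (T x) x col) (s + 1) ⊆ Qt (Qx T x col) (rx T f (T x) x col) s)
    {sg : ℝ} (hsg : sg = 1 ∨ sg = -1) :
    ∃ ε > 0, ∀ σ, 0 < σ → σ < ε → ¬ (Qx T x col (t + sg * σ) = {rx T f (T x) x col (t + 1)} ∧
      Qx T x col (t + sg * σ + 1) = {rx T f (T x) x col t}) := by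
  have d01 := dist_pt_succ x t
  have hr : rx T f (T x) x col t ≠ rx T f (T x) x col (t + 1) := by
    intro h2
    refine hinc.self_of_nhds.1 ?_
    rw [Qt_of_eq h0, Qt_of_eq h1, h2]
  set r0 := rx T f (T x) x col t with hr0
  set r1 := rx T f (T x) x col (t + 1) with hr1
  obtain ⟨l, hl0, hl1, hl⟩ := third_label hr
  have L0 := RC.lay538 B hcol hinj h0
  have hc : Tendsto (fun s : ℝ => s + 1) (𝓝 t) (𝓝 (t + 1)) :=
    (continuous_add_const 1).continuousAt
  have L1 : ∀ᶠ s in 𝓝 t, (Qx T x col (s + 1) = univ ∧ rx T f (T x) x col (s + 1) = r1) ∨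
      (Qx T x col (s + 1) ≠ univ ∧ ∀ i ∈ Qx T x col (s + 1), ∀ j ∈ Qx T x col (s + 1),
        i = r1 ∨ j = r1 ∨ i = j) :=
    hc.eventually (RC.lay538 B hcol hinj h1)
  -- full points near are harmless
  have K0 : ∀ᶠ s in 𝓝 t, Qx T x col s = univ →
      ∃ A, Harm T (Vale.Agent.P032.H180.pt x s) A := by
    obtain ⟨A, hA⟩ := hH0
    have h2 : Tendsto (Vale.Agent.P032.H180.pt x) (𝓝 t) (𝓝 (Vale.Agent.P032.H180.pt x t)) :=
      (continuous_pt x).continuousAt
    filter_upwards [h2.eventually (D.df.ev_harm180 hA)] with s hs hu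
    refine hs ?_
    have := RC.mem538 B (Vale.Agent.P032.H180.dist_pt x s) ((Qx_univ hcol).1 hu)
    exact (B.hm.four _ this).ge
  have K1 : ∀ᶠ s in 𝓝 t, Qx T x col (s + 1) = univ →
      ∃ A, Harm T (Vale.Agent.P032.H180.pt x (s + 1)) A := by
    obtain ⟨A, hA⟩ := hH1
    have h2 : Tendsto (Vale.Agent.P032.H180.pt x) (𝓝 (t + 1))
        (𝓝 (Vale.Agent.P032.H180.pt x (t + 1))) := (continuous_pt x).continuousAt
    filter_upwards [(h2.comp hc).eventually (D.df.ev_harm180 hA)] with s hs hu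
    refine hs ?_
    have := RC.mem538 B (Vale.Agent.P032.H180.dist_pt x (s + 1)) ((Qx_univ hcol).1 hu)
    exact (B.hm.four _ this).ge
  obtain ⟨ε, hε, hL⟩ := Metric.eventually_nhds_iff.1 (L0.and (L1.and (hinc.and (K0.and K1))))
  refine ⟨ε, hε, fun σ₀ hσ₀ hσε hbad₀ => ?_⟩
  have hsg1 : |sg| = 1 := by rcases hsg with h2 | h2 <;> rw [h2] <;> norm_num
  -- the last time which is not bad
  let bad : ℝ → Prop := fun σ => Qx T x col (t + sg * σ) = {r1} ∧
    Qx T x col (t + sg * σ + 1) = {r0}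
  have hopen : ∀ σ, bad σ → ∀ᶠ τ in 𝓝 σ, bad τ := by
    rintro σ ⟨b1, b2⟩
    have c1 : Tendsto (fun τ : ℝ => t + sg * τ) (𝓝 σ) (𝓝 (t + sg * σ)) := by
      have : Continuous fun τ : ℝ => t + sg * τ := by fun_prop
      exact this.continuousAt
    have c2 : Tendsto (fun τ : ℝ => t + sg * τ + 1) (𝓝 σ) (𝓝 (t + sg * σ + 1)) := by
      have : Continuous fun τ : ℝ => t + sg * τ + 1 := by fun_prop
      exact this.continuousAt
    filter_upwards [c1.eventually (usc_pt B.hm.usc x col _),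
      c2.eventually (usc_pt B.hm.usc x col _)] with τ k1 k2
    rw [b1] at k1
    rw [b2] at k2
    exact ⟨eq_singleton_of (RC.ne538 B hcol _) k1, eq_singleton_of (RC.ne538 B hcol _) k2⟩
  have hCc : IsCompact {σ | σ ∈ Icc 0 σ₀ ∧ ¬ bad σ} := by
    refine isCompact_Icc.inter_right (t := {σ | ¬ bad σ}) ?_
    rw [← isOpen_compl_iff, isOpen_iff_mem_nhds]
    intro σ hσ
    have hσ' : bad σ := by
      by_contra h2
      exact hσ h2
    filter_upwards [hopen σ hσ'] with τ hτ h2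
    exact h2 hτ
  have hCne : {σ | σ ∈ Icc 0 σ₀ ∧ ¬ bad σ}.Nonempty := by
    refine ⟨0, ⟨le_rfl, hσ₀.le⟩, fun h2 => ?_⟩
    have h3 := h2.1
    rw [mul_zero, add_zero, h0] at h3
    have h4 : l ∈ (univ : Set (Fin 3)) := mem_univ l
    rw [h3] at h4
    exact hl1 h4
  obtain ⟨a, ⟨⟨ha0, ha1⟩, hab⟩, hmax⟩ := hCc.exists_isMaxOn hCne continuousOn_id
  have haσ : a < σ₀ := lt_of_le_of_ne ha1 fun h2 => hab (h2 ▸ hbad₀)
  have hall : ∀ σ, a < σ → σ ≤ σ₀ → bad σ := by
    intro σ h2 h3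
    by_contra h4
    have := hmax (show σ ∈ {σ | σ ∈ Icc 0 σ₀ ∧ ¬ bad σ} from ⟨⟨ha0.trans h2.le, h3⟩, h4⟩)
    simp only [id] at this
    exact absurd this (not_le.2 h2)
  set s := t + sg * a with hs
  have hst : dist s t < ε := by
    rw [Real.dist_eq, hs, add_sub_cancel_left, abs_mul, hsg1, one_mul, abs_of_nonneg ha0]
    linarith
  obtain ⟨M0, M1, ⟨i0, i1⟩, H0, H1⟩ := hL hst
  -- closure
  have hc1 : r1 ∈ Qx T x col s := by
    have c1 : Tendsto (fun τ : ℝ => t + sg * τ) (𝓝[>] a) (𝓝 s) := by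
      have : Continuous fun τ : ℝ => t + sg * τ := by fun_prop
      exact (this.continuousAt (x := a)).mono_left nhdsWithin_le_nhds
    obtain ⟨τ, k1, k2⟩ := ((c1.eventually (usc_pt B.hm.usc x col _)).and
      (Ioo_mem_nhdsGT haσ)).exists
    exact k1 (by rw [(hall τ k2.1 k2.2.le).1]; rfl)
  have hc0 : r0 ∈ Qx T x col (s + 1) := by
    have c1 : Tendsto (fun τ : ℝ => t + sg * τ + 1) (𝓝[>] a) (𝓝 (s + 1)) := by
      have : Continuous fun τ : ℝ => t + sg * τ + 1 := by fun_prop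
      exact (this.continuousAt (x := a)).mono_left nhdsWithin_le_nhds
    obtain ⟨τ, k1, k2⟩ := ((c1.eventually (usc_pt B.hm.usc x col _)).and
      (Ioo_mem_nhdsGT haσ)).exists
    exact k1 (by rw [(hall τ k2.1 k2.2.le).2]; rfl)
  rcases M0 with ⟨m1, m2⟩ | ⟨m1, m2⟩
  · rcases M1 with ⟨n1, n2⟩ | ⟨n1, n2⟩
    · -- both full
      refine D.solid538 B hcol hinj m1 n1 (H0 m1) (H1 n1) (by rw [m2, n2]; exact hr) hsg
        (ρ := σ₀ - a) (by linarith) fun σ k1 k2 => ?_
      rw [m2, n2]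
      have k3 := hall (a + σ) (by linarith) (by linarith)
      have e1 : t + sg * (a + σ) = s + sg * σ := by rw [hs]; ring
      have k4 : Qx T x col (t + sg * (a + σ)) = {r1} ∧
        Qx T x col (t + sg * (a + σ) + 1) = {r0} := k3
      rw [e1] at k4
      exact k4
    · refine i0 ?_
      rw [Qt_of_eq m1, Qt_of_ne n1, m2]
      rintro _ rfl
      exact hc0
  · rcases M1 with ⟨n1, n2⟩ | ⟨n1, n2⟩
    · refine i1 ?_
      rw [Qt_of_eq n1, Qt_of_ne m1, n2]
      rintro _ rfl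
      exact hc1
    · -- both not full: the state is bad
      have g0 : ∀ i ∈ Qx T x col s, i = r1 ∨ i = r0 := by
        intro i hi
        rcases m2 i hi r1 hc1 with h2 | h2 | h2
        · exact Or.inr h2
        · exact absurd h2.symm hr
        · exact Or.inl h2
      have g1 : ∀ i ∈ Qx T x col (s + 1), i = r1 ∨ i = r0 := by
        intro i hi
        rcases n2 i hi r0 hc0 with h2 | h2 | h2
        · exact Or.inl h2
        · exact absurd h2 hr
        · exact Or.inr h2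
      rw [Qt_of_ne m1, Qt_of_ne n1] at i0
      rw [Qt_of_ne m1, Qt_of_ne n1] at i1
      refine hab ⟨?_, ?_⟩
      · rw [← hs]
        apply Subset.antisymm
        · intro i hi
          rcases g0 i hi with h2 | h2
          · exact h2
          · exfalso
            refine i1 fun j hj => ?_
            rcases g1 j hj with h3 | h3
            · exact h3 ▸ hc1
            · exact h3 ▸ h2 ▸ hi
        · rintro _ rfl
          exact hc1
      · rw [← hs]
        apply Subset.antisymm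
        · intro i hi
          rcases g1 i hi with h2 | h2
          · exfalso
            refine i0 fun j hj => ?_
            rcases g0 j hj with h3 | h3
            · exact h3 ▸ h2 ▸ hi
            · exact h3 ▸ hc0
          · exact h2
        · rintro _ rfl
          exact hc0

/-- **Field `nbad`** : the forbidden state does not occur near two adjacent harmless full times -/
theorem DSt.nbad538 (D : DSt U T Z f c R δ₀) (B : H57.RC T Z f δ₀ x (T x))
    (hcol : ∀ i, i ∉ T x ↔ ∃ l, i = col l) (hinj : Function.Injective col)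
    (h0 : Qx T x col t = univ) (h1 : Qx T x col (t + 1) = univ)
    (hH0 : ∃ A, Harm T (Vale.Agent.P032.H180.pt x t) A)
    (hH1 : ∃ A, Harm T (Vale.Agent.P032.H180.pt x (t + 1)) A)
    (hinc : ∀ᶠ s in 𝓝 t,
      ¬ Qt (Qx T x col) (rx T f (T x) x col) s ⊆ Qt (Qx T x col) (rx T f (T x) x col) (s + 1) ∧
      ¬ Qt (Qx T x col) (rx T f (T x) x col) (s + 1) ⊆ Qt (Qx T x col) (rx T f (T x) x col) s) :
    ∀ᶠ s in 𝓝 t, ¬ (Qx T x col s = {rx T f (T x) x col (t + 1)} ∧
      Qx T x col (s + 1) = {rx T f (T x) x col t}) := by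
  obtain ⟨ε1, hε1, k1⟩ := D.nbad_side538 B hcol hinj h0 h1 hH0 hH1 hinc (sg := 1) (Or.inl rfl)
  obtain ⟨ε2, hε2, k2⟩ := D.nbad_side538 B hcol hinj h0 h1 hH0 hH1 hinc (sg := -1) (Or.inr rfl)
  have hr : rx T f (T x) x col t ≠ rx T f (T x) x col (t + 1) := by
    intro h2
    refine hinc.self_of_nhds.1 ?_
    rw [Qt_of_eq h0, Qt_of_eq h1, h2]
  filter_upwards [Ioo_mem_nhds (show t - ε2 < t by linarith) (show t < t + ε1 by linarith)]
    with s hs hb
  rcases lt_trichotomy s t with h2 | h2 | h2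
  · refine k2 (t - s) (by linarith) (by linarith [hs.1]) ?_
    have e1 : t + -1 * (t - s) = s := by ring
    rw [e1]
    exact hb
  · subst h2
    have h3 := hb.1
    rw [h0] at h3
    have h4 : rx T f (T x) x col s ∈ (univ : Set (Fin 3)) := mem_univ _
    rw [h3] at h4
    exact hr h4
  · refine k1 (s - t) (by linarith) (by linarith [hs.2]) ?_
    have e1 : t + 1 * (s - t) = s := by ring
    rw [e1]
    exact hb

/-- the record `HexW` at a three coloured point -/
theorem RC.hexw538 (B : H57.RC T Z f δ₀ x (T x)) (hcol : ∀ i, i ∉ T x ↔ ∃ l, i = col l)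
    (hinj : Function.Injective col) : HexW (Qx T x col) (rx T f (T x) x col) where
  per t := by unfold Qx; rw [Vale.Agent.P032.H180.pt_six]
  rper t := by unfold rx; rw [Vale.Agent.P032.H180.pt_six]
  ne := RC.ne538 B hcol
  usc := usc_pt B.hm.usc x col
  lay _ ht := RC.lay538 B hcol hinj ht

end Vale.Agent.P032.Six
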