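import Vale.Agent.P032.H780.TipF
import Vale.Agent.P032.H538.NBad
import Vale.Agent.P032.H553.InnV

/-!
# P032, X, state A: the record at the full times from two statements

`fullRec538` : `FullRec780` from `hQ` (full points have four colours, the separated pair outside `T x`)
and `inc` (a violation with a full point is a swap).
-/

open Set Filter Topology Metric

noncomputable section

namespace Vale.Agent.P032.Six

open Vale.Agent.P032.S5 Vale.Agent.P032.Carr Vale.Agent.P032.S5.H767 Vale.Agent.P032.H961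
  Vale.Agent.P032.H538
open Vale.Agent.P032.H180 (Qt Qt_of_ne Qt_of_eq continuous_pt)
open Vale.Agent.P032.S5.H180 (Qx rx Qx_univ dist_pt_succ)

variable {U : Fin 6 → Set ℂ} {T : ℂ → Set (Fin 6)} {f : ℂ → Set (Fin 6)} {Z : Set ℂ} {c : ℂ}
  {R δ₀ : ℝ} {x y z : ℂ}

/-- two adjacent full points are harmless -/
theorem harm_full538 (h : DF U T) (W : StW2 T f) (hyz : dist y z = 1)
    (hy4 : 4 ≤ (T y).ncard) (hz4 : 4 ≤ (T z).ncard) (hsub : f y ⊆ T z) :
    ∃ A, Harm T y A := by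
  rcases h.harm_or hy4 with h1 | ⟨a0, b0, c0, d0, hD⟩
  · exact h1
  exfalso
  obtain ⟨a, b, m, n, e, f', V1, V2, H⟩ := W.w.qf hD
  have hg := W.gauge H
  rw [hg] at hsub
  have key : ∀ {a b m n e f' : Fin 6} {V1 V2 : ℂ}, QI T NoI y a b m n e f' V1 V2 →
      ({m, n} : Set (Fin 6)) ⊆ T z → z = V1 → False := by
    rintro a b m n e f' V1 V2 H hsub rfl
    obtain ⟨g, e', f'', W', H1, hgn⟩ := W.stay2 H
    have hn : n ∈ T z := hsub (by simp)
    rw [H1.pal] at hn
    have nd := H.nd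
    simp only [List.nodup_cons, List.mem_cons, List.not_mem_nil, or_false, not_or,
      List.nodup_nil, and_true, not_false_eq_true] at nd
    obtain ⟨⟨hab, ham, han, hae, haf⟩, ⟨hbm, hbn, hbe, hbf⟩, ⟨hmn', hme, hmf⟩, ⟨hne, hnf⟩, hef⟩ := nd
    rcases hn with h2 | h2 | h2 | h2
    · exact han h2.symm
    · exact hmn' h2.symm
    · exact hgn h2.symm
    · exact hbn h2.symm
  rcases H.ord z (by rw [dist_comm]; exact hyz) hz4 with h1 | h1 | h1
  · exact key H hsub h1
  · exact key H.mirror (by rw [Set.pair_comm]; exact hsub) h1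
  · exact h1

/-- near a harmless point there is no two-pair point -/
theorem DF.ev_not_dpt538 (h : DF U T) {A : Set (Fin 6)} (hA : Harm T z A) :
    ∀ᶠ w in 𝓝 z, ¬ ∃ a b c d, DPt T w a b c d := by
  rw [← not_frequently]
  exact fun hcl => not_harm_of_dpt hA
    (h.dpt_of_closure (mem_closure_iff_frequently.2 hcl)).choose_spec.choose_spec.choose_spec.choose_spec

theorem SwV180.dpt538 {V : ℂ} (hS : SwV180 T f x V y) : ∃ a b c d, DPt T V a b c d := by
  obtain ⟨a, b, m, n, hD, -⟩ := hS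
  exact ⟨a, b, m, n, hD⟩

/-- **The record at the full times** from `hQ` and `inc` -/
theorem fullRec538 (D : DSt U T Z f c R δ₀) (hw : QIW T NoI) (G : GaugeI758 T NoI f)
    (SA : ∀ V l name, ChI nxR802 T NoI V l name → ∀ j, l j = 2)
    (hx : dist x c ≤ R - 1) (h3 : (T x).ncard = 3)
    (hap : ∀ z, dist z x = 1 → 4 ≤ (T z).ncard → ¬ T z \ f z ⊆ T x)
    (hQ : ∀ y, dist y x = 1 → (T x)ᶜ ⊆ T y → 4 ≤ (T y).ncard ∧ f y ⊆ (T x)ᶜ)
    (inc : ∀ col : Fin 3 → Fin 6, (∀ i, i ∉ T x ↔ ∃ l, i = col l) → Function.Injective col →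
      ∀ t s : ℝ, dist (Vale.Agent.P032.H180.pt x t) (Vale.Agent.P032.H180.pt x s) = 1 →
      (Qx T x col t = univ ∨ Qx T x col s = univ) →
      Qt (Qx T x col) (rx T f (T x) x col) t ⊆ Qt (Qx T x col) (rx T f (T x) x col) s →
      SwV180 T f x (Vale.Agent.P032.H180.pt x t) (Vale.Agent.P032.H180.pt x s) ∨
        SwV180 T f x (Vale.Agent.P032.H180.pt x s) (Vale.Agent.P032.H180.pt x t)) :
    FullRec780 T f Z δ₀ x := by
  have B : H57.RC T Z f δ₀ x (T x) := D.rc383 hx h3 hap hQ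
  have W : StW2 T f := StW2.of hw G SA
  refine ⟨B, fun col hcol hinj => RC.hexw538 B hcol hinj, inc, fun col hcol hinj t h0 h1 => ?_⟩
  have hS0 := (Qx_univ hcol).1 h0
  have hS1 := (Qx_univ hcol).1 h1
  have d0 := Vale.Agent.P032.H180.dist_pt x t
  have d1 := Vale.Agent.P032.H180.dist_pt x (t + 1)
  obtain ⟨q0, q0'⟩ := hQ _ d0 hS0
  obtain ⟨q1, q1'⟩ := hQ _ d1 hS1
  have hH0 := harm_full538 D.df W (dist_pt_succ x t) q0 q1 (q0'.trans hS1)
  have hH1 := harm_full538 D.df W (by rw [dist_comm]; exact dist_pt_succ x t) q1 q0 (q1'.trans hS0)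
  refine D.nbad538 B hcol hinj h0 h1 hH0 hH1 ?_
  have hc : Tendsto (fun s : ℝ => s + 1) (𝓝 t) (𝓝 (t + 1)) :=
    (continuous_add_const 1).continuousAt
  have e0 : ∀ᶠ s in 𝓝 t, ¬ ∃ a b c d, DPt T (Vale.Agent.P032.H180.pt x s) a b c d := by
    obtain ⟨A, hA⟩ := hH0
    exact (Vale.Agent.P032.H180.continuous_pt x).continuousAt.eventually (D.df.ev_not_dpt538 hA)
  have e1 : ∀ᶠ s in 𝓝 t, ¬ ∃ a b c d, DPt T (Vale.Agent.P032.H180.pt x (s + 1)) a b c d := by
    obtain ⟨A, hA⟩ := hH1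
    exact hc.eventually ((Vale.Agent.P032.H180.continuous_pt x).continuousAt.eventually (D.df.ev_not_dpt538 hA))
  have rule : ∀ t s : ℝ, dist (Vale.Agent.P032.H180.pt x t) (Vale.Agent.P032.H180.pt x s) = 1 →
      Qt (Qx T x col) (rx T f (T x) x col) t ⊆ Qt (Qx T x col) (rx T f (T x) x col) s →
      SwV180 T f x (Vale.Agent.P032.H180.pt x t) (Vale.Agent.P032.H180.pt x s) ∨
        SwV180 T f x (Vale.Agent.P032.H180.pt x s) (Vale.Agent.P032.H180.pt x t) := by
    intro t s hts hsub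
    by_cases h1 : Qx T x col t = univ
    · exact inc col hcol hinj t s hts (Or.inl h1) hsub
    by_cases h2 : Qx T x col s = univ
    · exact inc col hcol hinj t s hts (Or.inr h2) hsub
    rw [Qt_of_ne h1, Qt_of_ne h2] at hsub
    refine viol180 D hw G SA h3 hap (Vale.Agent.P032.H180.dist_pt x t)
      (Vale.Agent.P032.H180.dist_pt x s) hts
      (fun h => h1 ((Qx_univ hcol).2 h)) (fun h => h2 ((Qx_univ hcol).2 h)) ?_
    rintro i ⟨hi, hix⟩
    obtain ⟨l, rfl⟩ := (hcol i).1 hix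
    exact hsub hi
  filter_upwards [e0, e1] with s k0 k1
  refine ⟨fun hsub => ?_, fun hsub => ?_⟩
  · rcases rule _ _ (dist_pt_succ x s) hsub with hS | hS
    · exact k0 hS.dpt538
    · exact k1 hS.dpt538
  · rcases rule _ _ (by rw [dist_comm]; exact dist_pt_succ x s) hsub with hS | hS
    · exact k1 hS.dpt538
    · exact k0 hS.dpt538

end Vale.Agent.P032.Six
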