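import Vale.Agent.P032.H396.Left

/-!
# P032: one-sided rays at an event, the three-ray form of the left-over lemma

`Mx.ray_after538` : a colour carried by the unit circle about `z` just after the direction `t0` is
absent on the ray `z + r * (I * cis t0)`; `Mx.ray_before538` : just before, on the opposite ray.

`Sees T z p q y0` : near `y0`, off the circle about `z`, every unit circle has a point with palette
inside `{p, q}`.  It follows from `Left2`, or from rays (`SRay`) on both sides.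

`Irr.near_of_sees538`, `Irr.no_silent538` : the left-over lemma and its corollary from `Sees`.
-/

open Set Filter Topology Metric

noncomputable section

namespace Vale.Agent.P032.Six

variable {k : ℕ} {U : Fin k → Set ℂ} {T : ℂ → Set (Fin k)}

/-- the squared distance from a point of the circle to a point of the orthogonal line -/
theorem dist_sq538 (z : ℂ) (t0 t r : ℝ) :
    dist (z + cis t) (z + r * (Complex.I * cis t0)) ^ 2 =
      1 - 2 * r * Real.sin (t - t0) + r ^ 2 := by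
  rw [sq_dist]
  simp only [Complex.add_re, Complex.add_im, Complex.mul_re, Complex.mul_im, Complex.ofReal_re,
    Complex.ofReal_im, Complex.I_re, Complex.I_im, cis_re, cis_im]
  rw [Real.sin_sub]
  have h1 := Real.sin_sq_add_cos_sq t
  have h2 := Real.sin_sq_add_cos_sq t0
  linear_combination h1 + r ^ 2 * h2

/-- **One-sided ray**: a colour carried just after the direction `t0` -/
theorem Mx.ray_after538 (h : Mx U) {z : ℂ} {t0 η : ℝ} (hη : 0 < η) {i : Fin k}
    (hJ : ∀ t : ℝ, t0 < t → t < t0 + η → i ∈ Pal U (z + cis t)) :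
    ∀ᶠ r : ℝ in 𝓝[>] 0, i ∉ Pal U (z + r * (Complex.I * cis t0)) := by
  set s := min (η / 2) 1 with hs
  have hs0 : 0 < s := by positivity
  have hs1 : s ≤ 1 := min_le_right _ _
  have hsη : s < η := lt_of_le_of_lt (min_le_left _ _) (by linarith)
  have hsin : 0 < Real.sin s := Real.sin_pos_of_pos_of_lt_pi hs0 (by linarith [Real.pi_gt_three])
  have hr : ∀ᶠ r : ℝ in 𝓝[>] 0, 0 < r ∧ r < 2 * Real.sin s ∧ r < 4 * s := by
    filter_upwards [self_mem_nhdsWithin,
      mem_nhdsWithin_of_mem_nhds (Iio_mem_nhds (show (0 : ℝ) < 2 * Real.sin s by linarith)),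
      mem_nhdsWithin_of_mem_nhds (Iio_mem_nhds (show (0 : ℝ) < 4 * s by linarith))]
      with r h1 h2 h3
    exact ⟨h1, h2, h3⟩
  filter_upwards [hr] with r ⟨hr0, hr1, hr2⟩
  have hd := dist_nonneg (x := z + cis (t0 + s)) (y := z + r * (Complex.I * cis t0))
  have hd' := dist_nonneg (x := z + cis (t0 + r / 4)) (y := z + r * (Complex.I * cis t0))
  refine h.swept (z := z) (t1 := t0 + s) (t2 := t0 + r / 4) ?_ ?_ ?_
  · intro t ht
    rw [uIcc_of_ge (by linarith)] at ht
    exact hJ t (by linarith [ht.1]) (by linarith [ht.2])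
  · have h1 := dist_sq538 z t0 (t0 + s) r
    rw [add_sub_cancel_left] at h1
    nlinarith
  · have h1 := dist_sq538 z t0 (t0 + r / 4) r
    rw [add_sub_cancel_left] at h1
    have h2 : Real.sin (r / 4) ≤ r / 4 := Real.sin_le (by linarith)
    nlinarith [mul_pos hr0 hr0, mul_le_mul_of_nonneg_left h2 hr0.le]

/-- **One-sided ray**: a colour carried just before the direction `t0` -/
theorem Mx.ray_before538 (h : Mx U) {z : ℂ} {t0 η : ℝ} (hη : 0 < η) {i : Fin k}
    (hJ : ∀ t : ℝ, t0 - η < t → t < t0 → i ∈ Pal U (z + cis t)) :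
    ∀ᶠ r : ℝ in 𝓝[>] 0, i ∉ Pal U (z - r * (Complex.I * cis t0)) := by
  set s := min (η / 2) 1 with hs
  have hs0 : 0 < s := by positivity
  have hs1 : s ≤ 1 := min_le_right _ _
  have hsη : s < η := lt_of_le_of_lt (min_le_left _ _) (by linarith)
  have hsin : 0 < Real.sin s := Real.sin_pos_of_pos_of_lt_pi hs0 (by linarith [Real.pi_gt_three])
  have hr : ∀ᶠ r : ℝ in 𝓝[>] 0, 0 < r ∧ r < 2 * Real.sin s ∧ r < 4 * s := by
    filter_upwards [self_mem_nhdsWithin,
      mem_nhdsWithin_of_mem_nhds (Iio_mem_nhds (show (0 : ℝ) < 2 * Real.sin s by linarith)),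
      mem_nhdsWithin_of_mem_nhds (Iio_mem_nhds (show (0 : ℝ) < 4 * s by linarith))]
      with r h1 h2 h3
    exact ⟨h1, h2, h3⟩
  filter_upwards [hr] with r ⟨hr0, hr1, hr2⟩
  have e : z - r * (Complex.I * cis t0) = z + ((-r : ℝ) : ℂ) * (Complex.I * cis t0) := by
    push_cast; ring
  rw [e]
  have hd := dist_nonneg (x := z + cis (t0 - s)) (y := z + ((-r : ℝ) : ℂ) * (Complex.I * cis t0))
  have hd' := dist_nonneg (x := z + cis (t0 - r / 4))
    (y := z + ((-r : ℝ) : ℂ) * (Complex.I * cis t0))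
  refine h.swept (z := z) (t1 := t0 - s) (t2 := t0 - r / 4) ?_ ?_ ?_
  · intro t ht
    rw [uIcc_of_le (by linarith)] at ht
    exact hJ t (by linarith [ht.1]) (by linarith [ht.2])
  · have h1 := dist_sq538 z t0 (t0 - s) (-r)
    rw [show t0 - s - t0 = -s by ring, Real.sin_neg] at h1
    nlinarith
  · have h1 := dist_sq538 z t0 (t0 - r / 4) (-r)
    rw [show t0 - r / 4 - t0 = -(r / 4) by ring, Real.sin_neg] at h1
    have h2 : Real.sin (r / 4) ≤ r / 4 := Real.sin_le (by linarith)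
    nlinarith [mul_pos hr0 hr0, mul_le_mul_of_nonneg_left h2 hr0.le]

/-- the points `z + r u`, `r > 0` small, have palettes inside `{p, q}` -/
def SRay (T : ℂ → Set (Fin k)) (z u : ℂ) (p q : Fin k) : Prop :=
  ∀ᶠ r : ℝ in 𝓝[>] 0, T (z + r * u) ⊆ {p, q}

/-- the ray of an event: `P` carried just after `t0`, `Q` carried just before `t0 + π` -/
theorem Irr.sray_of_event538 (h : Irr U T) {z : ℂ} {p q : Fin k} {t0 η : ℝ} (hη : 0 < η)
    {P Q : Set (Fin k)} (hsub : T z ⊆ P ∪ Q ∪ {p, q})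
    (hP : ∀ t : ℝ, t0 < t → t < t0 + η → P ⊆ Pal U (z + cis t))
    (hQ : ∀ t : ℝ, t0 + Real.pi - η < t → t < t0 + Real.pi → Q ⊆ Pal U (z + cis t)) :
    SRay T z (Complex.I * cis t0) p q := by
  have e1 : ∀ i : Fin k, ∀ᶠ r : ℝ in 𝓝[>] 0, i ∈ P →
      i ∉ Pal U (z + r * (Complex.I * cis t0)) := by
    intro i
    by_cases hi : i ∈ P
    · filter_upwards [h.mx.ray_after538 hη fun t h1 h2 => hP t h1 h2 hi] with r hr _
      exact hr
    · exact Eventually.of_forall fun r hr => absurd hr hi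
  have e2 : ∀ i : Fin k, ∀ᶠ r : ℝ in 𝓝[>] 0, i ∈ Q →
      i ∉ Pal U (z + r * (Complex.I * cis t0)) := by
    intro i
    by_cases hi : i ∈ Q
    · filter_upwards [h.mx.ray_before538 hη fun t h1 h2 => hQ t h1 h2 hi] with r hr _
      rw [cis_add_pi] at hr
      have e : z - (r : ℂ) * (Complex.I * -cis t0) = z + r * (Complex.I * cis t0) := by ring
      rwa [e] at hr
    · exact Eventually.of_forall fun r hr => absurd hr hi
  have tz : Tendsto (fun r : ℝ => z + r * (Complex.I * cis t0)) (𝓝[>] 0) (𝓝 z) := by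
    have hc : Continuous fun r : ℝ => z + r * (Complex.I * cis t0) := by fun_prop
    have := hc.tendsto 0
    simp only [Complex.ofReal_zero, zero_mul, add_zero] at this
    exact this.mono_left nhdsWithin_le_nhds
  filter_upwards [eventually_all.2 e1, eventually_all.2 e2, tz.eventually (h.nhd z)]
    with r h1 h2 h3 i hi
  have h4 := h.sub _ hi
  rcases hsub (h3 hi) with (h5 | h5) | h5
  · exact absurd h4 (h1 i h5)
  · exact absurd h4 (h2 i h5)
  · exact h5

/-- near `y0`, off the circle about `z`, every unit circle has a point with palette in `{p, q}` -/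
def Sees (T : ℂ → Set (Fin k)) (z : ℂ) (p q : Fin k) (y0 : ℂ) : Prop :=
  ∀ᶠ w in 𝓝 y0, dist w z ≠ 1 → ∃ x, dist w x = 1 ∧ T x ⊆ {p, q}

theorem Sees.symm {z y0 : ℂ} {p q : Fin k} (h : Sees T z p q y0) : Sees T z q p y0 := by
  unfold Sees at h ⊢
  rwa [Set.pair_comm q p]

theorem Irr.sees_of_left2 (h : Irr U T) {z y0 : ℂ} {p q : Fin k} {t0 : ℝ}
    (hL : Left2 U T z p q t0) (hy0 : dist y0 z = 1) : Sees T z p q y0 := by
  obtain ⟨η, hη, hline⟩ := h.left_line hL
  have hn : ‖y0 - z‖ = 1 := by rw [← dist_eq_norm]; exact hy0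
  obtain ⟨t, ht, hip⟩ := exists_dir hn t0 hη
  obtain ⟨δ, hδ, hd⟩ := hline t ht
  filter_upwards [line_crossing (z := z) (u := Complex.I * cis t) (y := y0)
    (by rw [dist_comm]; exact hy0) hip hδ] with w hw hwz
  obtain ⟨r, hr, hrw⟩ := hw
  have hr0 : r ≠ 0 := by
    rintro rfl
    rw [Complex.ofReal_zero, zero_mul, add_zero] at hrw
    exact hwz (by rw [dist_comm]; exact hrw)
  exact ⟨_, by rw [dist_comm]; exact hrw, hd r hr0 hr⟩

/-- the points outside the circle see a ray pointing towards them -/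
theorem SRay.out538 {z u y0 : ℂ} {p q : Fin k} (hS : SRay T z u p q) (hy0 : dist y0 z = 1)
    (hip : 0 < ip u (y0 - z)) :
    ∀ᶠ w in 𝓝 y0, 1 < dist w z → ∃ x, dist w x = 1 ∧ T x ⊆ {p, q} := by
  obtain ⟨δ, hδ, hd⟩ := mem_nhdsGT_iff_exists_Ioo_subset.1 hS
  rw [mem_Ioi] at hδ
  have h0 : 0 ≤ ip u u := by unfold ip; nlinarith [sq_nonneg u.re, sq_nonneg u.im]
  obtain ⟨r, hr0, hrδ, hr⟩ : ∃ r : ℝ, 0 < r ∧ r < δ ∧ r * ip u u < 2 * ip u (y0 - z) := by
    refine ⟨min (δ / 2) (ip u (y0 - z) / (ip u u + 1)), by positivity,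
      lt_of_le_of_lt (min_le_left _ _) (by linarith), ?_⟩
    have h1 : min (δ / 2) (ip u (y0 - z) / (ip u u + 1)) ≤ ip u (y0 - z) / (ip u u + 1) :=
      min_le_right _ _
    have h2 : ip u (y0 - z) / (ip u u + 1) * ip u u ≤ ip u (y0 - z) := by
      rw [div_mul_eq_mul_div, div_le_iff₀ (by linarith)]
      nlinarith
    nlinarith [mul_le_mul_of_nonneg_right h1 h0]
  have h3 : dist y0 (z + r * u) < 1 := by
    have h4 := sq_line z u y0 r
    rw [dist_comm z y0, hy0] at h4
    have h5 := dist_nonneg (x := z + r * u) (y := y0)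
    rw [dist_comm]
    nlinarith
  have e1 : ∀ᶠ w in 𝓝 y0, dist w (z + r * u) < 1 :=
    (continuous_id.dist continuous_const).continuousAt.eventually (Iio_mem_nhds h3)
  filter_upwards [e1] with w hw hwz
  have hcont : ContinuousOn (fun t : ℝ => dist w (z + t * u)) (uIcc 0 r) := by fun_prop
  have hmem : (1 : ℝ) ∈ uIcc (dist w (z + (0 : ℝ) * u)) (dist w (z + r * u)) := by
    simp only [Complex.ofReal_zero, zero_mul, add_zero]
    rw [uIcc_of_ge (by linarith)]
    exact ⟨hw.le, hwz.le⟩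
  obtain ⟨t, ht, ht1⟩ := intermediate_value_uIcc hcont hmem
  rw [uIcc_of_le hr0.le] at ht
  have ht0 : t ≠ 0 := by
    rintro rfl
    simp only [Complex.ofReal_zero, zero_mul, add_zero] at ht1
    linarith
  exact ⟨z + t * u, ht1, hd ⟨lt_of_le_of_ne ht.1 (Ne.symm ht0), lt_of_le_of_lt ht.2 hrδ⟩⟩

/-- the points inside the circle see a ray pointing away from them -/
theorem SRay.in538 {z u y0 : ℂ} {p q : Fin k} (hS : SRay T z u p q) (hy0 : dist y0 z = 1)
    (hip : ip u (y0 - z) < 0) :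
    ∀ᶠ w in 𝓝 y0, dist w z < 1 → ∃ x, dist w x = 1 ∧ T x ⊆ {p, q} := by
  obtain ⟨δ, hδ, hd⟩ := mem_nhdsGT_iff_exists_Ioo_subset.1 hS
  rw [mem_Ioi] at hδ
  have h0 : 0 ≤ ip u u := by unfold ip; nlinarith [sq_nonneg u.re, sq_nonneg u.im]
  have h3 : 1 < dist y0 (z + (δ / 2 : ℝ) * u) := by
    have h4 := sq_line z u y0 (δ / 2)
    rw [dist_comm z y0, hy0] at h4
    have h5 := dist_nonneg (x := z + (δ / 2 : ℝ) * u) (y := y0)
    rw [dist_comm]
    nlinarith [mul_pos hδ (neg_pos.2 hip), mul_nonneg (sq_nonneg (δ / 2)) h0]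
  have e1 : ∀ᶠ w in 𝓝 y0, 1 < dist w (z + (δ / 2 : ℝ) * u) :=
    (continuous_id.dist continuous_const).continuousAt.eventually (Ioi_mem_nhds h3)
  filter_upwards [e1] with w hw hwz
  have hcont : ContinuousOn (fun t : ℝ => dist w (z + t * u)) (uIcc 0 (δ / 2)) := by fun_prop
  have hmem : (1 : ℝ) ∈ uIcc (dist w (z + (0 : ℝ) * u)) (dist w (z + (δ / 2 : ℝ) * u)) := by
    simp only [Complex.ofReal_zero, zero_mul, add_zero]
    rw [uIcc_of_le (by linarith)]
    exact ⟨hwz.le, hw.le⟩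
  obtain ⟨t, ht, ht1⟩ := intermediate_value_uIcc hcont hmem
  rw [uIcc_of_le (by linarith)] at ht
  have ht0 : t ≠ 0 := by
    rintro rfl
    simp only [Complex.ofReal_zero, zero_mul, add_zero] at ht1
    linarith
  exact ⟨z + t * u, ht1, hd ⟨lt_of_le_of_ne ht.1 (Ne.symm ht0), by
    show t < δ
    linarith [ht.2]⟩⟩

/-- two rays on different sides -/
theorem sees_of_rays538 {z u v y0 : ℂ} {p q : Fin k} (hu : SRay T z u p q) (hv : SRay T z v p q)
    (hy0 : dist y0 z = 1) (hip : 0 < ip u (y0 - z)) (hip' : ip v (y0 - z) < 0) :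
    Sees T z p q y0 := by
  filter_upwards [hu.out538 hy0 hip, hv.in538 hy0 hip'] with w h1 h2 hwz
  rcases lt_or_gt_of_ne hwz with h3 | h3
  · exact h2 h3
  · exact h1 h3

/-- three rays with sum zero -/
theorem sees_of_three538 {z u v w y0 : ℂ} {p q : Fin k} (hu : SRay T z u p q)
    (hv : SRay T z v p q) (hw : SRay T z w p q) (hsum : u + v + w = 0) (hcr : cr u v ≠ 0)
    (hy0 : dist y0 z = 1) : Sees T z p q y0 := by
  have hn : ‖y0 - z‖ = 1 := by rw [← dist_eq_norm]; exact hy0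
  have hre : u.re + v.re + w.re = 0 := by
    have := congrArg Complex.re hsum
    simpa using this
  have him : u.im + v.im + w.im = 0 := by
    have := congrArg Complex.im hsum
    simpa using this
  set n := y0 - z with hn0
  have hs : ip u n + ip v n + ip w n = 0 := by
    unfold ip
    linear_combination n.re * hre + n.im * him
  have hnz : ¬ (ip u n = 0 ∧ ip v n = 0) := by
    rintro ⟨h1, h2⟩
    unfold ip at h1 h2
    have h3 : cr u v * n.re = 0 := by unfold cr; linear_combination v.im * h1 - u.im * h2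
    have h4 : cr u v * n.im = 0 := by unfold cr; linear_combination u.re * h2 - v.re * h1
    have h5 := (mul_eq_zero.1 h3).resolve_left hcr
    have h6 := (mul_eq_zero.1 h4).resolve_left hcr
    have h7 := ip_sq hn
    rw [h5, h6] at h7
    norm_num at h7
  have hn1 : y0 - z = n := rfl
  rcases lt_trichotomy (ip u n) 0 with a | a | a
  · rcases lt_or_ge 0 (ip v n) with b | b
    · exact sees_of_rays538 hv hu hy0 b a
    · exact sees_of_rays538 hw hu hy0 (show 0 < ip w n by linarith) a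
  · rcases lt_trichotomy (ip v n) 0 with b | b | b
    · exact sees_of_rays538 hw hv hy0 (show 0 < ip w n by linarith) b
    · exact absurd ⟨a, b⟩ hnz
    · exact sees_of_rays538 hv hw hy0 b (show ip w n < 0 by linarith)
  · rcases lt_or_ge (ip v n) 0 with b | b
    · exact sees_of_rays538 hu hv hy0 a b
    · exact sees_of_rays538 hu hw hy0 a (show ip w n < 0 by linarith)

/-- **Left-over lemma** from `Sees` -/
theorem Irr.near_of_sees538 (h : Irr U T) {z y0 : ℂ} {p q : Fin k} (hS : Sees T z p q y0) :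
    ∀ᶠ w in 𝓝 y0, dist w z ≠ 1 → (w ∈ U p → q ∉ T w) ∧ (w ∈ U q → p ∉ T w) ∧
      ((T w).ncard ≤ 3 → p ∈ T w → q ∉ T w) := by
  filter_upwards [hS] with w hw hwz
  obtain ⟨x, hxw, hsub⟩ := hw hwz
  have hno : ∀ i ∈ Pal U w, x ∉ U i := fun i hi hxi =>
    h.mx.notMem' hxi (by rw [dist_comm]; exact hxw) hi
  have hno' : ∀ i, w ∈ U i → i ∉ T x := fun i hwi hxi => h.mx.notMem' hwi hxw (h.sub x hxi)
  refine ⟨fun hwp hq => ?_, fun hwq hp => ?_, fun h3 hp hq => ?_⟩
  · refine hno q (h.sub w hq) (h.mem_of_single fun i hi => ?_)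
    rcases hsub hi with rfl | h5
    · exact absurd hi (hno' _ hwp)
    · exact h5
  · refine hno p (h.sub w hp) (h.mem_of_single fun i hi => ?_)
    rcases hsub hi with h5 | h5
    · exact h5
    · rw [mem_singleton_iff] at h5
      subst h5
      exact absurd hi (hno' _ hwq)
  · refine h.not_sub (x := w) (y := x) (by rw [dist_comm]; exact hxw) h3 fun i hi => ?_
    rcases hsub hi with rfl | h5
    · exact hp
    · rw [mem_singleton_iff] at h5
      subst h5
      exact hq

/-- **No silent colour** from `Sees` -/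
theorem Irr.no_silent538 (h : Irr U T) {z : ℂ} (hz : z ∈ XX U) {s : Fin k} (hs : s ∈ T z)
    (hcl : ∀ y, dist y z = 1 → (T y).ncard ≤ 3)
    (hL : ∀ a, a ≠ s → ∀ y0, dist y0 z = 1 → Sees T z s a y0) : ∀ y, dist y z = 1 → s ∈ T y := by
  have hoff : ∀ θ : ℝ, ∀ᶠ w in 𝓝 (z + cis θ), dist w z ≠ 1 → ∀ a, a ≠ s → a ∈ T w →
      w ∉ U s ∧ s ∉ T w := by
    intro θ
    have hy0 : dist (z + cis θ) z = 1 := dist_add_cis z θ
    have e1 : ∀ a : Fin k, ∀ᶠ w in 𝓝 (z + cis θ), a ≠ s → dist w z ≠ 1 →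
        (w ∈ U s → a ∉ T w) ∧ ((T w).ncard ≤ 3 → s ∈ T w → a ∉ T w) := by
      intro a
      by_cases ha : a = s
      · exact Eventually.of_forall fun w h1 => absurd ha h1
      · filter_upwards [h.near_of_sees538 (hL a ha _ hy0)] with w hw _ hwz
        exact ⟨(hw hwz).1, (hw hwz).2.2⟩
    filter_upwards [eventually_all.2 e1, h.nhd (z + cis θ)] with w hw hsub hwz a ha haw
    have h3 : (T w).ncard ≤ 3 := (Set.ncard_le_ncard hsub (Set.toFinite _)).trans (hcl _ hy0)
    exact ⟨fun h4 => (hw a ha hwz).1 h4 haw, fun h4 => (hw a ha hwz).2 h3 h4 haw⟩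
  have hstep : ∀ θ : ℝ, s ∈ Pal U (z + cis θ) → ∀ᶠ t in 𝓝 θ, s ∈ T (z + cis t) := fun θ hθ =>
    h.spread hs (hoff θ) hθ
  set Y : Set ℝ := {θ | s ∈ Pal U (z + cis θ)} with hY
  have hYc : IsClosed Y :=
    isClosed_closure.preimage (continuous_const.add continuous_cis)
  have hYo : IsOpen Y := by
    rw [isOpen_iff_mem_nhds]
    intro θ hθ
    filter_upwards [hstep θ hθ] with t ht
    exact h.sub _ ht
  have hYne : Y.Nonempty := by
    obtain ⟨y, hy, hsy⟩ := h.partner_XX hz s
    obtain ⟨θ, hθ⟩ := exists_cis (u := y - z) (by rw [← dist_eq_norm, dist_comm]; exact hy)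
    exact ⟨θ, by
      have : z + cis θ = y := by rw [← hθ]; ring
      show s ∈ Pal U (z + cis θ)
      rw [this]; exact hsy⟩
  have hYu : Y = univ := IsClopen.eq_univ ⟨hYc, hYo⟩ hYne
  intro y hy
  obtain ⟨θ, hθ⟩ := exists_cis (u := y - z) (by rw [← dist_eq_norm]; exact hy)
  have e : z + cis θ = y := by rw [← hθ]; ring
  rw [← e]
  have h1 : θ ∈ Y := by rw [hYu]; exact mem_univ _
  exact (hstep θ h1).self_of_nhds

end Vale.Agent.P032.Six
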