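import Vale.Agent.P032.H538.State1
import Vale.Agent.P032.S5.H830.EndX

/-!
# P032, X.STATE.1b: the state at a three coloured point, with two-pair points in the disc

`DSt.Pt x` : three coloured point whose circle carries no bad apex, with odd ring and without a face
complementary to `T x` in its disc.  `Pt.st` : the state, a mod 2 cycle of the 2-skeleton of the
5-simplex with value `1` at the complement of `T x`.  `Pt.parity` : the value at `T x` is the number
mod 2 of the other complementary pairs.  `Pt.zero` : it vanishes if there are no such pairs of faces.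
-/

open Set Filter Topology Metric

noncomputable section

namespace Vale.Agent.P032.Six

open Vale.Agent.P032.S5 Vale.Agent.P032.Carr Vale.Agent.P032.S5.Tab

variable {U : Fin 6 → Set ℂ} {T : ℂ → Set (Fin 6)} {f : ℂ → Set (Fin 6)} {Z : Set ℂ} {c : ℂ}
  {R δ₀ : ℝ} {x : ℂ}

/-- all fine rings of the apex cover about `x` outside `T x` are odd -/
def RingOdd (T : ℂ → Set (Fin 6)) (Z : Set ℂ) (f : ℂ → Set (Fin 6)) (x : ℂ) : Prop :=
  ∀ d e : Fin 6, d ≠ e → d ∉ T x → e ∉ T x →
    ∀ᶠ δ in 𝓝[>] (0 : ℝ), ∀ᶠ j : ℕ in atTop, ∀ h : ℕ → Fin 6, h (6 * 2 ^ j) = h 0 →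
      (∀ k ≤ 6 * 2 ^ j, h k ∈ apx T Z δ (hp T f (T x)) (pt x j (2 ^ j) k) ∧ h k ∉ T x) →
        ∑ k ∈ Finset.range (6 * 2 ^ j), eps (h k) (h (k + 1)) {d, e} = 1

/-- a three coloured point where the state is defined -/
structure PtD (T : ℂ → Set (Fin 6)) (Z : Set ℂ) (f : ℂ → Set (Fin 6)) (c : ℂ) (R : ℝ) (x : ℂ) :
    Prop where
  dx : dist x c ≤ R - 1
  three : (T x).ncard = 3
  apex : ∀ z, dist z x = 1 → 4 ≤ (T z).ncard → ¬ T z \ f z ⊆ T x
  ring : RingOdd T Z f x
  nof : ∀ u ∈ closedBall x 1, ¬ FcD T f u (T x)ᶜ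

namespace PtD

variable (D : DSt U T Z f c R δ₀) (P : PtD T Z f c R x)
include D P

theorem lamB : LamB (fun _ => T x) {x} (fun a _ => lamT T Z f δ₀ a x) where
  symm := fun a _ b c => lamT_symm a x b c
  diag := fun a _ b => lamT_diag a x b
  self := fun a _ b => lamT_self a x b
  loc := fun a y _ _ => Eventually.of_forall fun _ => rfl
  euler := fun a y _ ha b hb => D.euler P.dx ha hb
  agree := fun y _ a ha b hb d => by
    refine D.agree3 P.dx P.three.le ha hb (fun z hz h4 hsub => P.apex z hz h4 (hsub.trans ?_)) d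
    rintro i (rfl | rfl)
    · exact ha
    · exact hb
  wind := fun y _ a b g hab hag hbg hT d e hde hd he => by
    have hd' := hd
    have he' := he
    rw [hT] at hd' he'
    simp only [Set.mem_insert_iff, Set.mem_singleton_iff, not_or] at hd' he'
    obtain ⟨k, hk⟩ : ∃ k, [a, b, g, d, e, k].Nodup := by
      apply exists_fourth
      simp only [List.nodup_cons, List.mem_cons, List.not_mem_nil, or_false, not_or,
        List.nodup_nil, and_true, not_false_eq_true]
      tauto
    have hcc : ({a, b, g} : Set (Fin 6))ᶜ = {d, e, k} := by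
      have h1 : ({a, b, g, d, e, k} : Finset (Fin 6)) = Finset.univ := by
        apply Finset.eq_univ_of_card
        have := List.toFinset_card_of_nodup hk
        simpa using this
      ext i
      have hi : i ∈ ({a, b, g, d, e, k} : Finset (Fin 6)) := by rw [h1]; simp
      simp only [List.nodup_cons, List.mem_cons, List.not_mem_nil, or_false, not_or] at hk
      simp only [Finset.mem_insert, Finset.mem_singleton] at hi
      simp only [Set.mem_compl_iff, Set.mem_insert_iff, Set.mem_singleton_iff, not_or]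
      rcases hi with rfl | rfl | rfl | rfl | rfl | rfl <;> tauto
    refine D.hm.wind_T (D.rg P.dx) hk (fun y hy => ?_) (fun z hz hzx => ?_) (fun u hu hF => ?_) ?_
    · obtain ⟨i, hi, hi'⟩ := D.df.irr.not_sub' hy P.three.le
      exact ⟨i, hi, by rw [← hT]; exact hi'⟩
    · obtain ⟨i, hi, hi'⟩ := Set.not_subset.1 (P.apex z hzx (D.zs.four z hz))
      exact ⟨i, hi.1, hi.2, by rw [← hT]; exact hi'⟩
    · refine P.nof u hu ?_
      rw [hT, hcc]
      exact ⟨hF.1, fun h4 => hF.2 (D.memZ P.dx (mem_closedBall.1 hu) h4)⟩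
    · have h1 := P.ring d e hde hd he
      rw [hT] at h1
      exact h1

/-- the state at `x` -/
def _root_.Vale.Agent.P032.Six.stD (T : ℂ → Set (Fin 6)) (Z : Set ℂ) (f : ℂ → Set (Fin 6)) (δ₀ : ℝ)
    (x : ℂ) : Ch := S5.End.zc (fun _ => T x) (fun a _ => lamT T Z f δ₀ a x) x

omit D P in
theorem kf (x y : ℂ) : S5.End.Kf (fun _ => T x) y = S5.End.Kf T x := by
  ext i
  simp [S5.End.Kf]

omit D in
theorem card : (S5.End.Kf T x).card = 3 := by
  rw [← S5.End.ncard_Kf]; exact P.three

/-- the state is a cycle -/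
theorem isCyc : IsCyc (stD T Z f δ₀ x) :=
  EndF.zc_isCyc (lamB D P) (mem_singleton x) (by rw [kf]; exact P.card)

/-- its value at the complement of the palette is `1` -/
theorem compl : stD T Z f δ₀ x (S5.End.Kf T x)ᶜ = 1 := by
  have h1 := EndF.zc_compl (lamB D P) (mem_singleton x) (by rw [kf]; exact P.card)
  rwa [kf] at h1

/-- the values at the triples which contain a colour of `x` -/
theorem val {a b d : Fin 6} (hab : a ≠ b) (had : a ≠ d) (hbd : b ≠ d) (ha : a ∈ T x) :
    stD T Z f δ₀ x {a, b, d} = lamT T Z f δ₀ a x b d := by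
  rw [stD, EndF.zc_eq (lamB D P) (mem_singleton x) hab had hbd]
  exact zz_of_mem (K := fun _ => T x) ha b d

/-- **Support** -/
theorem supp {s : Finset (Fin 6)} (hs : s.card = 3) {t : Fin 6} (ht : t ∈ s) (htx : t ∈ T x)
    (hz : stD T Z f δ₀ x s ≠ 0) : ∃ u ∈ closedBall x 1, FcD T f u (s : Set (Fin 6)) ∧
      ∃ᶠ w in 𝓝[closedBall x 1 \ {u}] u, t ∈ T w := by
  obtain ⟨q, r, htq, htr, hqr, rfl⟩ := EndX.split3 hs ht
  rw [P.val D htq htr hqr htx] at hz
  have h1 := D.supp P.dx htx hz
  simpa using h1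

omit D P in
theorem exists_mem {s t : Finset (Fin 6)} (hs : s.card = 3) (ht : t.card = 3) (hst : s ≠ tᶜ) :
    ∃ i, i ∈ s ∧ i ∈ t := by
  obtain ⟨i, hi⟩ := EndF.inter_nonempty s t hs ht hst
  exact ⟨i, (Finset.mem_inter.1 hi).1, (Finset.mem_inter.1 hi).2⟩

/-- **Zero** : the value at the palette vanishes if no other complementary pair of faces is in the
closed disc -/
theorem zero (hcl : ∀ s : Finset (Fin 6), s.card = 3 → s ≠ S5.End.Kf T x → s ≠ (S5.End.Kf T x)ᶜ →
      stD T Z f δ₀ x s ≠ 0 → stD T Z f δ₀ x sᶜ ≠ 0 → False) :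
    stD T Z f δ₀ x (S5.End.Kf T x) = 0 := by
  refine parity' P.card (P.isCyc D) (P.compl D) fun s hs h1 h2 => ?_
  by_contra hcon
  rw [not_or] at hcon
  exact hcl s hs h1 h2 hcon.1 hcon.2

/-- the same with faces -/
theorem zero_face (hcl : ∀ s : Finset (Fin 6), s.card = 3 → s ≠ S5.End.Kf T x →
      s ≠ (S5.End.Kf T x)ᶜ → ∀ u ∈ closedBall x 1, ∀ u' ∈ closedBall x 1,
      FcD T f u (s : Set (Fin 6)) → FcD T f u' (s : Set (Fin 6))ᶜ → False) :
    stD T Z f δ₀ x (S5.End.Kf T x) = 0 := by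
  refine P.zero D fun s hs h1 h2 h3 h4 => ?_
  have hsc : sᶜ.card = 3 := by rw [Finset.card_compl, hs]; rfl
  obtain ⟨t, ht, ht'⟩ := exists_mem hs P.card h2
  obtain ⟨t', ht1, ht1'⟩ := exists_mem (s := sᶜ) (t := S5.End.Kf T x) hsc P.card
    (fun h => h1 (compl_injective h))
  obtain ⟨u, hu, hF, -⟩ := P.supp D hs ht (S5.End.mem_Kf.1 ht') h3
  obtain ⟨u', hu', hF', -⟩ := P.supp D hsc ht1 (S5.End.mem_Kf.1 ht1') h4
  rw [Finset.coe_compl] at hF'
  exact hcl s hs h1 h2 u hu u' hu' hF hF'

/-- **Parity** : the number of all complementary pairs in the state is even -/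
theorem parity : ∑ s ∈ (Finset.powersetCard 3 Finset.univ).filter
    (fun s : Finset (Fin 6) => (0 : Fin 6) ∈ s),
      stD T Z f δ₀ x s * stD T Z f δ₀ x sᶜ = 0 := Tab.parity (P.isCyc D)

end PtD

end Vale.Agent.P032.Six
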