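import Vale.Agent.P032.H169.ChainB

/-!
# P032: T1 points in the contact lemma of the J-chains

A T1 point `p` of the circle about a full two-pair point `z` (palette `S`, pairs `A`, `C`, `C` the pair
of the single arc, free colours `e`, `f`) has the palette `{e, f} ∪ A` and is no two-pair point.

* `Irr.l1_four538` : (L1) of `H169/H1` at a common point `p` with the palette `{e, f, y, n}`.
* `Irr.l2_538` : (L2) for all points `p` with at least three colours which do not have the palette of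
  the two-pair point `u`.
* `JCh.good538` : `JCh.good169` with T1 points and EE points (`Away538`).
* `JCh.false538` : no J-chains, from the conclusions `PC538`, `PF538` of the parity lemmas.
-/

open Set Filter Topology Metric

noncomputable section

namespace Vale.Agent.P032.Six

variable {k : ℕ} {U : Fin k → Set ℂ} {T : ℂ → Set (Fin k)}

/-- **(L1) at a point with the palette `{e, f, y, n}`** -/
theorem Irr.l1_four538 (h : Irr U T) {z u p : ℂ} {e f y n : Fin k} (he : e ∈ T u) (hf : f ∈ T u)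
    (hyu : y ∈ T u) (hnz : n ∈ T z) (hez : e ∉ T z) (hT : T p ⊆ {e, f, y, n})
    (h4 : (T u).ncard ≤ 4) (hpu : dist p u = 1) (hpz : dist p z = 1) (hmid : u + z ≠ 2 * p)
    (hno : ∀ g, ¬ Arc T u g {e, f}) :
    p ∈ closure {g | Arc T u g {e, y}} ∨ p ∈ closure {g | Arc T u g {f, y}} := by
  have huz : u ≠ z := by rintro rfl; exact hez he
  have hP : ¬ ∀ᶠ q in 𝓝[sphere u 1] p, n ∈ Pal U q := by
    intro h2
    rcases h.mx.partner_line hpu h2 hpz (h.sub z hnz) with h3 | h3
    · exact huz h3.symm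
    · exact hmid (by rw [add_comm]; exact h3)
  rw [Filter.not_eventually] at hP
  rw [← mem_union, ← closure_union, mem_closure_iff_nhds]
  intro W hW
  obtain ⟨W', hW'W, hW'o, hpW'⟩ := _root_.mem_nhds_iff.1 hW
  have eun : ∀ᶠ q in 𝓝[sphere u 1] p, T q ⊆ T p := mem_nhdsWithin_of_mem_nhds (h.nhd p)
  have eW : ∀ᶠ q in 𝓝[sphere u 1] p, q ∈ W' :=
    mem_nhdsWithin_of_mem_nhds (hW'o.mem_nhds hpW')
  obtain ⟨q, hq1, hq2, hq3, hq4⟩ := (hP.and_eventually
    (eun.and (eW.and self_mem_nhdsWithin))).exists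
  have hq4 : dist q u = 1 := hq4
  have hsub : T q ⊆ {e, f, y} := by
    intro i hi
    rcases hT (hq2 hi) with rfl | rfl | rfl | h5
    · simp
    · simp
    · simp
    · rw [mem_singleton_iff] at h5
      subst h5
      exact absurd (h.sub q hi) hq1
  have hsu : T q ⊆ T u := by
    intro i hi
    rcases hsub hi with rfl | rfl | h5
    · exact he
    · exact hf
    · rw [mem_singleton_iff] at h5; subst h5; exact hyu
  obtain ⟨g, hgW, hgu, hg, hgq, hg2, hg3⟩ := h.arc_of_sub hq4 hsu (hW'o.mem_nhds hq3)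
  have hcard : (T g).ncard = 2 := by
    have h5 : (T u \ T g).ncard + (T g).ncard = (T u).ncard :=
      Set.ncard_sdiff_add_ncard_of_subset (hgq.trans hsu) (Set.toFinite _)
    omega
  have hsub' := hgq.trans hsub
  have hA : ∀ {a b : Fin k}, a ∈ T g → b ∈ T g → a ≠ b → Arc T u g {a, b} := by
    intro a b ha hb hab
    have h5 : T g = {a, b} := pair_eq169 hcard ha hb hab
    refine ⟨hgu, ?_⟩
    filter_upwards [hg] with q' hq'
    rw [hq', h5]
  refine ⟨g, hW'W hgW, ?_⟩
  by_cases hye : y ∈ T g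
  · -- another colour
    obtain ⟨j, hj, hjy⟩ : ∃ j ∈ T g, j ≠ y := by
      by_contra hcon
      push Not at hcon
      have h5 : T g ⊆ {y} := fun j hj => hcon j hj
      have h6 := Set.ncard_le_ncard h5 (Set.toFinite _)
      rw [Set.ncard_singleton] at h6
      omega
    rcases hsub' hj with rfl | rfl | h5
    · exact Or.inl (hA hj hye hjy)
    · exact Or.inr (hA hj hye hjy)
    · exact absurd h5 hjy
  · exfalso
    obtain ⟨a, b, hab, hTg⟩ := Set.ncard_eq_two.1 hcard
    have ha : a ∈ T g := by rw [hTg]; simp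
    have hb : b ∈ T g := by rw [hTg]; simp
    have ha' : a = e ∨ a = f := by
      rcases hsub' ha with h5 | h5 | h5
      · exact Or.inl h5
      · exact Or.inr h5
      · rw [mem_singleton_iff] at h5; subst h5; exact absurd ha hye
    have hb' : b = e ∨ b = f := by
      rcases hsub' hb with h5 | h5 | h5
      · exact Or.inl h5
      · exact Or.inr h5
      · rw [mem_singleton_iff] at h5; subst h5; exact absurd hb hye
    rcases ha' with rfl | rfl <;> rcases hb' with rfl | rfl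
    · exact hab rfl
    · exact hno g (hA ha hb hab)
    · exact hno g (hA hb ha hab.symm)
    · exact hab rfl

/-- points with at least three colours and another palette are not in the closure of a full arc -/
theorem full_closure538 {u p : ℂ} {a b : Fin k} {α β : ℝ} (hα : T (u + cis α) = T u)
    (hβ : T (u + cis β) = T u) (harc : ∀ θ ∈ uIoo α β, T (u + cis θ) = {a, b})
    (honly : ∀ q, dist q u = 1 → T q = {a, b} → ∃ θ ∈ uIoo α β, q = u + cis θ)
    (hab : a ≠ b) (hp3 : 3 ≤ (T p).ncard) (hpu : T p ≠ T u) :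
    p ∉ closure {g | Arc T u g {a, b}} := by
  intro hp
  have h1 : {g | Arc T u g {a, b}} ⊆ (fun θ => u + cis θ) '' uIcc α β := by
    intro g hg
    obtain ⟨θ, hθ, rfl⟩ := honly g hg.1 hg.mem
    exact ⟨θ, uIoo_subset_uIcc_self hθ, rfl⟩
  have h2 : IsClosed ((fun θ => u + cis θ) '' uIcc α β) :=
    (isCompact_uIcc.image (continuous_const.add continuous_cis)).isClosed
  obtain ⟨θ, hθ, hθp⟩ := closure_minimal h1 h2 hp
  simp only at hθp
  by_cases hαθ : θ = α
  · exact hpu (by rw [← hθp, hαθ, hα])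
  by_cases hβθ : θ = β
  · exact hpu (by rw [← hθp, hβθ, hβ])
  have h3 : θ ∈ uIoo α β := by
    rw [uIcc, mem_Icc] at hθ
    rw [uIoo, mem_Ioo]
    refine ⟨lt_of_le_of_ne hθ.1 ?_, lt_of_le_of_ne hθ.2 ?_⟩
    · intro h5
      rcases le_total α β with h6 | h6
      · rw [inf_eq_left.2 h6] at h5; exact hαθ h5.symm
      · rw [inf_eq_right.2 h6] at h5; exact hβθ h5.symm
    · intro h5
      rcases le_total α β with h6 | h6
      · rw [sup_eq_right.2 h6] at h5; exact hβθ h5
      · rw [sup_eq_left.2 h6] at h5; exact hαθ h5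
  rw [← hθp, harc θ h3, Set.ncard_pair hab] at hp3
  omega

theorem Irr.l2_aux538 (h : Irr U T)
    (hmin : ∀ z, 4 ≤ (T z).ncard → ∀ s, s ⊆ T z → s ≠ T z →
      ¬ ∀ᶠ w in 𝓝 z, ∃ i ∈ s, w ∈ U i ∨ (w ∈ XX U ∧ i ∈ Pal U w))
    {u g : ℂ} {e f x x' : Fin k} (hTu : T u = {e, f, x, x'}) (hef : e ≠ f) (hxe : x ≠ e)
    (hxf : x ≠ f) (hxe' : x' ≠ e) (hxf' : x' ≠ f) (hxx : x ≠ x')
    (hFu : (∃ a b c d, DPt T u a b c d) → Full T u) (hg : Arc T u g {e, x}) :
    ∃ y, (y = x ∨ y = x') ∧ ∀ p, 3 ≤ (T p).ncard →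
      ((∃ a b c d, DPt T u a b c d) → T p ≠ T u) →
      p ∉ closure {g | Arc T u g {e, y}} ∧ p ∉ closure {g | Arc T u g {f, y}} := by
  have h4 : (T u).ncard = 4 := by
    rw [hTu, Set.ncard_insert_of_notMem (by simp [hef, hxe.symm, hxe'.symm]),
      Set.ncard_insert_of_notMem (by simp [hxf.symm, hxf'.symm]), Set.ncard_pair hxx]
  have se : e ∈ T u := by rw [hTu]; simp
  have sf : f ∈ T u := by rw [hTu]; simp
  have sx : x ∈ T u := by rw [hTu]; simp
  have sx' : x' ∈ T u := by rw [hTu]; simp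
  have sub : ∀ {a b : Fin k}, a ∈ T u → b ∈ T u → ({a, b} : Set (Fin k)) ⊆ T u := by
    rintro a b ha hb i (rfl | hi)
    · exact ha
    · rw [mem_singleton_iff] at hi; subst hi; exact hb
  have nocl : ∀ {P : Set (Fin k)} {p : ℂ}, (∀ g, ¬ Arc T u g P) → p ∉ closure {g | Arc T u g P} := by
    intro P p hP
    have : {g | Arc T u g P} = ∅ := by ext g; simp [hP g]
    rw [this, closure_empty]
    exact notMem_empty p
  by_cases hg2 : ∃ g', Arc T u g' {f, x'}
  · -- `u` is a two-pair point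
    obtain ⟨g', hg'⟩ := hg2
    have hpal : T u = {e, x, f, x'} := by
      rw [hTu]; ext i; simp only [mem_insert_iff, mem_singleton_iff]; tauto
    have hD : DPt T u e x f x' :=
      ⟨hpal, hef, hxe'.symm, hxf, hxx, hxe.symm, hxf'.symm, ⟨g, hg⟩, ⟨g', hg'⟩⟩
    have hex : ∃ a b c d, DPt T u a b c d := ⟨e, x, f, x', hD⟩
    obtain ⟨a, b, c, d, α, β, hDab, -, -, hα, hβ, harc, honly, -⟩ := hFu hex
    obtain ⟨p0, hp0⟩ := hDab.arc1
    have habs : ({a, b} : Set (Fin k)) ⊆ T u := by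
      rw [hDab.pal]
      rintro i (hi | hi)
      · exact Or.inl hi
      · exact Or.inr (Or.inl hi)
    rcases h.arcs_disj169 hmin h4 habs (sub se sx) (Set.ncard_pair hDab.ab)
      (Set.ncard_pair hxe.symm) hp0 hg with h1 | h1
    · refine ⟨x, Or.inl rfl, fun p hp3 hpu => ⟨?_, nocl fun g'' hg'' => ?_⟩⟩
      · rw [← h1]
        exact full_closure538 hα hβ harc honly hDab.ab hp3 (hpu hex)
      · rcases h.arcs_disj169 hmin h4 (sub se sx) (sub sf sx) (Set.ncard_pair hxe.symm)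
          (Set.ncard_pair hxf.symm) hg hg'' with h2 | h2
        · have : f ∈ ({e, x} : Set (Fin k)) := by rw [h2]; simp
          rcases this with h3 | h3
          · exact hef h3.symm
          · exact hxf h3.symm
        · exact Set.disjoint_left.1 h2 (by simp : x ∈ ({e, x} : Set (Fin k))) (by simp)
    · have h5 : ({a, b} : Set (Fin k)) = {f, x'} := by
        refine Set.eq_of_subset_of_ncard_le ?_ ?_ (Set.toFinite _)
        · intro i hi
          have h6 := habs hi
          rw [hTu] at h6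
          rcases h6 with h6 | h6 | h6 | h6
          · exact absurd (by rw [h6]; simp) (Set.disjoint_left.1 h1 hi)
          · exact Or.inl h6
          · exact absurd (by rw [h6]; simp) (Set.disjoint_left.1 h1 hi)
          · exact Or.inr h6
        · rw [Set.ncard_pair hxf'.symm, Set.ncard_pair hDab.ab]
      refine ⟨x', Or.inr rfl, fun p hp3 hpu => ⟨nocl fun g'' hg'' => ?_, ?_⟩⟩
      · rcases h.arcs_disj169 hmin h4 (sub se sx) (sub se sx') (Set.ncard_pair hxe.symm)
          (Set.ncard_pair hxe'.symm) hg hg'' with h2 | h2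
        · have : x ∈ ({e, x'} : Set (Fin k)) := by rw [← h2]; simp
          rcases this with h3 | h3
          · exact hxe h3
          · exact hxx h3
        · exact Set.disjoint_left.1 h2 (by simp : e ∈ ({e, x} : Set (Fin k))) (by simp)
      · rw [← h5]
        exact full_closure538 hα hβ harc honly hDab.ab hp3 (hpu hex)
  · push Not at hg2
    refine ⟨x', Or.inr rfl, fun p hp3 _ => ⟨nocl fun g'' hg'' => ?_, nocl fun g'' hg'' => hg2 g'' hg''⟩⟩
    rcases h.arcs_disj169 hmin h4 (sub se sx) (sub se sx') (Set.ncard_pair hxe.symm)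
      (Set.ncard_pair hxe'.symm) hg hg'' with h2 | h2
    · have : x ∈ ({e, x'} : Set (Fin k)) := by rw [← h2]; simp
      rcases this with h3 | h3
      · exact hxe h3
      · exact hxx h3
    · exact Set.disjoint_left.1 h2 (by simp : e ∈ ({e, x} : Set (Fin k))) (by simp)

/-- **(L2)** for all points with at least three colours and another palette -/
theorem Irr.l2_538 (h : Irr U T)
    (hmin : ∀ z, 4 ≤ (T z).ncard → ∀ s, s ⊆ T z → s ≠ T z →
      ¬ ∀ᶠ w in 𝓝 z, ∃ i ∈ s, w ∈ U i ∨ (w ∈ XX U ∧ i ∈ Pal U w))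
    {u : ℂ} {e f x : Fin k} (he : e ∈ T u) (hf : f ∈ T u) (hx : x ∈ T u) (hef : e ≠ f)
    (hxe : x ≠ e) (hxf : x ≠ f) (h4 : (T u).ncard ≤ 4)
    (hFu : (∃ a b c d, DPt T u a b c d) → Full T u) :
    ∃ y ∈ T u, y ≠ e ∧ y ≠ f ∧ ((T u).ncard ≤ 3 → y = x) ∧ ∀ p, 3 ≤ (T p).ncard →
      ((∃ a b c d, DPt T u a b c d) → T p ≠ T u) →
      p ∉ closure {g | Arc T u g {e, y}} ∧ p ∉ closure {g | Arc T u g {f, y}} := by
  have nocl : ∀ {P : Set (Fin k)} {p : ℂ}, (∀ g, ¬ Arc T u g P) → p ∉ closure {g | Arc T u g P} := by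
    intro P p hP
    have : {g | Arc T u g P} = ∅ := by ext g; simp [hP g]
    rw [this, closure_empty]
    exact notMem_empty p
  by_cases h3 : (T u).ncard ≤ 3
  · refine ⟨x, hx, hxe, hxf, fun _ => rfl, fun p _ _ => ⟨nocl fun g => ?_, nocl fun g => ?_⟩⟩
    · exact h.no_arc_three169 hxe.symm he hx h3
    · exact h.no_arc_three169 hxf.symm hf hx h3
  have h4' : (T u).ncard = 4 := by omega
  -- the fourth colour
  obtain ⟨x', hx', hxe', hxf', hxx⟩ : ∃ x' ∈ T u, x' ≠ e ∧ x' ≠ f ∧ x ≠ x' := by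
    by_contra hcon
    push Not at hcon
    have h5 : T u ⊆ {e, f, x} := by
      intro i hi
      by_cases h6 : i = e
      · exact Or.inl h6
      by_cases h7 : i = f
      · exact Or.inr (Or.inl h7)
      exact Or.inr (Or.inr (hcon i hi h6 h7).symm)
    have h6 := Set.ncard_le_ncard h5 (Set.toFinite _)
    rw [Set.ncard_insert_of_notMem (by simp [hef, hxe.symm]), Set.ncard_pair hxf.symm] at h6
    omega
  have hTu : T u = {e, f, x, x'} := by
    symm
    refine Set.eq_of_subset_of_ncard_le ?_ ?_ (Set.toFinite _)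
    · rintro i (rfl | rfl | rfl | hi)
      · exact he
      · exact hf
      · exact hx
      · rw [mem_singleton_iff] at hi; subst hi; exact hx'
    · rw [Set.ncard_insert_of_notMem (by simp [hef, hxe.symm, hxe'.symm]),
        Set.ncard_insert_of_notMem (by simp [hxf.symm, hxf'.symm]), Set.ncard_pair hxx]
      exact h4
  by_cases hA : ∃ g, Arc T u g {e, x}
  · obtain ⟨g, hg⟩ := hA
    obtain ⟨y, hy, hyp⟩ := h.l2_aux538 hmin hTu hef hxe hxf hxe' hxf' hxx hFu hg
    rcases hy with rfl | rfl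
    · exact ⟨y, hx, hxe, hxf, fun h => absurd h h3, hyp⟩
    · exact ⟨y, hx', hxe', hxf', fun h => absurd h h3, hyp⟩
  by_cases hB : ∃ g, Arc T u g {f, x}
  · obtain ⟨g, hg⟩ := hB
    have hTu' : T u = {f, e, x, x'} := by
      rw [hTu]; ext i; simp only [mem_insert_iff, mem_singleton_iff]; tauto
    obtain ⟨y, hy, hyp⟩ := h.l2_aux538 hmin hTu' hef.symm hxf hxe hxf' hxe' hxx hFu hg
    rcases hy with rfl | rfl
    · exact ⟨y, hx, hxe, hxf, fun h => absurd h h3, fun p hp hp' => (hyp p hp hp').symm⟩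
    · exact ⟨y, hx', hxe', hxf', fun h => absurd h h3, fun p hp hp' => (hyp p hp hp').symm⟩
  push Not at hA hB
  exact ⟨x, hx, hxe, hxf, fun _ => rfl, fun p _ _ => ⟨nocl hA, nocl hB⟩⟩

/-- every point at distance one from `q` with the colours `e`, `f` is opposite to `z` (EE points) -/
def Away538 (T : ℂ → Set (Fin k)) (z q : ℂ) (e f : Fin k) : Prop :=
  ∀ u, dist u q = 1 → e ∈ T u → f ∈ T u → u + z = 2 * q

/-- the conclusion of the parity lemma at `z` -/
def PC538 (T : ℂ → Set (Fin k)) (z : ℂ) (e f : Fin k) : Prop :=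
  ∃ u x, dist u z ≤ 1 ∧ (dist u z = 1 → (T u).ncard ≤ 3) ∧ e ∈ T u ∧ f ∈ T u ∧ x ≠ e ∧ x ≠ f ∧
    InnO T z u x ∧ ∀ g, dist g u = 1 → ¬ T g ⊆ {e, f}

/-- the conclusion of the parity lemma with filling at `z` -/
def PF538 (T : ℂ → Set (Fin k)) (z : ℂ) (e f : Fin k) : Prop :=
  ∀ (a : Fin k) (W Z : Set ℂ), W.Finite → z ∈ W →
    (∀ z, (∀ w ∈ W, dist z w ≤ 1) → (∃ w ∈ W, dist z w = 1) → z ∈ Z) →
    (∀ y ∈ Z, a ∈ T y ∧ e ∉ T y) → a ≠ e → a ≠ f →
    ∃ u x, dist u z ≤ 1 ∧ (dist u z = 1 → (T u).ncard ≤ 3) ∧ e ∈ T u ∧ f ∈ T u ∧ x ≠ e ∧ x ≠ f ∧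
      InnO T z u x ∧ (∃ w ∈ W, 1 < dist u w) ∧ ∀ g, dist g u = 1 → ¬ T g ⊆ {e, f}

theorem Irr.pc538 (h : Irr U T) {z : ℂ} {e f : Fin k} (hP : Par T z e f)
    (hO : ∀ u, dist u z = 1 → e ∈ T u → f ∈ T u → (T u).ncard ≤ 3) : PC538 T z e f := by
  obtain ⟨u, x, hu, he, hf, hxe, hxf, hin, hno⟩ := h.par715 hP hO h.closed h.ne
    (fun q _ => rfl) (fun w hw => hw) fun w hw => hw
  exact ⟨u, x, hu, fun h1 => hO u h1 he hf, he, hf, hxe, hxf, hin, hno⟩

theorem Irr.pf538 (h : Irr U T) {z : ℂ} {e f : Fin k} (hP : Par T z e f)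
    (hO : ∀ u, dist u z = 1 → e ∈ T u → f ∈ T u → (T u).ncard ≤ 3) : PF538 T z e f := by
  intro a W Z hW hzW hZ hZT hae haf
  obtain ⟨u, x, hu, he, hf, -, hxe, hxf, hin, hw, hno⟩ :=
    h.par_fill715 hW hzW hP hO hZ hZT hae haf
  exact ⟨u, x, hu, fun h1 => hO u h1 he hf, he, hf, hxe, hxf, hin, hw, hno⟩

namespace JCh

variable {V : ℕ → ℂ} {ρ : ℕ → ℝ} {S : Set (Fin k)} {C : ℕ → Set (Fin k)}

/-- points of the palette `S` on the circles are neighbours in the chain -/
theorem pal_end538 (J : JCh T V ρ S C) {j : ℕ} (hF : Full T (V (j + 1))) {p : ℂ}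
    (hp : dist p (V (j + 1)) = 1) (hT : T p = S) : p = V j ∨ p = V (j + 2) := by
  obtain ⟨a, b, c, d, α, β, -, -, -, -, -, -, -, hends⟩ := hF
  have e1 : dist (V j) (V (j + 1)) = 1 := J.rods.unit j
  have e2 : dist (V (j + 2)) (V (j + 1)) = 1 := by
    rw [dist_comm]; exact J.rods.unit (j + 1)
  have k1 := hends _ e1 (by rw [J.pal, J.pal])
  have k2 := hends _ e2 (by rw [J.pal, J.pal])
  have k3 := hends p hp (by rw [hT, J.pal])
  have hne := J.ends_ne169 j
  rcases k1 with k1 | k1 <;> rcases k2 with k2 | k2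
  · exact absurd (k1.trans k2.symm) hne
  · rcases k3 with k3 | k3
    · exact Or.inl (k3.trans k1.symm)
    · exact Or.inr (k3.trans k2.symm)
  · rcases k3 with k3 | k3
    · exact Or.inr (k3.trans k2.symm)
    · exact Or.inl (k3.trans k1.symm)
  · exact absurd (k1.trans k2.symm) hne

/-- **the point of the parity lemma, with T1 points and EE points on the circles** -/
theorem good538 (h : Irr U T)
    (hmin : ∀ z, 4 ≤ (T z).ncard → ∀ s, s ⊆ T z → s ≠ T z →
      ¬ ∀ᶠ w in 𝓝 z, ∃ i ∈ s, w ∈ U i ∨ (w ∈ XX U ∧ i ∈ Pal U w))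
    (J : JCh T V ρ S C)
    (hF : ∀ z, (∃ a b c d, DPt T z a b c d) → Full T z)
    {e f : Fin k} (hT1 : ∀ i q, dist q (V (i + 1)) = 1 → 4 ≤ (T q).ncard → T q = S ∨
      (T q = Sᶜ ∪ (S \ C (i + 1)) ∧ ¬ ∃ a b c d, DPt T q a b c d) ∨ Away538 T (V (i + 1)) q e f)
    (hef : e ≠ f) (hSe : e ∉ S) (hSf : f ∉ S) (hcov : ∀ i, i = e ∨ i = f ∨ i ∈ S)
    {i : ℕ} {u : ℂ} {x : Fin k} (h4 : (T u).ncard ≤ 4) (hu : dist u (V (i + 2)) ≤ 1)
    (hu3 : dist u (V (i + 2)) = 1 → (T u).ncard ≤ 3)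
    (he : e ∈ T u) (hf : f ∈ T u) (hxe : x ≠ e) (hxf : x ≠ f) (hin : InnO T (V (i + 2)) u x)
    (hno : ∀ g, dist g u = 1 → ¬ T g ⊆ {e, f}) :
    ∃ y, y ∈ T u ∧ y ∈ C (i + 1) ∧ y ∈ C (i + 2) ∧ y ∈ C (i + 3) ∧
      (0 < (ρ (i + 1) - ρ i) * (ρ (i + 2) - ρ (i + 1)) → dist u (V (i + 2)) < 1) := by
  have hxu : x ∈ T u := hin.mem h
  have hD : ∀ j, ∃ a b c d, DPt T (V j) a b c d := by
    intro j
    obtain ⟨a, b, c, d, -, h1⟩ := J.dpt j
    exact ⟨a, b, c, d, h1⟩
  obtain ⟨y, hyu, hye, hyf, hy3, hycl⟩ := h.l2_538 hmin he hf hxu hef hxe hxf h4 fun hD => hF u hD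
  have hyS : y ∈ S := by
    rcases hcov y with h1 | h1 | h1
    · exact absurd h1 hye
    · exact absurd h1 hyf
    · exact h1
  have hI : InnO T (V (i + 2)) u y := by
    rcases hu.lt_or_eq with h1 | h1
    · exact subset_closure ⟨h1, hyu⟩
    · rw [hy3 (hu3 h1)]
      exact hin
  have hS4 : ∀ {q : ℂ}, (∃ a b c d, DPt T q a b c d) → (T q).ncard = 4 := by
    rintro q ⟨a, b, c, d, hq⟩
    rw [hq.pal, Set.ncard_insert_of_notMem (by simp [hq.ab, hq.ac, hq.ad]) (Set.toFinite _),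
      Set.ncard_insert_of_notMem (by simp [hq.bc, hq.bd]) (Set.toFinite _), Set.ncard_pair hq.cd]
  obtain ⟨c1, c2, c3, c4, -⟩ := J.common' h hSe he hu hyS hyu hI (by
    intro j hj hyC p hpu hpV hp1 hp2
    by_contra hcon
    have hmid : u + V (j + 1) ≠ 2 * p := by
      intro h1
      rcases hj with rfl | rfl | rfl
      · refine hp2 (mid169 hu ?_ hpV h1).symm
        rw [dist_comm]; exact J.rods.unit (j + 1)
      · have h2 : u - V (i + 1 + 1) = 2 * (p - V (i + 1 + 1)) := by linear_combination h1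
        have h3 : dist u (V (i + 1 + 1)) = 2 := by
          rw [dist_eq_norm, h2, norm_mul, ← dist_eq_norm, hpV, mul_one]; norm_num
        have h4 : dist u (V (i + 1 + 1)) ≤ 1 := hu
        linarith
      · refine hp1 (mid169 hu ?_ hpV h1).symm
        exact J.rods.unit (i + 2)
    have hnoA : ∀ g, ¬ Six.Arc T u g {e, f} := fun g hg => hno g hg.1 (by rw [hg.mem])
    by_cases hp3 : (T p).ncard ≤ 3
    · obtain ⟨k1, k2⟩ := h.l1_169 (z := V (j + 1)) (by rw [J.pal]; exact hcov) he hf hef hyu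
        (by rw [J.pal]; exact hyS) (by rw [J.pal]; exact hSe) (by rw [J.pal]; exact hSf) hp3 hpu hpV
        hmid hnoA hcon
      obtain ⟨k3, k4⟩ := hycl p k1.ge fun hDu hTpu => by
        have := hS4 hDu
        rw [← hTpu] at this
        omega
      rcases k2 with k2 | k2
      · exact k3 k2
      · exact k4 k2
    · rcases hT1 j p hpV (by omega) with h1 | ⟨h1, h2⟩ | h1
      · rcases J.pal_end538 (hF _ (hD (j + 1))) hpV h1 with h3 | h3
        · exact hp1 h3
        · exact hp2 h3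
      · -- a T1 point
        obtain ⟨a, b, c, d, hC, hV⟩ := J.dpt (j + 1)
        have hSV : S = {a, b, c, d} := by rw [← J.pal (j + 1), hV.pal]
        have hy2 : y = c ∨ y = d := by
          have h3 := hyS
          rw [hSV] at h3
          rw [hC] at hyC
          rcases h3 with h3 | h3 | h3 | h3
          · exact absurd (by rw [h3]; simp) hyC
          · exact absurd (by rw [h3]; simp) hyC
          · exact Or.inl h3
          · exact Or.inr h3
        have hsub : T p ⊆ {e, f, c, d} := by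
          intro l hl
          rw [h1] at hl
          rcases hl with hl | ⟨hl, hl'⟩
          · rcases hcov l with h3 | h3 | h3
            · exact Or.inl h3
            · exact Or.inr (Or.inl h3)
            · exact absurd h3 hl
          · rw [hSV] at hl
            rw [hC] at hl'
            rcases hl with h3 | h3 | h3 | h3
            · exact absurd (by rw [h3]; simp) hl'
            · exact absurd (by rw [h3]; simp) hl'
            · exact Or.inr (Or.inr (Or.inl h3))
            · exact Or.inr (Or.inr (Or.inr h3))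
        have hcV : c ∈ T (V (j + 1)) := by rw [hV.pal]; simp
        have hdV : d ∈ T (V (j + 1)) := by rw [hV.pal]; simp
        have heV : e ∉ T (V (j + 1)) := by rw [J.pal]; exact hSe
        have hp4 : 3 ≤ (T p).ncard := by omega
        obtain ⟨k3, k4⟩ := hycl p hp4 fun hDu hTpu => h2 (h.dpt_of_eq169 hDu hpu hTpu)
        have hfin : p ∈ closure {g | Six.Arc T u g {e, y}} ∨ p ∈ closure {g | Six.Arc T u g {f, y}} := by
          rcases hy2 with h3 | h3
          · exact h.l1_four538 (n := d) he hf hyu hdV heV (by rw [h3]; exact hsub) h4 hpu hpV hmid hnoA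
          · refine h.l1_four538 (n := c) he hf hyu hcV heV ?_ h4 hpu hpV hmid hnoA
            rw [h3]
            refine hsub.trans ?_
            intro l hl
            simp only [mem_insert_iff, mem_singleton_iff] at hl ⊢
            tauto
        rcases hfin with k2 | k2
        · exact k3 k2
        · exact k4 k2
      · exact hmid (h1 u (by rw [dist_comm]; exact hpu) he hf))
  exact ⟨y, hyu, c1, c2, c3, c4⟩

/-- **no J-chains**, from the conclusions of the parity lemma -/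
theorem false538 (J : JCh T V ρ S C) (h : Irr U T)
    (hmin : ∀ z, 4 ≤ (T z).ncard → ∀ s, s ⊆ T z → s ≠ T z →
      ¬ ∀ᶠ w in 𝓝 z, ∃ i ∈ s, w ∈ U i ∨ (w ∈ XX U ∧ i ∈ Pal U w))
    (h4 : ∀ z, (T z).ncard ≤ 4)
    (hF : ∀ z, (∃ a b c d, DPt T z a b c d) → Full T z)
    {e f : Fin k} (hT1 : ∀ i q, dist q (V (i + 1)) = 1 → 4 ≤ (T q).ncard → T q = S ∨
      (T q = Sᶜ ∪ (S \ C (i + 1)) ∧ ¬ ∃ a b c d, DPt T q a b c d) ∨ Away538 T (V (i + 1)) q e f)
    (hef : e ≠ f) (hSe : e ∉ S) (hSf : f ∉ S) (hcov : ∀ i, i = e ∨ i = f ∨ i ∈ S)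
    (hE : ∀ R : ℝ, (range V ∩ closedBall 0 R).Finite)
    (hPC : ∀ i, PC538 T (V (i + 2)) e f) (hPF : PF538 T (V 2) e f) : False := by
  obtain ⟨I, O, hIO⟩ := J.sides h
  have hS : JSd U V ρ C I O := ⟨fun i => (hIO i).1, fun i => (hIO i).2.1, fun i => (hIO i).2.2⟩
  have hty : ∀ i, (0 < (ρ (i + 1) - ρ i) * (ρ (i + 2) - ρ (i + 1)) ↔
      0 < (ρ (i + 2) - ρ (i + 1)) * (ρ (i + 3) - ρ (i + 2))) := by
    intro i
    obtain ⟨u, x, hu, hu3, he, hf, hxe, hxf, hin, hno⟩ := hPC i
    obtain ⟨y, -, c1, c2, c3, -⟩ :=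
      J.good538 h hmin hF hT1 hef hSe hSf hcov (h4 u) hu hu3 he hf hxe hxf hin hno
    exact J.same_type169 h hS c1 c2 c3
  by_cases h0 : 0 < (ρ (0 + 1) - ρ 0) * (ρ (0 + 2) - ρ (0 + 1))
  · -- constant orientation
    have hst : ∀ i, 0 < (ρ (i + 1) - ρ i) * (ρ (i + 2) - ρ (i + 1)) := by
      intro i
      induction i with
      | zero => exact h0
      | succ i ih => exact (hty i).1 ih
    have hI : ∀ i, I i = I 0 := by
      intro i
      induction i with
      | zero => rfl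
      | succ i ih => exact (J.junction_stay h hS (hst i)).1.trans ih
    have hIC : ∀ i, I 0 ∈ C (i + 1) := by
      intro i
      rw [hS.pair i, ← hI i]; simp
    have hfin := J.finite h hIC hE
    have hW : (evV V).Finite := hfin.subset (by rintro w ⟨j, -, rfl⟩; exact ⟨j, rfl⟩)
    have haS : I 0 ∈ S := J.C_sub 1 (hIC 0)
    obtain ⟨u, x, hu, hu3, he, hf, hxe, hxf, hin, ⟨w, ⟨j, hj, rfl⟩, hw⟩, hno⟩ :=
      hPF (I 0) (evV V) (odΓ V ρ) hW ⟨2, by decide, rfl⟩
        (fun z hz hz1 => J.stay_bd h hst hIC hfin hz hz1)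
        (fun y hy => ⟨J.odΓ_mem h hIC hy, fun h1 => hSe (J.odΓ_sub hy h1)⟩)
        (fun h1 => hSe (h1 ▸ haS)) (fun h1 => hSf (h1 ▸ haS))
    obtain ⟨y, hyT, c1, c2, c3, c4⟩ := J.good538 h hmin hF hT1 hef hSe hSf hcov (i := 0) (h4 u)
      hu hu3 he hf hxe hxf hin hno
    rw [hS.pair 0] at c1
    rw [hS.pair 1] at c2
    have hne := (J.junction_stay h hS (hst 0)).2
    have hx : y = I 0 := by
      rcases c1 with h4 | h4
      · exact h4
      · rw [mem_singleton_iff] at h4
        rcases c2 with h5 | h5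
        · exact h5.trans (hI 1)
        · rw [mem_singleton_iff] at h5
          exact absurd (h5.symm.trans h4) hne
    subst hx
    have h5 := h.curve_in169 J.preconn_evΓ (fun w hw => J.evΓ_mem h hIC hw) hyT
      (J.ev_mem_Γ (j := 2) (by decide)) (by rw [dist_comm]; exact c4 (hst 0)) (J.ev_mem_Γ hj)
    rw [dist_comm] at h5
    linarith
  · -- alternating orientation
    have h0' : (ρ (0 + 1) - ρ 0) * (ρ (0 + 2) - ρ (0 + 1)) < 0 :=
      lt_of_le_of_ne (not_lt.1 h0) (J.ori_ne 0)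
    have hsw : ∀ i, (ρ (i + 1) - ρ i) * (ρ (i + 2) - ρ (i + 1)) < 0 := by
      intro i
      induction i with
      | zero => exact h0'
      | succ i ih =>
        refine lt_of_le_of_ne (not_lt.1 fun h1 => ?_) (J.ori_ne (i + 1))
        exact absurd ((hty i).2 h1) (not_lt.2 ih.le)
    have hO' : ∀ i, O i = O 0 := by
      intro i
      induction i with
      | zero => rfl
      | succ i ih => exact (J.junction_switch h hS (hsw i)).1.trans ih
    exact JCh.switch h J (x := O 0) (fun i => by rw [hS.pair i, ← hO' i]; simp) hE hsw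

end JCh

end Vale.Agent.P032.Six
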